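import Mathlib

/-! # P202Y, YD1: compatible coefficient fields (Zorn + Hensel) (helper78) -/

namespace Vale.Agent.P202Y

open IsLocalRing Polynomial

universe u v w

section

variable {S : Type v} [CommRing S]

/-- all nonzero elements are units of the ambient ring -/
def YD1_good (A : Subring S) : Prop := ∀ x ∈ A, x ≠ 0 → IsUnit x

/-- a maximal good subring above a given one -/
theorem YD1_zorn (A0 : Subring S) (h0 : YD1_good A0) :
    ∃ A : Subring S, A0 ≤ A ∧ YD1_good A ∧ ∀ B : Subring S, YD1_good B → A ≤ B → B ≤ A := by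
  obtain ⟨A, hA, hm⟩ := zorn_le_nonempty₀ {A : Subring S | YD1_good A} (fun c hc hch y hy => by
    refine ⟨sSup c, ?_, fun z hz => le_sSup hz⟩
    intro x hx hx0
    have hx' : ∃ s ∈ c, x ∈ s := (Subring.mem_sSup_of_directedOn ⟨y, hy⟩ hch.directedOn).1 hx
    obtain ⟨s, hs, hxs⟩ := hx'
    exact hc hs x hxs hx0) A0 h0
  exact ⟨A, hA, hm.prop, fun B hB hAB => hm.2 hB hAB⟩

/-- a maximal good subring is closed under inverses -/
theorem YD1_inv (A : Subring S) (hA : YD1_good A)
    (hm : ∀ B : Subring S, YD1_good B → A ≤ B → B ≤ A) (x y : S) (hx : x ∈ A)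
    (hxy : x * y = 1) : y ∈ A := by
  let B : Subring S :=
    { carrier := {z | ∃ u ∈ A, IsUnit u ∧ u * z ∈ A}
      mul_mem' := by
        rintro a b ⟨u, hu, hu', hua⟩ ⟨w, hw, hw', hwb⟩
        refine ⟨u * w, A.mul_mem hu hw, hu'.mul hw', ?_⟩
        have : u * w * (a * b) = (u * a) * (w * b) := by ring
        rw [this]
        exact A.mul_mem hua hwb
      one_mem' := ⟨1, A.one_mem, isUnit_one, by simpa using A.one_mem⟩
      add_mem' := by
        rintro a b ⟨u, hu, hu', hua⟩ ⟨w, hw, hw', hwb⟩
        refine ⟨u * w, A.mul_mem hu hw, hu'.mul hw', ?_⟩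
        have : u * w * (a + b) = w * (u * a) + u * (w * b) := by ring
        rw [this]
        exact A.add_mem (A.mul_mem hw hua) (A.mul_mem hu hwb)
      zero_mem' := ⟨1, A.one_mem, isUnit_one, by simpa using A.zero_mem⟩
      neg_mem' := by
        rintro a ⟨u, hu, hu', hua⟩
        refine ⟨u, hu, hu', ?_⟩
        have : u * (-a) = -(u * a) := by ring
        rw [this]
        exact A.neg_mem hua }
  have hB : YD1_good B := by
    rintro z ⟨u, hu, hu', huz⟩ hz0
    by_cases h : u * z = 0
    · exfalso
      apply hz0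
      obtain ⟨w, hw⟩ := hu'.exists_left_inv
      calc z = (w * u) * z := by rw [hw, one_mul]
        _ = w * (u * z) := by ring
        _ = 0 := by rw [h, mul_zero]
    · exact isUnit_of_mul_isUnit_right (hA _ huz h)
  have hAB : A ≤ B := fun z hz => ⟨1, A.one_mem, isUnit_one, by simpa using hz⟩
  exact hm B hB hAB ⟨x, hx, IsUnit.of_mul_eq_one _ hxy, by rw [hxy]; exact A.one_mem⟩

/-- if all nonzero polynomial values are units, the element is in the maximal subring -/
theorem YD1_mem (A : Subring S)
    (hm : ∀ B : Subring S, YD1_good B → A ≤ B → B ≤ A) (s : S)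
    (hs : ∀ g : A[X], aeval s g ≠ 0 → IsUnit (aeval s g)) : s ∈ A := by
  let B : Subring S := (aeval s : A[X] →ₐ[A] S).toRingHom.range
  have hB : YD1_good B := by
    rintro z ⟨g, rfl⟩ hz
    exact hs g hz
  have hAB : A ≤ B := by
    intro z hz
    refine ⟨C ⟨z, hz⟩, ?_⟩
    simp [Algebra.algebraMap_eq_smul_one, Subring.smul_def]
  exact hm B hB hAB ⟨X, by simp⟩

end

/-- Coefficient field above a good subring. -/
theorem YD1_main (S : Type v) [CommRing S] [IsLocalRing S] [IsAdicComplete (maximalIdeal S) S]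
    [CharZero S] (A0 : Subring S) (h0 : YD1_good A0) :
    ∃ A : Subring S, A0 ≤ A ∧ IsField A ∧ ∀ x : S, ∃ t : A, x - t ∈ maximalIdeal S := by
  obtain ⟨A, hA0, hA, hm⟩ := YD1_zorn A0 h0
  have hF : IsField A := by
    refine ⟨⟨0, 1, zero_ne_one⟩, mul_comm, ?_⟩
    intro a ha
    have ha' : (a : S) ≠ 0 := fun h => ha (Subtype.ext h)
    obtain ⟨b, hb⟩ := (hA a a.2 ha').exists_right_inv
    exact ⟨⟨b, YD1_inv A hA hm a b a.2 hb⟩, Subtype.ext hb⟩
  refine ⟨A, hA0, hF, ?_⟩
  intro x
  letI : Field A := hF.toField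
  let κ := ResidueField S
  haveI : CharZero A := ⟨fun m n h => by
    have : ((m : A) : S) = ((n : A) : S) := by rw [h]
    simpa using this⟩
  let xb : κ := residue S x
  have hres : ∀ (s : S) (g : A[X]), residue S (aeval s g) = aeval (residue S s) g := by
    intro s g
    have h1 : (aeval (residue S s) g : κ) = eval₂ (algebraMap A κ) (residue S s) g := rfl
    have h2 : (aeval s g : S) = eval₂ (algebraMap A S) s g := rfl
    rw [h1, h2, hom_eval₂]
    rfl
  by_cases halg : IsAlgebraic A xb
  · have hint : IsIntegral A xb := halg.isIntegral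
    let f := minpoly A xb
    have hirr : Irreducible f := minpoly.irreducible hint
    have hsep : f.Separable := hirr.separable
    have hmon : f.Monic := minpoly.monic hint
    have hroot : aeval xb f = 0 := minpoly.aeval A xb
    have hder : aeval xb (derivative f) ≠ 0 := by
      obtain ⟨a, b, hab⟩ := hsep
      intro h
      have := congrArg (aeval xb) hab
      rw [map_add, map_mul, map_mul, hroot, h] at this
      simp at this
    obtain ⟨s, hs, hsx⟩ := HenselianRing.is_henselian (I := maximalIdeal S)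
      (f.map (algebraMap A S)) (hmon.map _) x (by
        rw [eval_map, ← residue_eq_zero_iff]
        exact (hres x f).trans hroot) (by
        rw [derivative_map, eval_map]
        have h1 : residue S (eval₂ (algebraMap A S) x (derivative f)) ≠ 0 := by
          intro h
          exact hder ((hres x (derivative f)).symm.trans h)
        exact isUnit_iff_ne_zero.2 h1)
    have hfs : aeval s f = 0 := by
      rw [IsRoot, eval_map] at hs
      exact hs
    have hsA : s ∈ A := by
      apply YD1_mem A hm s
      intro g hg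
      have hnd : ¬ f ∣ g := by
        rintro ⟨q, rfl⟩
        apply hg
        rw [map_mul, hfs, zero_mul]
      obtain ⟨a, b, hab⟩ := (hirr.coprime_iff_not_dvd.2 hnd)
      have := congrArg (aeval s) hab
      rw [map_add, map_mul, map_mul, hfs, mul_zero, zero_add, map_one] at this
      exact IsUnit.of_mul_eq_one_right _ this
    refine ⟨⟨s, hsA⟩, ?_⟩
    have := (maximalIdeal S).neg_mem hsx
    rwa [neg_sub] at this
  · have hxA : x ∈ A := by
      apply YD1_mem A hm x
      intro g hg
      have hg0 : g ≠ 0 := by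
        rintro rfl
        exact hg (map_zero _)
      have h1 : aeval xb g ≠ 0 := fun h => halg ⟨g, hg0, h⟩
      rw [← hres x g] at h1
      exact (residue_ne_zero_iff_isUnit _).1 h1
    exact ⟨⟨x, hxA⟩, by simp⟩

theorem exists_coef_proved (R : Type u) (S : Type v) [CommRing R] [IsLocalRing R] [CommRing S]
    [IsLocalRing S] [IsAdicComplete (maximalIdeal R) R] [IsAdicComplete (maximalIdeal S) S]
    [Algebra ℚ R] (φ : R →+* S) [IsLocalHom φ] :
    ∃ (k : Type u) (_ : Field k) (l : Type v) (_ : Field l) (a : k →+* R) (b : l →+* S)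
      (j : k →+* l), CharZero k ∧ CharZero l ∧ (∀ x, ∃ t, x - a t ∈ maximalIdeal R) ∧
      (∀ x, ∃ t, x - b t ∈ maximalIdeal S) ∧ b.comp j = φ.comp a := by
  letI : Algebra ℚ S := (φ.comp (algebraMap ℚ R)).toAlgebra
  haveI : CharZero R := algebraRat.charZero R
  haveI : CharZero S := algebraRat.charZero S
  obtain ⟨A, -, hAF, hAs⟩ := YD1_main R (algebraMap ℚ R).range (by
    rintro x ⟨q, rfl⟩ hq
    have hq0 : q ≠ 0 := by
      rintro rfl
      exact hq (map_zero _)
    exact (isUnit_iff_ne_zero.2 hq0).map (algebraMap ℚ R))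
  have hAu : ∀ x ∈ A, x ≠ 0 → IsUnit x := by
    intro x hx hx0
    obtain ⟨y, hy⟩ := hAF.mul_inv_cancel (a := ⟨x, hx⟩) (fun h => hx0 (congrArg Subtype.val h))
    exact IsUnit.of_mul_eq_one _ (congrArg Subtype.val hy)
  obtain ⟨B, hB0, hBF, hBs⟩ := YD1_main S (A.map φ) (by
    rintro x ⟨z, hz, rfl⟩ hx
    have hz0 : z ≠ 0 := by
      rintro rfl
      exact hx (map_zero _)
    exact (hAu z hz hz0).map φ)
  letI : Field A := hAF.toField
  letI : Field B := hBF.toField
  refine ⟨A, hAF.toField, B, hBF.toField, A.subtype, B.subtype,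
    (φ.comp A.subtype).codRestrict B (fun x => hB0 ⟨x, x.2, rfl⟩), ?_, ?_, ?_, ?_, ?_⟩
  · exact ⟨fun m n h => by
      have : ((m : A) : R) = ((n : A) : R) := by rw [h]
      simpa using this⟩
  · exact ⟨fun m n h => by
      have : ((m : B) : S) = ((n : B) : S) := by rw [h]
      simpa using this⟩
  · exact hAs
  · exact hBs
  · rfl

end Vale.Agent.P202Y
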