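import Mathlib

/-! # P202Y, module YD2: evaluation of power series in a complete local ring -/

namespace Vale.Agent.P202Y

open IsLocalRing MvPowerSeries

universe u v

theorem YD2_map_pow (D : ℕ) {l : Type u} [Field l] {S : Type v} [CommRing S] [IsLocalRing S]
    (f : MvPolynomial (Fin D) l →+* S) (hf : ∀ i, f (MvPolynomial.X i) ∈ maximalIdeal S) (n : ℕ) :
    MvPolynomial.idealOfVars (Fin D) l ^ n ≤ (maximalIdeal S ^ n).comap f := by
  have h1 : MvPolynomial.idealOfVars (Fin D) l ≤ (maximalIdeal S).comap f := by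
    unfold MvPolynomial.idealOfVars
    rw [Ideal.span_le]
    rintro _ ⟨i, rfl⟩
    exact hf i
  exact (Ideal.pow_right_mono h1 n).trans (Ideal.le_comap_pow f n)

/-- remainder of a power series after truncation -/
theorem YD2_decomp (D : ℕ) {l : Type u} [Field l] (f : MvPowerSeries (Fin D) l) (n : ℕ) :
    ∃ p : MvPolynomial (Fin D) l, f - (p : MvPowerSeries (Fin D) l) ∈
      (MvPolynomial.idealOfVars (Fin D) l ^ n • (⊤ : Submodule (MvPolynomial (Fin D) l)
        (MvPowerSeries (Fin D) l))) := by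
  refine ⟨truncTotal n f, ?_⟩
  set E := toAdicCompletionAlgEquiv (Fin D) l
  set g := f - ((truncTotal n f : MvPolynomial (Fin D) l) : MvPowerSeries (Fin D) l) with hg
  have h0 : truncTotal n g ∈ MvPolynomial.idealOfVars (Fin D) l ^ n := by
    refine (MvPolynomial.mem_pow_idealOfVars_iff' ..).mpr fun x hx => ?_
    rw [coeff_truncTotal _ hx, hg, map_sub, MvPolynomial.coeff_coe, coeff_truncTotal _ hx, sub_self]
  have h1 : E g ∈ (AdicCompletion.eval (MvPolynomial.idealOfVars (Fin D) l)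
      (MvPolynomial (Fin D) l) n).ker := by
    rw [LinearMap.mem_ker, AdicCompletion.eval_apply]
    show (toAdicCompletion (Fin D) l g).val n = 0
    rw [toAdicCompletion_apply_eq_mk_truncTotal]
    refine Ideal.Quotient.eq_zero_iff_mem.2 ?_
    rw [smul_eq_mul, Ideal.mul_top]
    exact h0
  rw [← AdicCompletion.pow_smul_top_eq_ker_eval (MvPolynomial.idealOfVars_fg _ _)] at h1
  have h2 : E.toLinearMap g ∈ Submodule.map E.toLinearMap
      (MvPolynomial.idealOfVars (Fin D) l ^ n • (⊤ : Submodule (MvPolynomial (Fin D) l)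
        (MvPowerSeries (Fin D) l))) := by
    rw [Submodule.map_smul'', Submodule.map_top, LinearMap.range_eq_top.2 E.surjective]
    exact h1
  obtain ⟨g', hg', e⟩ := h2
  rwa [E.injective e] at hg'

theorem YD2_unique (D : ℕ) {l : Type u} [Field l] {S : Type v} [CommRing S] [IsLocalRing S]
    [IsHausdorff (maximalIdeal S) S] (Ψ Ψ' : MvPowerSeries (Fin D) l →+* S)
    (hC : ∀ t, Ψ (MvPowerSeries.C t) = Ψ' (MvPowerSeries.C t))
    (hX : ∀ i, Ψ (MvPowerSeries.X i) = Ψ' (MvPowerSeries.X i))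
    (hm : ∀ i, Ψ (MvPowerSeries.X i) ∈ maximalIdeal S) : Ψ = Ψ' := by
  set ι : MvPolynomial (Fin D) l →+* MvPowerSeries (Fin D) l := MvPolynomial.coeToMvPowerSeries.ringHom
    with hι
  have hιC : ∀ t, ι (MvPolynomial.C t) = MvPowerSeries.C t := fun t => MvPolynomial.coe_C t
  have hιX : ∀ i, ι (MvPolynomial.X i) = MvPowerSeries.X i := fun i => MvPolynomial.coe_X i
  have hpoly : Ψ.comp ι = Ψ'.comp ι := by
    refine MvPolynomial.ringHom_ext (fun t => ?_) (fun i => ?_)
    · rw [RingHom.comp_apply, RingHom.comp_apply, hιC]; exact hC t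
    · rw [RingHom.comp_apply, RingHom.comp_apply, hιX]; exact hX i
  have hp1 : ∀ i, (Ψ.comp ι) (MvPolynomial.X i) ∈ maximalIdeal S := by
    intro i
    rw [RingHom.comp_apply, hιX]; exact hm i
  have hp2 : ∀ i, (Ψ'.comp ι) (MvPolynomial.X i) ∈ maximalIdeal S := by
    intro i
    rw [← hpoly]; exact hp1 i
  have key : ∀ (Θ : MvPowerSeries (Fin D) l →+* S),
      (∀ i, (Θ.comp ι) (MvPolynomial.X i) ∈ maximalIdeal S) → ∀ n g,
      g ∈ (MvPolynomial.idealOfVars (Fin D) l ^ n • (⊤ : Submodule (MvPolynomial (Fin D) l)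
        (MvPowerSeries (Fin D) l))) → Θ g ∈ maximalIdeal S ^ n := by
    intro Θ hΘ n g hg
    refine Submodule.smul_induction_on hg (fun p hp x _ => ?_) (fun x y hx hy => ?_)
    · have e : p • x = ι p * x := Algebra.smul_def p x
      rw [e, map_mul]
      exact Ideal.mul_mem_right _ _ (YD2_map_pow D (Θ.comp ι) hΘ n hp)
    · rw [map_add]; exact Ideal.add_mem _ hx hy
  refine RingHom.ext fun f => ?_
  rw [← sub_eq_zero]
  refine IsHausdorff.haus (I := maximalIdeal S) inferInstance _ fun n => ?_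
  rw [SModEq.zero, smul_eq_mul, Ideal.mul_top]
  obtain ⟨p, hp⟩ := YD2_decomp D f n
  have e1 : Ψ f = Ψ (f - (p : MvPowerSeries (Fin D) l)) + (Ψ.comp ι) p := by
    rw [map_sub]; show Ψ f = Ψ f - Ψ (ι p) + Ψ (ι p); ring
  have e2 : Ψ' f = Ψ' (f - (p : MvPowerSeries (Fin D) l)) + (Ψ.comp ι) p := by
    rw [hpoly, map_sub]; show Ψ' f = Ψ' f - Ψ' (ι p) + Ψ' (ι p); ring
  have e3 : Ψ f - Ψ' f = Ψ (f - (p : MvPowerSeries (Fin D) l))
      - Ψ' (f - (p : MvPowerSeries (Fin D) l)) := by
    rw [e1, e2]; ring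
  rw [e3]
  exact Ideal.sub_mem _ (key Ψ hp1 n _ hp) (key Ψ' hp2 n _ hp)

theorem YD2_exists (k : Type v) [CommRing k] (R : Type u) [CommRing R] [Algebra k R] (I : Ideal R)
    [IsAdicComplete I R] {D : ℕ} (y : Fin D → R) (hy : ∀ i, y i ∈ I) :
    ∃ φ : MvPowerSeries (Fin D) k →ₐ[k] R, ∀ i, φ (MvPowerSeries.X i) = y i := by
  letI : WithIdeal R := ⟨I⟩
  letI : UniformSpace k := ⊥
  haveI : DiscreteUniformity k := ⟨rfl⟩
  haveI h1 : CompleteSpace R := (IsAdic.isPrecomplete_iff (I := I) rfl).mp inferInstance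
  haveI h2 : T2Space R := (IsAdic.isHausdorff_iff (I := I) rfl).mp inferInstance
  haveI : ContinuousSMul k R := ⟨by
    refine continuous_iff_continuousAt.mpr ?_
    rintro ⟨c, r⟩
    have h3 : ContinuousAt (fun p : k × R => algebraMap k R p.1 * p.2) (c, r) := by
      refine ContinuousAt.mul ?_ continuousAt_snd
      exact (continuous_of_discreteTopology.comp continuous_fst).continuousAt
    refine h3.congr (Filter.Eventually.of_forall fun p => ?_)
    simp [Algebra.smul_def]⟩
  have hev : MvPowerSeries.HasEval y := by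
    refine ⟨fun i => ?_, ?_⟩
    · have hb := (Ideal.hasBasis_nhds_zero_adic I)
      refine (hb.tendsto_right_iff).mpr ?_
      intro n _
      filter_upwards [Filter.eventually_ge_atTop n] with m hm
      exact Ideal.pow_le_pow_right hm (Ideal.pow_mem_pow (hy i) m)
    · rw [Filter.cofinite_eq_bot]
      exact Filter.tendsto_bot
  exact ⟨MvPowerSeries.aeval hev, fun i => by
    have := MvPowerSeries.aeval_coe (R := k) hev (MvPolynomial.X i)
    simpa using this⟩

/-- YD2: evaluation of power series in a complete local ring (existence). -/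
theorem exists_psHom_proved (D : ℕ) {l : Type u} [Field l] {S : Type v} [CommRing S] [IsLocalRing S]
    [IsAdicComplete (maximalIdeal S) S] (b : l →+* S) (y : Fin D → S)
    (hy : ∀ i, y i ∈ maximalIdeal S) :
    ∃ Ψ : MvPowerSeries (Fin D) l →+* S, (∀ t, Ψ (MvPowerSeries.C t) = b t) ∧
      ∀ i, Ψ (MvPowerSeries.X i) = y i := by
  letI : Algebra l S := b.toAlgebra
  obtain ⟨φ, hφ⟩ := YD2_exists l S (maximalIdeal S) y hy
  exact ⟨φ.toRingHom, fun t => φ.commutes t, hφ⟩

/-- YD2': uniqueness. -/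
theorem psHom_unique_proved (D : ℕ) {l : Type u} [Field l] {S : Type v} [CommRing S] [IsLocalRing S]
    [IsHausdorff (maximalIdeal S) S] (Ψ Ψ' : MvPowerSeries (Fin D) l →+* S)
    (hC : ∀ t, Ψ (MvPowerSeries.C t) = Ψ' (MvPowerSeries.C t))
    (hX : ∀ i, Ψ (MvPowerSeries.X i) = Ψ' (MvPowerSeries.X i))
    (hm : ∀ i, Ψ (MvPowerSeries.X i) ∈ maximalIdeal S) : Ψ = Ψ' :=
  YD2_unique D Ψ Ψ' hC hX hm

end Vale.Agent.P202Y
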