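import Vale.Agent.P202.Dim

namespace Vale.Agent.P202Y

open IsLocalRing Vale.Agent.P202

universe u v

theorem YD5_soc {S : Type v} [CommRing S] [IsLocalRing S] [IsNoetherianRing S]
    (Z : Ideal S) (L : ℕ) (hL : cl Z = (L + 1 : ℕ)) :
    ∃ s : S, s ∉ Z ∧ ∀ x ∈ maximalIdeal S, s * x ∈ Z := by
  obtain ⟨K, hK⟩ := exists_pow_le_of_bounded Z (L + 1) fun N => by
    rw [← hL]
    exact cl_anti le_sup_left
  have hne : Z ≠ ⊤ := by
    intro h
    rw [h, cl_top] at hL
    have : (0 : ℕ) = L + 1 := by exact_mod_cast hL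
    omega
  classical
  have hex : ∃ K, maximalIdeal S ^ K ≤ Z := ⟨K, hK⟩
  have hmin := Nat.find_spec hex
  rcases Nat.eq_zero_or_pos (Nat.find hex) with h0 | hpos
  · rw [h0, pow_zero, Ideal.one_eq_top] at hmin
    exact absurd (top_le_iff.mp hmin) hne
  · obtain ⟨n, hn⟩ := Nat.exists_eq_succ_of_ne_zero hpos.ne'
    have hnot : ¬ maximalIdeal S ^ n ≤ Z := Nat.find_min hex (by omega)
    obtain ⟨s, hs, hsZ⟩ := Set.not_subset.mp hnot
    refine ⟨s, hsZ, fun x hx => ?_⟩
    apply hmin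
    rw [hn, pow_succ]
    exact Ideal.mul_mem_mul hs hx

theorem YD5_main (S : Type v) [CommRing S] [IsLocalRing S] [IsNoetherianRing S]
    {l : Type v} [Field l] (b : l →+* S) (hl : ∀ x, ∃ t, x - b t ∈ maximalIdeal S) (L : ℕ) :
    ∀ (Z : Ideal S) (_ : cl Z = L),
    ∃ g : Fin L → S,
      (∀ x ∈ maximalIdeal S, ∀ k, ∃ κ : Fin L → l, (∀ k', ¬ k' < k → κ k' = 0) ∧
        x * g k - ∑ k', b (κ k') * g k' ∈ Z) ∧
      ∀ x, ∃ κ : Fin L → l, x - ∑ k', b (κ k') * g k' ∈ Z := by
  induction L with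
  | zero =>
    intro Z hZ
    have hZt : Z = ⊤ := cl_eq_zero.mp (by simpa using hZ)
    refine ⟨Fin.elim0, fun x _ k => k.elim0, fun x => ⟨Fin.elim0, ?_⟩⟩
    rw [hZt]
    exact Submodule.mem_top
  | succ L ih =>
    intro Z hZ
    obtain ⟨s, hs, hsm⟩ := YD5_soc Z L hZ
    have h1 := cl_qt Z s
    have hq : qt Z s = maximalIdeal S := by
      refine le_antisymm (le_maximalIdeal ?_) (fun x hx => hsm x hx)
      intro h
      apply hs
      have : (1 : S) ∈ qt Z s := by rw [h]; exact Submodule.mem_top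
      rw [mem_qt, mul_one] at this
      exact this
    have hm1 : cl (maximalIdeal S) = 1 := by
      unfold cl
      rw [Module.length_eq_one_iff]
      exact (isSimpleModule_iff_isCoatom).mpr (maximalIdeal.isMaximal S).out
    have hZ' : cl (Z ⊔ Ideal.span {s}) = L := by
      rw [hZ, hq, hm1] at h1
      push_cast at h1
      rw [add_comm] at h1
      exact (ENat.add_right_injective_of_ne_top ENat.one_ne_top h1).symm
    obtain ⟨g, hg1, hg2⟩ := ih _ hZ'
    have hlift : ∀ a ∈ Z ⊔ Ideal.span {s}, ∃ t : l, a - b t * s ∈ Z := by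
      intro a ha
      obtain ⟨z, hz, w, hw, rfl⟩ := Submodule.mem_sup.mp ha
      obtain ⟨r, rfl⟩ := Ideal.mem_span_singleton'.mp hw
      obtain ⟨t, ht⟩ := hl r
      refine ⟨t, ?_⟩
      have : z + r * s - b t * s = z + s * (r - b t) := by ring
      rw [this]
      exact Z.add_mem hz (hsm _ ht)
    refine ⟨Fin.cons s g, ?_, ?_⟩
    · intro x hx k
      refine Fin.cases ?_ (fun j => ?_) k
      · refine ⟨0, fun _ _ => rfl, ?_⟩
        simp only [Fin.cons_zero, Pi.zero_apply, map_zero, zero_mul, Finset.sum_const_zero,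
          sub_zero]
        rw [mul_comm]
        exact hsm x hx
      · obtain ⟨κ, hκ0, hκ⟩ := hg1 x hx j
        obtain ⟨t, ht⟩ := hlift _ hκ
        refine ⟨Fin.cons t κ, ?_, ?_⟩
        · intro k' hk'
          revert hk'
          refine Fin.cases ?_ (fun j' => ?_) k'
          · intro h
            exact absurd (Fin.succ_pos j) h
          · intro h
            rw [Fin.cons_succ]
            exact hκ0 j' (fun h' => h (Fin.succ_lt_succ_iff.mpr h'))
        · rw [Fin.sum_univ_succ]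
          simp only [Fin.cons_zero, Fin.cons_succ]
          have : x * g j - (b t * s + ∑ i, b (κ i) * g i) =
            x * g j - ∑ i, b (κ i) * g i - b t * s := by ring
          rw [this]
          exact ht
    · intro x
      obtain ⟨κ, hκ⟩ := hg2 x
      obtain ⟨t, ht⟩ := hlift _ hκ
      refine ⟨Fin.cons t κ, ?_⟩
      rw [Fin.sum_univ_succ]
      simp only [Fin.cons_zero, Fin.cons_succ]
      have : x - (b t * s + ∑ i, b (κ i) * g i) =
        x - ∑ i, b (κ i) * g i - b t * s := by ring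
      rw [this]
      exact ht

theorem exists_series_proved (S : Type v) [CommRing S] [IsLocalRing S] [IsNoetherianRing S]
    {l : Type v} [Field l] (b : l →+* S) (hl : ∀ x, ∃ t, x - b t ∈ maximalIdeal S)
    (Z : Ideal S) (L : ℕ) (hL : Module.length S (S ⧸ Z) = L) :
    ∃ g : Fin L → S,
      (∀ x ∈ maximalIdeal S, ∀ k, ∃ κ : Fin L → l, (∀ k', ¬ k' < k → κ k' = 0) ∧
        x * g k - ∑ k', b (κ k') * g k' ∈ Z) ∧
      ∀ x, ∃ κ : Fin L → l, x - ∑ k', b (κ k') * g k' ∈ Z :=
  YD5_main S b hl L Z hL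

end Vale.Agent.P202Y
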