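import Vale.Agent.P202Y.Ps2

/-! # P202Y, YC1 (helper85) -/

namespace Vale.Agent.P202Y

open IsLocalRing

universe u

/-- YC1 -/
theorem mvps_maximal_proved (D : ℕ) (k : Type u) [Field k] :
    maximalIdeal (MvPowerSeries (Fin D) k) =
      Ideal.span (Set.range (MvPowerSeries.X : Fin D → MvPowerSeries (Fin D) k)) := by
  rw [maxIdeal_mvps, Ideal.ofList]
  congr 1
  ext x
  simp [List.mem_ofFn]

end Vale.Agent.P202Y
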