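import Vale.Agent.P202Y.Rings
import Vale.Agent.P202T.Defs
import Vale.Agent.P202.Def
import Mathlib

/-! # P202Y, module YD3: lifting a basis modulo a regular sequence (helper95)

The dimension of the power series ring is reduced one variable at a time. -/

namespace Vale.Agent.P202Y

open IsLocalRing Vale.Agent.P202 Vale.Agent.P202T RingTheory.Sequence

universe u v w

/-- a power series is its constant coefficient plus `X` times the shifted series -/
theorem yd3_shift {A : Type u} [CommRing A] (f : ℕ → A) :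
    (PowerSeries.mk f : PowerSeries A) =
      PowerSeries.C (f 0) + PowerSeries.X * PowerSeries.mk (fun n => f (n + 1)) := by
  ext n
  cases n with
  | zero => simp
  | succ n => simp [PowerSeries.coeff_succ_X_mul]

/-- existence part of the one variable step -/
theorem yd3_step_ex {A : Type u} [CommRing A] {S : Type v} [CommRing S] [IsLocalRing S]
    [IsNoetherianRing S] (Φ : PowerSeries A →+* S) (hX : Φ PowerSeries.X ∈ maximalIdeal S)
    {ι : Type} [Fintype ι] (s : ι → S)
    (hS : ∀ x : S, ∃ (a : ι → A) (r : S),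
      x = ∑ i, Φ (PowerSeries.C (a i)) * s i + Φ PowerSeries.X * r) (x : S) :
    ∃ a : ι → PowerSeries A, x = ∑ i, Φ (a i) * s i := by
  choose a r har using hS
  let ser : S → ι → PowerSeries A := fun x i => PowerSeries.mk (fun n => a (r^[n] x) i)
  have hser : ∀ x i, ser x i = PowerSeries.C (a x i) + PowerSeries.X * ser (r x) i := by
    intro x i
    exact yd3_shift (fun n => a (r^[n] x) i)
  have hF : ∀ x, x - ∑ i, Φ (ser x i) * s i =
      Φ PowerSeries.X * (r x - ∑ i, Φ (ser (r x) i) * s i) := by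
    intro x
    have h1 : ∑ i, Φ (ser x i) * s i = ∑ i, Φ (PowerSeries.C (a x i)) * s i +
        Φ PowerSeries.X * ∑ i, Φ (ser (r x) i) * s i := by
      rw [Finset.mul_sum, ← Finset.sum_add_distrib]
      refine Finset.sum_congr rfl fun i _ => ?_
      rw [hser x i, map_add, map_mul]
      ring
    have h2 := har x
    rw [h1]
    linear_combination h2
  have hpow : ∀ (n : ℕ) (x : S), x - ∑ i, Φ (ser x i) * s i ∈
      (Ideal.span {Φ PowerSeries.X} : Ideal S) ^ n := by
    intro n
    induction n with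
    | zero => intro x; simp
    | succ n ih =>
      intro x
      rw [hF x, pow_succ', ]
      exact Ideal.mul_mem_mul (Ideal.mem_span_singleton_self _) (ih (r x))
  have hne : (Ideal.span {Φ PowerSeries.X} : Ideal S) ≠ ⊤ := by
    intro h
    have h1 : (Ideal.span {Φ PowerSeries.X} : Ideal S) ≤ maximalIdeal S := by
      rw [Ideal.span_singleton_le_iff_mem]
      exact hX
    rw [h] at h1
    exact (maximalIdeal.isMaximal S).ne_top (top_le_iff.mp h1)
  have hinf := Ideal.iInf_pow_eq_bot_of_isLocalRing _ hne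
  refine ⟨ser x, ?_⟩
  have h0 : x - ∑ i, Φ (ser x i) * s i ∈
      (⨅ n : ℕ, (Ideal.span {Φ PowerSeries.X} : Ideal S) ^ n) := by
    rw [Ideal.mem_iInf]
    exact fun n => hpow n x
  rw [hinf, Ideal.mem_bot, sub_eq_zero] at h0
  exact h0

/-- uniqueness part of the one variable step -/
theorem yd3_step_un {A : Type u} [CommRing A] {S : Type v} [CommRing S]
    (Φ : PowerSeries A →+* S) (hreg : ∀ z, Φ PowerSeries.X * z = 0 → z = 0)
    {ι : Type} [Fintype ι] (s : ι → S)
    (hS : ∀ (a : ι → A) (r : S),
      ∑ i, Φ (PowerSeries.C (a i)) * s i + Φ PowerSeries.X * r = 0 → ∀ i, a i = 0) :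
    ∀ (n : ℕ) (d : ι → PowerSeries A), ∑ i, Φ (d i) * s i = 0 →
      ∀ i, PowerSeries.coeff n (d i) = 0 := by
  have key : ∀ (d : ι → PowerSeries A), ∑ i, Φ (d i) * s i = 0 →
      (∀ i, PowerSeries.coeff 0 (d i) = 0) ∧
      ∑ i, Φ (PowerSeries.mk fun n => PowerSeries.coeff (n + 1) (d i)) * s i = 0 := by
    intro d hd
    have h1 : ∀ i, d i = PowerSeries.C (PowerSeries.coeff 0 (d i)) + PowerSeries.X *
        PowerSeries.mk (fun n => PowerSeries.coeff (n + 1) (d i)) := by
      intro i
      have h2 := yd3_shift (fun n => PowerSeries.coeff n (d i))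
      have h3 : (PowerSeries.mk fun n => PowerSeries.coeff n (d i)) = d i := by
        ext n
        simp
      rw [h3] at h2
      exact h2
    have h4 : ∑ i, Φ (PowerSeries.C (PowerSeries.coeff 0 (d i))) * s i + Φ PowerSeries.X *
        ∑ i, Φ (PowerSeries.mk fun n => PowerSeries.coeff (n + 1) (d i)) * s i = 0 := by
      rw [← hd, Finset.mul_sum, ← Finset.sum_add_distrib]
      refine Finset.sum_congr rfl fun i _ => ?_
      have h5 : Φ (d i) = Φ (PowerSeries.C (PowerSeries.coeff 0 (d i))) + Φ PowerSeries.X *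
          Φ (PowerSeries.mk (fun n => PowerSeries.coeff (n + 1) (d i))) := by
        rw [← map_mul, ← map_add, ← h1 i]
      rw [h5]
      ring
    have h6 := hS _ _ h4
    refine ⟨h6, hreg _ ?_⟩
    have h7 : ∑ i, Φ (PowerSeries.C (PowerSeries.coeff 0 (d i))) * s i = 0 := by
      refine Finset.sum_eq_zero fun i _ => ?_
      rw [h6 i, map_zero, map_zero, zero_mul]
    rw [h7, zero_add] at h4
    exact h4
  intro n
  induction n with
  | zero => exact fun d hd => (key d hd).1
  | succ n ih =>
    intro d hd i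
    have h1 := ih _ (key d hd).2 i
    rwa [PowerSeries.coeff_mk] at h1

/-- the one variable step -/
theorem yd3_step {A : Type u} [CommRing A] {S : Type v} [CommRing S] [IsLocalRing S]
    [IsNoetherianRing S] (Φ : PowerSeries A →+* S) (hX : Φ PowerSeries.X ∈ maximalIdeal S)
    (hreg : ∀ z, Φ PowerSeries.X * z = 0 → z = 0)
    {ι : Type} [Fintype ι] (s : ι → S)
    (hS : ∀ x : S ⧸ Ideal.span {Φ PowerSeries.X}, ∃! a : ι → A,
      x = ∑ i, Ideal.Quotient.mk (Ideal.span {Φ PowerSeries.X}) (Φ (PowerSeries.C (a i))) *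
        Ideal.Quotient.mk (Ideal.span {Φ PowerSeries.X}) (s i)) (x : S) :
    ∃! a : ι → PowerSeries A, x = ∑ i, Φ (a i) * s i := by
  have hmk : ∀ (a : ι → A), ∑ i, Ideal.Quotient.mk (Ideal.span {Φ PowerSeries.X})
      (Φ (PowerSeries.C (a i))) * Ideal.Quotient.mk (Ideal.span {Φ PowerSeries.X}) (s i) =
      Ideal.Quotient.mk (Ideal.span {Φ PowerSeries.X})
        (∑ i, Φ (PowerSeries.C (a i)) * s i) := by
    intro a
    rw [map_sum]
    exact Finset.sum_congr rfl fun i _ => (map_mul _ _ _).symm
  obtain ⟨a, ha⟩ := yd3_step_ex Φ hX s (by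
    intro x
    obtain ⟨a, ha, -⟩ := hS (Ideal.Quotient.mk _ x)
    have ha' := ha.trans (hmk a)
    rw [Ideal.Quotient.eq, Ideal.mem_span_singleton'] at ha'
    obtain ⟨r, hr⟩ := ha'
    exact ⟨a, r, by linear_combination -hr⟩) x
  have hun := yd3_step_un Φ hreg s (by
    intro a r h i
    have h1 : (0 : S ⧸ Ideal.span {Φ PowerSeries.X}) =
        ∑ i, Ideal.Quotient.mk (Ideal.span {Φ PowerSeries.X})
      (Φ (PowerSeries.C (a i))) * Ideal.Quotient.mk (Ideal.span {Φ PowerSeries.X}) (s i) := by
      rw [hmk, eq_comm, Ideal.Quotient.eq_zero_iff_mem, Ideal.mem_span_singleton']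
      exact ⟨-r, by linear_combination -h⟩
    have h2 : (0 : S ⧸ Ideal.span {Φ PowerSeries.X}) =
        ∑ i, Ideal.Quotient.mk (Ideal.span {Φ PowerSeries.X})
      (Φ (PowerSeries.C ((0 : ι → A) i))) *
        Ideal.Quotient.mk (Ideal.span {Φ PowerSeries.X}) (s i) := by
      symm
      refine Finset.sum_eq_zero fun i _ => ?_
      rw [Pi.zero_apply, map_zero, map_zero, map_zero, zero_mul]
    exact congrFun ((hS 0).unique h1 h2) i)
  refine ⟨a, ha, fun b hb => ?_⟩
  funext i
  ext n
  have h1 : ∑ i, Φ ((b - a) i) * s i = 0 := by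
    have h2 : ∑ i, Φ ((b - a) i) * s i = ∑ i, Φ (b i) * s i - ∑ i, Φ (a i) * s i := by
      rw [← Finset.sum_sub_distrib]
      refine Finset.sum_congr rfl fun i _ => ?_
      rw [Pi.sub_apply, map_sub, sub_mul]
    have h3 : x = ∑ i, Φ (b i) * s i := hb
    rw [h2, ← h3, ← ha, sub_self]
  have h4 := hun n _ h1 i
  rw [Pi.sub_apply, map_sub, sub_eq_zero] at h4
  exact h4

open scoped Pointwise in
/-- the weak regularity of the tail in the quotient ring -/
theorem yd3_tail {S : Type v} [CommRing S] (y : S) (L : List S)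
    (h : IsWeaklyRegular S (y :: L)) :
    IsWeaklyRegular (S ⧸ Ideal.span {y}) (L.map (Ideal.Quotient.mk (Ideal.span {y}))) := by
  rw [isWeaklyRegular_cons_iff] at h
  have h2 := h.2
  have hI : (y • (⊤ : Submodule S S)) = (Ideal.span {y} : Ideal S) := by
    ext z
    rw [Submodule.mem_smul_pointwise_iff_exists, Ideal.mem_span_singleton']
    constructor
    · rintro ⟨w, -, hw⟩
      exact ⟨w, by rw [← hw, smul_eq_mul, mul_comm]⟩
    · rintro ⟨w, hw⟩
      exact ⟨w, trivial, by rw [← hw, smul_eq_mul, mul_comm]⟩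
  have h3 : IsWeaklyRegular (S ⧸ Ideal.span {y}) L :=
    ((Submodule.quotEquivOfEq _ _ hI).isWeaklyRegular_congr L).mp h2
  have h4 := (isWeaklyRegular_map_algebraMap_iff (R := S) (S := S ⧸ Ideal.span {y})
    (M := S ⧸ Ideal.span {y}) L).mpr h3
  exact h4

/-- a local homomorphism maps the maximal ideal into the maximal ideal -/
theorem yd3_map_mem {S : Type u} {T : Type v} [CommRing S] [CommRing T] [IsLocalRing S]
    [IsLocalRing T] (f : S →+* T) [IsLocalHom f] {x : S} (h : x ∈ maximalIdeal S) :
    f x ∈ maximalIdeal T := by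
  rw [mem_maximalIdeal, mem_nonunits_iff] at h ⊢
  exact fun h1 => h (isUnit_of_map_unit f x h1)

/-- the induction -/
theorem yd3_main {l : Type u} [Field l] {ι : Type} [Fintype ι] (D : ℕ) :
    ∀ {S : Type v} [CommRing S] [IsLocalRing S] [IsNoetherianRing S]
    (Ψ : MvPowerSeries (Fin D) l →+* S)
    (_ : ∀ i, Ψ (MvPowerSeries.X i) ∈ maximalIdeal S)
    (_ : IsWeaklyRegular S (List.ofFn fun i => Ψ (MvPowerSeries.X i)))
    (s : ι → S)
    (_ : ∀ x : S, ∃ t : ι → l, x - ∑ i, Ψ (MvPowerSeries.C (t i)) * s i ∈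
      Ideal.span (Set.range fun i => Ψ (MvPowerSeries.X i)))
    (_ : ∀ t : ι → l, ∑ i, Ψ (MvPowerSeries.C (t i)) * s i ∈
      Ideal.span (Set.range fun i => Ψ (MvPowerSeries.X i)) → t = 0) (x : S),
    ∃! a : ι → MvPowerSeries (Fin D) l, x = ∑ i, Ψ (a i) * s i := by
  induction D with
  | zero =>
    intro S _ _ _ Ψ hm hreg s hspan hind x
    have hbot : Ideal.span (Set.range fun i : Fin 0 => Ψ (MvPowerSeries.X i)) = ⊥ := by
      rw [Set.range_eq_empty, Ideal.span_empty]
    rw [hbot] at hspan hind
    have hC : ∀ p : MvPowerSeries (Fin 0) l,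
        p = MvPowerSeries.C (MvPowerSeries.constantCoeff p) := by
      intro p
      exact ((MvPowerSeries.isEmptyEquiv (Fin 0) l).symm_apply_apply p).symm
    obtain ⟨t, ht⟩ := hspan x
    rw [Ideal.mem_bot, sub_eq_zero] at ht
    refine ⟨fun i => MvPowerSeries.C (t i), ht, fun b hb => ?_⟩
    have hb' : x = ∑ i, Ψ (b i) * s i := hb
    have h1 := hind (fun i => MvPowerSeries.constantCoeff (b i) - t i) (by
      rw [Ideal.mem_bot]
      have h2 : ∑ i, Ψ (MvPowerSeries.C (MvPowerSeries.constantCoeff (b i) - t i)) * s i =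
          ∑ i, Ψ (b i) * s i - ∑ i, Ψ (MvPowerSeries.C (t i)) * s i := by
        rw [← Finset.sum_sub_distrib]
        refine Finset.sum_congr rfl fun i _ => ?_
        rw [map_sub, ← hC (b i), map_sub, sub_mul]
      rw [h2, ← hb', ← ht, sub_self])
    funext i
    have h3 := congrFun h1 i
    have h4 : MvPowerSeries.constantCoeff (b i) = t i := by
      have h5 : MvPowerSeries.constantCoeff (b i) - t i = 0 := h3
      exact sub_eq_zero.mp h5
    rw [hC (b i), h4]
  | succ D ih =>
    intro S _ _ _ Ψ hm hreg s hspan hind x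
    let E := MvPowerSeries.finSuccEquiv l D
    let Φ : PowerSeries (MvPowerSeries (Fin D) l) →+* S :=
      Ψ.comp (E.symm.toRingEquiv.toRingHom)
    have hΦ : ∀ p, Φ (E p) = Ψ p := by
      intro p
      change Ψ (E.symm (E p)) = Ψ p
      rw [AlgEquiv.symm_apply_apply]
    have hΦX : Φ PowerSeries.X = Ψ (MvPowerSeries.X 0) := by
      rw [← hΦ, MvPowerSeries.finSuccEquiv_X_zero]
    have hΦXs : ∀ i, Φ (PowerSeries.C (MvPowerSeries.X i)) = Ψ (MvPowerSeries.X i.succ) := by
      intro i
      rw [← hΦ, MvPowerSeries.finSuccEquiv_X_succ]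
    have hΦC : ∀ t, Φ (PowerSeries.C (MvPowerSeries.C t)) = Ψ (MvPowerSeries.C t) := by
      intro t
      rw [← hΦ, MvPowerSeries.finSuccEquiv_C]
    have hreg1 : IsWeaklyRegular S (Φ PowerSeries.X ::
        List.ofFn fun i : Fin D => Ψ (MvPowerSeries.X i.succ)) := by
      rw [hΦX]
      rw [List.ofFn_succ] at hreg
      exact hreg
    have hXm : Φ PowerSeries.X ∈ maximalIdeal S := by
      rw [hΦX]
      exact hm 0
    have hne : (Ideal.span {Φ PowerSeries.X} : Ideal S) ≠ ⊤ := by
      intro h
      have h1 : (Ideal.span {Φ PowerSeries.X} : Ideal S) ≤ maximalIdeal S := by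
        rw [Ideal.span_singleton_le_iff_mem]
        exact hXm
      rw [h] at h1
      exact (maximalIdeal.isMaximal S).ne_top (top_le_iff.mp h1)
    have hnt : Nontrivial (S ⧸ Ideal.span {Φ PowerSeries.X}) :=
      Ideal.Quotient.nontrivial_iff.mpr hne
    have hloc : IsLocalRing (S ⧸ Ideal.span {Φ PowerSeries.X}) :=
      IsLocalRing.of_surjective' (Ideal.Quotient.mk _) Ideal.Quotient.mk_surjective
    have hlh : IsLocalHom (Ideal.Quotient.mk (Ideal.span {Φ PowerSeries.X})) :=
      IsLocalHom.of_surjective _ Ideal.Quotient.mk_surjective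
    have hS := ih ((Ideal.Quotient.mk (Ideal.span {Φ PowerSeries.X})).comp
      (Φ.comp PowerSeries.C)) (by
        intro i
        change Ideal.Quotient.mk _ (Φ (PowerSeries.C (MvPowerSeries.X i))) ∈ _
        rw [hΦXs i]
        exact yd3_map_mem _ (hm i.succ)) (by
        have h1 := yd3_tail _ _ hreg1
        rw [List.map_ofFn] at h1
        have h2 : (fun i : Fin D => ((Ideal.Quotient.mk (Ideal.span {Φ PowerSeries.X})).comp
            (Φ.comp PowerSeries.C)) (MvPowerSeries.X i)) =
            (⇑(Ideal.Quotient.mk (Ideal.span {Φ PowerSeries.X})) ∘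
              fun i : Fin D => Ψ (MvPowerSeries.X i.succ)) := by
          funext i
          exact congrArg _ (hΦXs i)
        rw [h2]
        exact h1)
      (fun i => Ideal.Quotient.mk _ (s i)) (by
        intro x'
        obtain ⟨x, rfl⟩ := Ideal.Quotient.mk_surjective x'
        obtain ⟨t, ht⟩ := hspan x
        refine ⟨t, ?_⟩
        have h1 : Ideal.Quotient.mk (Ideal.span {Φ PowerSeries.X}) x -
            ∑ i, ((Ideal.Quotient.mk (Ideal.span {Φ PowerSeries.X})).comp
            (Φ.comp PowerSeries.C)) (MvPowerSeries.C (t i)) * Ideal.Quotient.mk _ (s i) =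
            Ideal.Quotient.mk (Ideal.span {Φ PowerSeries.X})
              (x - ∑ i, Ψ (MvPowerSeries.C (t i)) * s i) := by
          rw [map_sub, map_sum]
          congr 1
          refine Finset.sum_congr rfl fun i _ => ?_
          rw [map_mul]
          congr 1
          exact congrArg _ (hΦC (t i))
        rw [h1]
        have h2 : Ideal.span (Set.range fun i => Ψ (MvPowerSeries.X i)) ≤
            Ideal.comap (Ideal.Quotient.mk (Ideal.span {Φ PowerSeries.X}))
            (Ideal.span (Set.range fun i =>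
              ((Ideal.Quotient.mk (Ideal.span {Φ PowerSeries.X})).comp
              (Φ.comp PowerSeries.C)) (MvPowerSeries.X i))) := by
          rw [Ideal.span_le]
          rintro _ ⟨i, rfl⟩
          rw [SetLike.mem_coe, Ideal.mem_comap]
          refine Fin.cases ?_ (fun j => ?_) i
          · have h3 : Ideal.Quotient.mk (Ideal.span {Φ PowerSeries.X})
                (Ψ (MvPowerSeries.X 0)) = 0 := by
              rw [← hΦX, Ideal.Quotient.eq_zero_iff_mem]
              exact Ideal.mem_span_singleton_self _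
            rw [h3]
            exact Ideal.zero_mem _
          · refine Ideal.subset_span ⟨j, ?_⟩
            exact congrArg _ (hΦXs j)
        exact h2 ht) (by
        intro t ht
        apply hind t
        have h1 : ∑ i, ((Ideal.Quotient.mk (Ideal.span {Φ PowerSeries.X})).comp
            (Φ.comp PowerSeries.C)) (MvPowerSeries.C (t i)) * Ideal.Quotient.mk _ (s i) =
            Ideal.Quotient.mk (Ideal.span {Φ PowerSeries.X})
              (∑ i, Ψ (MvPowerSeries.C (t i)) * s i) := by
          rw [map_sum]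
          refine Finset.sum_congr rfl fun i _ => ?_
          rw [map_mul]
          congr 1
          exact congrArg _ (hΦC (t i))
        rw [h1] at ht
        have h2 : Ideal.span (Set.range fun i =>
              ((Ideal.Quotient.mk (Ideal.span {Φ PowerSeries.X})).comp
              (Φ.comp PowerSeries.C)) (MvPowerSeries.X i)) ≤
            Ideal.map (Ideal.Quotient.mk (Ideal.span {Φ PowerSeries.X}))
              (Ideal.span (Set.range fun i => Ψ (MvPowerSeries.X i))) := by
          rw [Ideal.span_le]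
          rintro _ ⟨i, rfl⟩
          have h3 : ((Ideal.Quotient.mk (Ideal.span {Φ PowerSeries.X})).comp
              (Φ.comp PowerSeries.C)) (MvPowerSeries.X i) =
              Ideal.Quotient.mk (Ideal.span {Φ PowerSeries.X})
                (Ψ (MvPowerSeries.X i.succ)) := congrArg _ (hΦXs i)
          rw [SetLike.mem_coe]
          change ((Ideal.Quotient.mk (Ideal.span {Φ PowerSeries.X})).comp
              (Φ.comp PowerSeries.C)) (MvPowerSeries.X i) ∈ _
          rw [h3]
          exact Ideal.mem_map_of_mem _ (Ideal.subset_span ⟨i.succ, rfl⟩)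
        have h4 := h2 ht
        rw [Ideal.mem_map_iff_of_surjective _ Ideal.Quotient.mk_surjective] at h4
        obtain ⟨w, hw, hwz⟩ := h4
        rw [Ideal.Quotient.eq] at hwz
        have h5 : (Ideal.span {Φ PowerSeries.X} : Ideal S) ≤
            Ideal.span (Set.range fun i => Ψ (MvPowerSeries.X i)) := by
          rw [Ideal.span_singleton_le_iff_mem, hΦX]
          exact Ideal.subset_span ⟨0, rfl⟩
        have h6 := Ideal.sub_mem _ hw (h5 hwz)
        rwa [sub_sub_cancel] at h6)
    have hnz : ∀ z, Φ PowerSeries.X * z = 0 → z = 0 := by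
      intro z hz
      have h1 := ((isWeaklyRegular_cons_iff _ _ _).mp hreg1).1
      refine h1 (a₁ := z) (a₂ := 0) ?_
      change Φ PowerSeries.X * z = Φ PowerSeries.X * 0
      rw [hz, mul_zero]
    obtain ⟨a, ha, hau⟩ := yd3_step Φ hXm hnz s hS x
    refine ⟨fun i => E.symm (a i), ha, fun b hb => ?_⟩
    have h1 := hau (fun i => E (b i)) (by
      have hb' : x = ∑ i, Ψ (b i) * s i := hb
      change x = ∑ i, Φ (E (b i)) * s i
      rw [hb']
      exact Finset.sum_congr rfl fun i _ => by rw [hΦ])
    funext i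
    have h2 : E (b i) = a i := congrFun h1 i
    rw [← h2, AlgEquiv.symm_apply_apply]

/-- YD3: lifting a basis modulo a regular sequence to a basis over the power series ring. -/
theorem basis_lift_proved (D : ℕ) {l : Type u} [Field l] {S : Type v} [CommRing S] [IsLocalRing S]
    [IsNoetherianRing S] [IsAdicComplete (maximalIdeal S) S]
    (Ψ : MvPowerSeries (Fin D) l →+* S)
    (hm : ∀ i, Ψ (MvPowerSeries.X i) ∈ maximalIdeal S)
    (hreg : IsRegular S (List.ofFn fun i => Ψ (MvPowerSeries.X i))) {ι : Type} [Fintype ι]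
    (s : ι → S)
    (hspan : ∀ x : S, ∃ t : ι → l, x - ∑ i, Ψ (MvPowerSeries.C (t i)) * s i ∈
      Ideal.span (Set.range fun i => Ψ (MvPowerSeries.X i)))
    (hind : ∀ t : ι → l, ∑ i, Ψ (MvPowerSeries.C (t i)) * s i ∈
      Ideal.span (Set.range fun i => Ψ (MvPowerSeries.X i)) → t = 0) (x : S) :
    ∃! a : ι → MvPowerSeries (Fin D) l, x = ∑ i, Ψ (a i) * s i :=
  yd3_main D Ψ hm hreg.toIsWeaklyRegular s hspan hind x

end Vale.Agent.P202Y
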