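import Vale.Agent.P202Y.Defs

/-! # P202Y, YD7 part a: relations from a bijection with a ring (helper7) -/

namespace Vale.Agent.P202Y

universe u v

section

variable {A : Type u} {S : Type v} [CommRing A] [CommRing S] (Ψ : A →+* S) {e r : ℕ}
  (ρ : Fin (e + 1) → S) (σ : Fin (r + 1) → S)

/-- `x ↦ ∑ Ψ(x_n) ρ_n` -/
def YD7Phi (x : Fin (e + 1) → A) : S := ∑ n, Ψ (x n) * ρ n

/-- `x ↦ ∑ Φ(x_m) σ_m` -/
def YD7Theta (x : Fin (r + 1) → Fin (e + 1) → A) : S := ∑ m, YD7Phi Ψ ρ (x m) * σ m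

theorem YD7Phi_add (x y : Fin (e + 1) → A) :
    YD7Phi Ψ ρ (fun n => x n + y n) = YD7Phi Ψ ρ x + YD7Phi Ψ ρ y := by
  unfold YD7Phi
  rw [← Finset.sum_add_distrib]
  exact Finset.sum_congr rfl fun n _ => by rw [map_add, add_mul]

theorem YD7Phi_smul (t : A) (x : Fin (e + 1) → A) :
    YD7Phi Ψ ρ (fun n => t * x n) = Ψ t * YD7Phi Ψ ρ x := by
  unfold YD7Phi
  rw [Finset.mul_sum]
  exact Finset.sum_congr rfl fun n _ => by rw [map_mul, mul_assoc]

theorem YD7Phi_sum {ι : Type*} (s : Finset ι) (x : ι → Fin (e + 1) → A) :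
    YD7Phi Ψ ρ (fun n => ∑ i ∈ s, x i n) = ∑ i ∈ s, YD7Phi Ψ ρ (x i) := by
  unfold YD7Phi
  rw [Finset.sum_comm]
  exact Finset.sum_congr rfl fun n _ => by rw [map_sum, Finset.sum_mul]

theorem YD7Phi_bR (i : Fin (e + 1)) : YD7Phi Ψ ρ (bR A e i) = ρ i := by
  unfold YD7Phi bR
  rw [Finset.sum_eq_single i]
  · simp
  · intro b _ hb; simp [hb]
  · intro h; exact absurd (Finset.mem_univ _) h

theorem YD7Phi_oR (h0 : ρ 0 = 1) : YD7Phi Ψ ρ (oR A e) = 1 := by
  have h : oR A e = bR A e 0 := rfl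
  rw [h, YD7Phi_bR, h0]

theorem YD7Theta_add (x y : Fin (r + 1) → Fin (e + 1) → A) :
    YD7Theta Ψ ρ σ (fun m n => x m n + y m n) = YD7Theta Ψ ρ σ x + YD7Theta Ψ ρ σ y := by
  unfold YD7Theta
  rw [← Finset.sum_add_distrib]
  exact Finset.sum_congr rfl fun n _ => by rw [YD7Phi_add, add_mul]

theorem YD7Theta_smul (t : A) (x : Fin (r + 1) → Fin (e + 1) → A) :
    YD7Theta Ψ ρ σ (fun m n => t * x m n) = Ψ t * YD7Theta Ψ ρ σ x := by
  unfold YD7Theta
  rw [Finset.mul_sum]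
  exact Finset.sum_congr rfl fun n _ => by rw [YD7Phi_smul, mul_assoc]

theorem YD7Theta_sum {ι : Type*} (s : Finset ι) (x : ι → Fin (r + 1) → Fin (e + 1) → A) :
    YD7Theta Ψ ρ σ (fun m n => ∑ i ∈ s, x i m n) = ∑ i ∈ s, YD7Theta Ψ ρ σ (x i) := by
  unfold YD7Theta
  rw [Finset.sum_comm]
  exact Finset.sum_congr rfl fun n _ => by rw [YD7Phi_sum, Finset.sum_mul]

theorem YD7Theta_bS (b : Fin (r + 1)) (a : Fin (e + 1)) :
    YD7Theta Ψ ρ σ (bS A e r b a) = ρ a * σ b := by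
  unfold YD7Theta
  rw [Finset.sum_eq_single b]
  · have h : (bS A e r b a b) = bR A e a := by
      funext n
      simp [bS, bR]
    rw [h, YD7Phi_bR]
  · intro m _ hm
    have h : (bS A e r b a m) = fun _ => 0 := by
      funext n
      simp [bS, hm]
    rw [h]
    simp [YD7Phi]
  · intro h; exact absurd (Finset.mem_univ _) h

variable (c : Fin (e + 1) → Fin (e + 1) → Fin (e + 1) → A)
  (hc : ∀ i j, YD7Phi Ψ ρ (c i j) = ρ i * ρ j)

include hc in
theorem YD7Phi_mR (x y : Fin (e + 1) → A) :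
    YD7Phi Ψ ρ (mR c x y) = YD7Phi Ψ ρ x * YD7Phi Ψ ρ y := by
  unfold mR
  rw [YD7Phi_sum]
  have h1 : ∀ i, YD7Phi Ψ ρ (fun m => ∑ j, x i * y j * c i j m) =
      ∑ j, Ψ (x i) * ρ i * (Ψ (y j) * ρ j) := by
    intro i
    rw [YD7Phi_sum]
    refine Finset.sum_congr rfl fun j _ => ?_
    rw [YD7Phi_smul, hc, map_mul]
    ring
  rw [Finset.sum_congr rfl fun i _ => h1 i]
  unfold YD7Phi
  rw [Finset.sum_mul_sum]

variable (d : Fin (r + 1) → Fin (r + 1) → Fin (r + 1) → Fin (e + 1) → A)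
  (hd : ∀ i j, YD7Theta Ψ ρ σ (d i j) = σ i * σ j)

include hc hd in
theorem YD7Theta_mS (x y : Fin (r + 1) → Fin (e + 1) → A) :
    YD7Theta Ψ ρ σ (mS c d x y) = YD7Theta Ψ ρ σ x * YD7Theta Ψ ρ σ y := by
  have h1 : YD7Theta Ψ ρ σ (mS c d x y) =
      ∑ i, ∑ j, YD7Phi Ψ ρ (x i) * YD7Phi Ψ ρ (y j) * YD7Theta Ψ ρ σ (d i j) := by
    have h2 : mS c d x y = fun m n => ∑ i, ∑ j, mR c (mR c (x i) (y j)) (d i j m) n := by
      funext m n
      simp [mS, Finset.sum_apply]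
    rw [h2, YD7Theta_sum]
    refine Finset.sum_congr rfl fun i _ => ?_
    rw [YD7Theta_sum]
    refine Finset.sum_congr rfl fun j _ => ?_
    unfold YD7Theta
    rw [Finset.mul_sum]
    refine Finset.sum_congr rfl fun m _ => ?_
    have h3 := YD7Phi_mR Ψ ρ c hc (mR c (x i) (y j)) (d i j m)
    have h4 : YD7Phi Ψ ρ (fun n => mR c (mR c (x i) (y j)) (d i j m) n) =
      YD7Phi Ψ ρ (mR c (mR c (x i) (y j)) (d i j m)) := rfl
    rw [h4, h3, YD7Phi_mR Ψ ρ c hc]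
    ring
  rw [h1]
  have h5 : ∀ i j, YD7Phi Ψ ρ (x i) * YD7Phi Ψ ρ (y j) * YD7Theta Ψ ρ σ (d i j) =
      (YD7Phi Ψ ρ (x i) * σ i) * (YD7Phi Ψ ρ (y j) * σ j) := by
    intro i j
    rw [hd]
    ring
  simp only [h5]
  rw [← Finset.sum_mul_sum]
  rfl

include hc in
theorem YD7Phi_lR (h0 : ρ 0 = 1) (l : List (Fin (e + 1) → A)) :
    YD7Phi Ψ ρ (lR c l) = (l.map (YD7Phi Ψ ρ)).prod := by
  induction l with
  | nil => rw [List.map_nil, List.prod_nil]; exact YD7Phi_oR Ψ ρ h0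
  | cons x l ih =>
    rw [List.map_cons, List.prod_cons, ← ih]
    exact YD7Phi_mR Ψ ρ c hc x (lR c l)

include hc hd in
theorem YD7Theta_pS (h0 : ρ 0 = 1) (s0 : σ 0 = 1) (x : Fin (r + 1) → Fin (e + 1) → A) (k : ℕ) :
    YD7Theta Ψ ρ σ (pS c d x k) = YD7Theta Ψ ρ σ x ^ k := by
  induction k with
  | zero =>
    change YD7Theta Ψ ρ σ (bS A e r 0 0) = _
    rw [YD7Theta_bS, h0, s0, mul_one, pow_zero]
  | succ k ih =>
    change YD7Theta Ψ ρ σ (mS c d (pS c d x k) x) = _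
    rw [YD7Theta_mS Ψ ρ σ c hc d hd, ih, pow_succ]

end

/-- The relations, from identities in a ring with coordinates. -/
theorem YD7_rel {A : Type u} {S : Type v} [CommRing A] [CommRing S] (Ψ : A →+* S)
    {D e r L c K : ℕ} (y : Fin D → A) (T : Idx D e r L c → A)
    (ρ : Fin (e + 1) → S) (σ : Fin (r + 1) → S) (h0 : ρ 0 = 1) (s0 : σ 0 = 1)
    (hinj : ∀ x x' : Fin (r + 1) → Fin (e + 1) → A, YD7Theta Ψ ρ σ x = YD7Theta Ψ ρ σ x' → x = x')
    (hc : ∀ i j, YD7Phi Ψ ρ (Tc T i j) = ρ i * ρ j)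
    (hd : ∀ i j, YD7Theta Ψ ρ σ (Td T i j) = σ i * σ j)
    (hred : ∀ f : Fin (c + 1) → Fin e, (List.ofFn fun j => ρ (f j).succ).prod =
      ∑ ν, ∑ g : Fin c → Fin e ⊕ Fin D, Ψ (y ν) * (YD7Phi Ψ ρ (fun n => T (.red f ν g n)) *
        (List.ofFn fun j => Sum.elim (fun i : Fin e => ρ i.succ) (fun ν => Ψ (y ν)) (g j)).prod))
    (hnl : ∀ (j : Fin r) (x : Fin (r + 1) → Fin (e + 1) → A),
      YD7Theta Ψ ρ σ x = σ j.succ ^ K → ∀ m, x m 0 = ∑ ν, y ν * T (.nl j m ν))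
    (hzc : ∀ ν, Tz T ν 0 0 = ∑ μ, y μ * T (.zc ν μ))
    (hka : ∀ ν k, Ψ (y ν) * YD7Theta Ψ ρ σ (Tg T k) =
      (∑ k' : Fin L, if k' < k then Ψ (T (.ka ν k k')) * YD7Theta Ψ ρ σ (Tg T k') else 0) +
      ∑ μ, YD7Theta Ψ ρ σ (Tz T μ) * YD7Theta Ψ ρ σ (fun m n => T (.w ν k μ m n)))
    (hla : ∀ a b, ρ b * σ a = (∑ k : Fin L, Ψ (T (.la a b k)) * YD7Theta Ψ ρ σ (Tg T k)) +
      ∑ μ, YD7Theta Ψ ρ σ (Tz T μ) * YD7Theta Ψ ρ σ (fun m n => T (.v a b μ m n))) :
    Rel K y T := by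
  -- injectivity of `Φ`
  have hinj' : ∀ x x' : Fin (e + 1) → A, YD7Phi Ψ ρ x = YD7Phi Ψ ρ x' → x = x' := by
    intro x x' hx
    have h1 : ∀ z : Fin (e + 1) → A, YD7Theta Ψ ρ σ (fun m n => if m = 0 then z n else 0) =
        YD7Phi Ψ ρ z := by
      intro z
      unfold YD7Theta
      rw [Finset.sum_eq_single 0]
      · simp [s0]
      · intro m _ hm
        simp [hm, YD7Phi]
      · intro h; exact absurd (Finset.mem_univ _) h
    have h2 := hinj (fun m n => if m = 0 then x n else 0) (fun m n => if m = 0 then x' n else 0)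
      (by rw [h1, h1, hx])
    funext n
    have h3 := congrFun (congrFun h2 0) n
    simpa using h3
  have hΘ : ∀ x x' : Fin (r + 1) → Fin (e + 1) → A,
      YD7Theta Ψ ρ σ x = YD7Theta Ψ ρ σ x' → ∀ m n, x m n = x' m n := by
    intro x x' hx m n
    rw [hinj x x' hx]
  have hΦ : ∀ x x' : Fin (e + 1) → A,
      YD7Phi Ψ ρ x = YD7Phi Ψ ρ x' → ∀ n, x n = x' n := by
    intro x x' hx n
    rw [hinj' x x' hx]
  refine ⟨?_, ?_, ?_, ?_, ?_, ?_, ?_, ?_, hzc, ?_, ?_⟩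
  · -- runit
    intro j m
    have h1 := hΦ (Tc T 0 j) (bR A e j) (by rw [hc, h0, one_mul, YD7Phi_bR]) m
    rw [h1]
    simp [bR, eq_comm]
  · -- rcomm
    intro i j m
    exact hΦ (Tc T i j) (Tc T j i) (by rw [hc, hc, mul_comm]) m
  · -- rassoc
    intro i j k l
    refine hΦ (fun l => ∑ m, Tc T i j m * Tc T m k l) (fun l => ∑ m, Tc T j k m * Tc T i m l)
      ?_ l
    rw [YD7Phi_sum, YD7Phi_sum]
    have e1 : ∑ m, YD7Phi Ψ ρ (fun n => Tc T i j m * Tc T m k n) = YD7Phi Ψ ρ (Tc T i j) * ρ k := by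
      unfold YD7Phi
      rw [Finset.sum_mul]
      refine Finset.sum_congr rfl fun m _ => ?_
      have := YD7Phi_smul Ψ ρ (Tc T i j m) (Tc T m k)
      unfold YD7Phi at this
      rw [this]
      have := hc m k
      unfold YD7Phi at this
      rw [this]
      ring
    have e2 : ∑ m, YD7Phi Ψ ρ (fun n => Tc T j k m * Tc T i m n) = ρ i * YD7Phi Ψ ρ (Tc T j k) := by
      unfold YD7Phi
      rw [Finset.mul_sum]
      refine Finset.sum_congr rfl fun m _ => ?_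
      have := YD7Phi_smul Ψ ρ (Tc T j k m) (Tc T i m)
      unfold YD7Phi at this
      rw [this]
      have := hc i m
      unfold YD7Phi at this
      rw [this]
      ring
    rw [e1, e2, hc, hc, mul_assoc]
  · -- sunit
    intro j m n
    have h1 := hΘ (Td T 0 j) (bS A e r j 0) (by rw [hd, s0, one_mul, YD7Theta_bS, h0, one_mul]) m n
    rw [h1]
    unfold bS oR
    by_cases hjm : j = m
    · subst hjm; simp
    · rw [if_neg hjm, if_neg]
      rintro ⟨h2, -⟩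
      exact hjm h2.symm
  · -- scomm
    intro i j m n
    exact hΘ (Td T i j) (Td T j i) (by rw [hd, hd, mul_comm]) m n
  · -- sassoc
    intro i j k l n
    refine hΘ (fun l n => ∑ m, mR (Tc T) (Td T i j m) (Td T m k l) n)
      (fun l n => ∑ m, mR (Tc T) (Td T j k m) (Td T i m l) n) ?_ l n
    rw [YD7Theta_sum, YD7Theta_sum]
    have e1 : ∑ m, YD7Theta Ψ ρ σ (fun l n => mR (Tc T) (Td T i j m) (Td T m k l) n) =
        YD7Theta Ψ ρ σ (Td T i j) * σ k := by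
      have h2 : ∀ m, YD7Theta Ψ ρ σ (fun l n => mR (Tc T) (Td T i j m) (Td T m k l) n) =
          YD7Phi Ψ ρ (Td T i j m) * (σ m * σ k) := by
        intro m
        rw [← hd m k]
        unfold YD7Theta
        rw [Finset.mul_sum]
        refine Finset.sum_congr rfl fun l _ => ?_
        have := YD7Phi_mR Ψ ρ (Tc T) hc (Td T i j m) (Td T m k l)
        rw [← mul_assoc, ← this]
      rw [Finset.sum_congr rfl fun m _ => h2 m]
      unfold YD7Theta
      rw [Finset.sum_mul]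
      exact Finset.sum_congr rfl fun m _ => by ring
    have e2 : ∑ m, YD7Theta Ψ ρ σ (fun l n => mR (Tc T) (Td T j k m) (Td T i m l) n) =
        σ i * YD7Theta Ψ ρ σ (Td T j k) := by
      have h2 : ∀ m, YD7Theta Ψ ρ σ (fun l n => mR (Tc T) (Td T j k m) (Td T i m l) n) =
          YD7Phi Ψ ρ (Td T j k m) * (σ i * σ m) := by
        intro m
        rw [← hd i m]
        unfold YD7Theta
        rw [Finset.mul_sum]
        refine Finset.sum_congr rfl fun l _ => ?_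
        have := YD7Phi_mR Ψ ρ (Tc T) hc (Td T j k m) (Td T i m l)
        rw [← mul_assoc, ← this]
      rw [Finset.sum_congr rfl fun m _ => h2 m]
      unfold YD7Theta
      rw [Finset.mul_sum]
      exact Finset.sum_congr rfl fun m _ => by ring
    rw [e1, e2, hd, hd, mul_assoc]
  · -- red
    intro f n
    refine hΦ (lR (Tc T) (List.ofFn fun j => bR A e (f j).succ))
      (fun n => ∑ ν, ∑ g : Fin c → Fin e ⊕ Fin D, y ν *
        mR (Tc T) (fun n => T (.red f ν g n)) (lR (Tc T) (List.ofFn fun j => gen y e (g j))) n)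
      ?_ n
    rw [YD7Phi_lR Ψ ρ (Tc T) hc h0, YD7Phi_sum]
    have e1 : (List.ofFn fun j => bR A e (f j).succ).map (YD7Phi Ψ ρ) =
        List.ofFn fun j => ρ (f j).succ := by
      rw [List.map_ofFn]
      congr 1
      funext j
      exact YD7Phi_bR Ψ ρ _
    rw [e1, hred]
    refine Finset.sum_congr rfl fun ν _ => ?_
    rw [YD7Phi_sum]
    refine Finset.sum_congr rfl fun g _ => ?_
    rw [YD7Phi_smul]
    congr 1
    have h3 := YD7Phi_mR Ψ ρ (Tc T) hc (fun n => T (.red f ν g n))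
      (lR (Tc T) (List.ofFn fun j => gen y e (g j)))
    have h4 : YD7Phi Ψ ρ (fun n => mR (Tc T) (fun n => T (.red f ν g n))
      (lR (Tc T) (List.ofFn fun j => gen y e (g j))) n) = YD7Phi Ψ ρ (mR (Tc T)
        (fun n => T (.red f ν g n)) (lR (Tc T) (List.ofFn fun j => gen y e (g j)))) := rfl
    rw [h4, h3, YD7Phi_lR Ψ ρ (Tc T) hc h0]
    congr 1
    rw [List.map_ofFn]
    congr 2
    funext j
    rw [Function.comp_apply]
    rcases g j with i | ν'
    · simp only [gen, Sum.elim_inl]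
      exact (YD7Phi_bR Ψ ρ _).symm
    · simp only [gen, Sum.elim_inr]
      rw [YD7Phi_smul, YD7Phi_oR Ψ ρ h0, mul_one]
  · -- nl
    intro j m
    refine hnl j _ ?_ m
    rw [YD7Theta_pS Ψ ρ σ (Tc T) hc (Td T) hd h0 s0, YD7Theta_bS, h0, one_mul]
  · -- ka
    intro ν k m n
    refine hΘ (fun m n => y ν * Tg T k m n)
      (fun m n => (∑ k' : Fin L, if k' < k then T (.ka ν k k') * Tg T k' m n else 0) +
        ∑ μ, mS (Tc T) (Td T) (Tz T μ) (fun m n => T (.w ν k μ m n)) m n) ?_ m n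
    rw [YD7Theta_smul, hka, YD7Theta_add, YD7Theta_sum, YD7Theta_sum]
    congr 1
    · refine Finset.sum_congr rfl fun k' _ => ?_
      by_cases hk : k' < k
      · simp only [if_pos hk]
        rw [YD7Theta_smul]
      · simp only [if_neg hk]
        simp [YD7Theta, YD7Phi]
    · refine Finset.sum_congr rfl fun μ _ => ?_
      have := YD7Theta_mS Ψ ρ σ (Tc T) hc (Td T) hd (Tz T μ) (fun m n => T (.w ν k μ m n))
      rw [← this]
  · -- la
    intro a b m n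
    refine hΘ (bS A e r a b)
      (fun m n => (∑ k : Fin L, T (.la a b k) * Tg T k m n) +
        ∑ μ, mS (Tc T) (Td T) (Tz T μ) (fun m n => T (.v a b μ m n)) m n) ?_ m n
    rw [YD7Theta_bS, hla, YD7Theta_add, YD7Theta_sum, YD7Theta_sum]
    congr 1
    · refine Finset.sum_congr rfl fun k' _ => ?_
      rw [YD7Theta_smul]
    · refine Finset.sum_congr rfl fun μ _ => ?_
      have := YD7Theta_mS Ψ ρ σ (Tc T) hc (Td T) hd (Tz T μ) (fun m n => T (.v a b μ m n))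
      rw [← this]

end Vale.Agent.P202Y
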