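import Vale.Agent.P202Y.Rings
import Vale.Agent.P202T.Defs
import Vale.Agent.P202.Def
import Vale.Agent.P202Y.YD7a
import Vale.Agent.P202Y.YC1
import Vale.Agent.P202Y.YD2
import Vale.Agent.P202Y.YD3

/-! # P202Y, YD7: extraction of the relations (helper7) -/

namespace Vale.Agent.P202Y

open IsLocalRing Vale.Agent.P202 Vale.Agent.P202T RingTheory.Sequence

universe u v w

theorem YD7_pow_le {R : Type u} [CommRing R] {ι : Type} (G : ι → R) (c : ℕ) :
    Ideal.span (Set.range G) ^ c ≤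
      Ideal.span (Set.range fun g : Fin c → ι => (List.ofFn fun j => G (g j)).prod) := by
  induction c with
  | zero =>
    rw [pow_zero, Ideal.one_eq_top]
    have : (1 : R) ∈ Ideal.span
        (Set.range fun g : Fin 0 → ι => (List.ofFn fun j => G (g j)).prod) := by
      refine Ideal.subset_span ⟨Fin.elim0, ?_⟩
      simp
    rw [(Ideal.eq_top_iff_one _).mpr this]
  | succ c ih =>
    rw [pow_succ']
    refine (Ideal.mul_mono_right ih).trans ?_
    rw [Ideal.span_mul_span', Ideal.span_le]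
    rintro _ ⟨_, ⟨i, rfl⟩, _, ⟨g, rfl⟩, rfl⟩
    refine Ideal.subset_span ⟨Fin.cons i g, ?_⟩
    simp only [List.ofFn_succ, List.prod_cons, Fin.cons_zero, Fin.cons_succ]

theorem YD7_red {R : Type u} [CommRing R] {ι : Type} [Fintype ι] (G : ι → R) {D : ℕ}
    (y : Fin D → R) (c : ℕ) (p : R)
    (hp : p ∈ Ideal.span (Set.range y) * Ideal.span (Set.range G) ^ c) :
    ∃ A : Fin D → (Fin c → ι) → R,
      p = ∑ ν, ∑ g : Fin c → ι, y ν * (A ν g * (List.ofFn fun j => G (g j)).prod) := by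
  classical
  have h1 : p ∈ Ideal.span (Set.range fun i : Fin D × (Fin c → ι) =>
      y i.1 * (List.ofFn fun j => G (i.2 j)).prod) := by
    have h2 := Ideal.mul_mono_right (YD7_pow_le G c) hp
    rw [Ideal.span_mul_span'] at h2
    refine Ideal.span_mono ?_ h2
    rintro _ ⟨_, ⟨ν, rfl⟩, _, ⟨g, rfl⟩, rfl⟩
    exact ⟨(ν, g), rfl⟩
  rw [Ideal.mem_span_range_iff_exists_fun] at h1
  obtain ⟨A, hA⟩ := h1
  refine ⟨fun ν g => A (ν, g), ?_⟩
  rw [← hA, Fintype.sum_prod_type]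
  refine Finset.sum_congr rfl fun ν _ => Finset.sum_congr rfl fun g _ => ?_
  ring

theorem YD7_mem_max {D : ℕ} {l : Type u} [Field l] {S : Type v} [CommRing S] [IsLocalRing S]
    (Ψ : MvPowerSeries (Fin D) l →+* S) (f : MvPowerSeries (Fin D) l)
    (hf : Ψ f ∈ maximalIdeal S) : f ∈ maximalIdeal (MvPowerSeries (Fin D) l) := by
  by_contra h
  rw [mem_maximalIdeal, mem_nonunits_iff, not_not] at h
  exact (mem_maximalIdeal _).mp hf (h.map Ψ)

theorem YD7_exists_sum {D : ℕ} {l : Type u} [Field l] (f : MvPowerSeries (Fin D) l)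
    (hf : f ∈ maximalIdeal (MvPowerSeries (Fin D) l)) :
    ∃ w : Fin D → MvPowerSeries (Fin D) l, f = ∑ ν, MvPowerSeries.X ν * w ν := by
  rw [mvps_maximal_proved, Ideal.mem_span_range_iff_exists_fun] at hf
  obtain ⟨w, hw⟩ := hf
  exact ⟨w, by rw [← hw]; exact Finset.sum_congr rfl fun i _ => mul_comm _ _⟩

section Coord

variable {A : Type u} {S : Type v} [CommRing A] [CommRing S] [IsLocalRing S] (Ψ : A →+* S)
  {e r : ℕ} (ρ : Fin (e + 1) → S) (σ : Fin (r + 1) → S)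
  (h0 : ρ 0 = 1) (s0 : σ 0 = 1) (hρ : ∀ i : Fin e, ρ i.succ ∈ maximalIdeal S)
  (hσ : ∀ i : Fin r, σ i.succ ∈ maximalIdeal S)

include h0 hρ in
theorem YD7_Phi_max (x : Fin (e + 1) → A) (hx : YD7Phi Ψ ρ x ∈ maximalIdeal S) :
    Ψ (x 0) ∈ maximalIdeal S := by
  unfold YD7Phi at hx
  rw [Fin.sum_univ_succ, h0, mul_one] at hx
  refine (Ideal.add_mem_iff_left _ ?_).mp hx
  exact Ideal.sum_mem _ fun i _ => Ideal.mul_mem_left _ _ (hρ i)

include h0 s0 hρ hσ in
theorem YD7_Theta_max (x : Fin (r + 1) → Fin (e + 1) → A)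
    (hx : YD7Theta Ψ ρ σ x ∈ maximalIdeal S) : Ψ (x 0 0) ∈ maximalIdeal S := by
  unfold YD7Theta at hx
  rw [Fin.sum_univ_succ, s0, mul_one] at hx
  refine YD7_Phi_max Ψ ρ h0 hρ (x 0) ((Ideal.add_mem_iff_left _ ?_).mp hx)
  exact Ideal.sum_mem _ fun i _ => Ideal.mul_mem_left _ _ (hσ i)

omit [IsLocalRing S] in
theorem YD7Theta_eq_sum (x : Fin (r + 1) → Fin (e + 1) → A) :
    YD7Theta Ψ ρ σ x = ∑ i : Fin (r + 1) × Fin (e + 1), Ψ (x i.1 i.2) * (ρ i.2 * σ i.1) := by
  rw [Fintype.sum_prod_type]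
  unfold YD7Theta YD7Phi
  refine Finset.sum_congr rfl fun m _ => ?_
  rw [Finset.sum_mul]
  exact Finset.sum_congr rfl fun n _ => by ring

omit [IsLocalRing S] in
theorem YD7Theta_row (u : Fin (e + 1) → A) (s0 : σ 0 = 1) :
    YD7Theta Ψ ρ σ (fun m n => if m = 0 then u n else 0) = YD7Phi Ψ ρ u := by
  unfold YD7Theta
  rw [Finset.sum_eq_single 0]
  · simp [s0]
  · intro m _ hm
    simp [hm, YD7Phi]
  · intro h; exact absurd (Finset.mem_univ _) h

end Coord

/-- coordinate `0` of a product in `R_B` -/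
theorem YD7_mR_zero {A : Type u} [CommRing A] {e : ℕ} (M : Ideal A)
    (c : Fin (e + 1) → Fin (e + 1) → Fin (e + 1) → A)
    (hc : ∀ i j, ¬ (i = 0 ∧ j = 0) → c i j 0 ∈ M) (x y : Fin (e + 1) → A)
    (h : x 0 ∈ M ∨ y 0 ∈ M) : mR c x y 0 ∈ M := by
  unfold mR
  refine Ideal.sum_mem _ fun i _ => Ideal.sum_mem _ fun j _ => ?_
  by_cases hij : i = 0 ∧ j = 0
  · obtain ⟨rfl, rfl⟩ := hij
    rcases h with h | h
    · exact M.mul_mem_right _ (M.mul_mem_right _ h)
    · exact M.mul_mem_right _ (M.mul_mem_left _ h)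
  · exact M.mul_mem_left _ (hc i j hij)

/-- YD7: extraction, the relations from the rings. -/
theorem extract_rel_proved (D : ℕ) (R : Type u) (S : Type v) [CommRing R] [IsLocalRing R]
    [IsNoetherianRing R] [IsAdicComplete (maximalIdeal R) R] [CommRing S] [IsLocalRing S]
    [IsNoetherianRing S] [IsAdicComplete (maximalIdeal S) S] [Algebra R S]
    [IsLocalHom (algebraMap R S)]
    {k : Type u} [Field k] {l : Type v} [Field l] (a : k →+* R) (b : l →+* S) (j : k →+* l)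
    (hab : b.comp j = (algebraMap R S).comp a)
    (hk : ∀ x, ∃ t, x - a t ∈ maximalIdeal R) (hl : ∀ x, ∃ t, x - b t ∈ maximalIdeal S)
    (hfib : ∃ N, maximalIdeal S ^ N ≤ (maximalIdeal R).map (algebraMap R S))
    (y : Fin D → R) (hy : ∀ i, y i ∈ maximalIdeal R) (hreg : IsRegular R (List.ofFn y))
    (hregS : IsRegular S (List.ofFn fun i => algebraMap R S (y i)))
    (c : ℕ) (hc : maximalIdeal R ^ (c + 1) ≤ Ideal.span (Set.range y) * maximalIdeal R ^ c)
    (e r : ℕ) (ρ : Fin (e + 1) → R) (σ : Fin (r + 1) → S) (hρ0 : ρ 0 = 1) (hσ0 : σ 0 = 1)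
    (hρm : ∀ i : Fin e, ρ i.succ ∈ maximalIdeal R) (hσm : ∀ i : Fin r, σ i.succ ∈ maximalIdeal S)
    (hρ1 : ∀ x, ∃ t : Fin (e + 1) → k, x - ∑ i, a (t i) * ρ i ∈ Ideal.span (Set.range y))
    (hρ2 : ∀ t : Fin (e + 1) → k, ∑ i, a (t i) * ρ i ∈ Ideal.span (Set.range y) → t = 0)
    (hσ1 : ∀ x : S, ∃ t : Fin (r + 1) × Fin (e + 1) → l,
        x - ∑ i, b (t i) * (algebraMap R S (ρ i.2) * σ i.1) ∈
          (Ideal.span (Set.range y)).map (algebraMap R S))
    (hσ2 : ∀ t : Fin (r + 1) × Fin (e + 1) → l,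
        ∑ i, b (t i) * (algebraMap R S (ρ i.2) * σ i.1) ∈
          (Ideal.span (Set.range y)).map (algebraMap R S) → t = 0)
    (z : Fin D → S) (hz : ∀ i, z i ∈ maximalIdeal S) (L : ℕ) (g : Fin L → S)
    (hg1 : ∀ x ∈ maximalIdeal S, ∀ k, ∃ κ : Fin L → l, (∀ k', ¬ k' < k → κ k' = 0) ∧
        x * g k - ∑ k', b (κ k') * g k' ∈ Ideal.span (Set.range z))
    (hg2 : ∀ x, ∃ κ : Fin L → l, x - ∑ k', b (κ k') * g k' ∈ Ideal.span (Set.range z)) :
    ∃ (K : ℕ) (T : Idx D e r L c → MvPowerSeries (Fin D) l),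
      Rel K (fun i => MvPowerSeries.X i) T := by
  classical
  set φ := algebraMap R S with hφdef
  have hφm : ∀ x ∈ maximalIdeal R, φ x ∈ maximalIdeal S := by
    intro x hx
    rw [mem_maximalIdeal, mem_nonunits_iff] at hx ⊢
    exact fun h => hx (isUnit_of_map_unit φ x h)
  obtain ⟨ΨR, hRC, hRX⟩ := exists_psHom_proved D a y hy
  obtain ⟨Ψ, hSC, hSX⟩ := exists_psHom_proved D b (fun i => φ (y i)) (fun i => hφm _ (hy i))
  let J : MvPowerSeries (Fin D) k →+* MvPowerSeries (Fin D) l := MvPowerSeries.map j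
  have hcomp : Ψ.comp J = φ.comp ΨR := by
    refine psHom_unique_proved D _ _ (fun t => ?_) (fun i => ?_) (fun i => ?_)
    · rw [RingHom.comp_apply, RingHom.comp_apply, hRC, MvPowerSeries.map_C, hSC]
      exact RingHom.congr_fun hab t
    · rw [RingHom.comp_apply, RingHom.comp_apply, hRX, MvPowerSeries.map_X, hSX]
    · rw [RingHom.comp_apply, MvPowerSeries.map_X, hSX]
      exact hφm _ (hy i)
  have hJ : ∀ f, Ψ (J f) = φ (ΨR f) := fun f => RingHom.congr_fun hcomp f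
  -- bases
  have hyR : (fun i => ΨR (MvPowerSeries.X i)) = y := funext hRX
  have hyS : (fun i => Ψ (MvPowerSeries.X i)) = fun i => φ (y i) := funext hSX
  have hmapy : (Ideal.span (Set.range y)).map φ = Ideal.span (Set.range fun i => φ (y i)) := by
    rw [Ideal.map_span, ← Set.range_comp]
    rfl
  have hR : ∀ x : R, ∃ α : Fin (e + 1) → MvPowerSeries (Fin D) k, x = ∑ i, ΨR (α i) * ρ i := by
    intro x
    obtain ⟨α, hα, -⟩ := basis_lift_proved D ΨR (fun i => by rw [hRX]; exact hy i)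
      (by rw [hyR]; exact hreg) ρ
      (fun x => by
        obtain ⟨t, ht⟩ := hρ1 x
        refine ⟨t, ?_⟩
        rw [hyR]
        simpa only [hRC] using ht)
      (fun t ht => by
        rw [hyR] at ht
        simp only [hRC] at ht
        exact hρ2 t ht) x
    exact ⟨α, hα⟩
  let ρS : Fin (e + 1) → S := fun n => φ (ρ n)
  have hρS0 : ρS 0 = 1 := by simp only [ρS, hρ0, map_one]
  have hρSm : ∀ i : Fin e, ρS i.succ ∈ maximalIdeal S := fun i => hφm _ (hρm i)
  have hS : ∀ x : S, ∃! β : Fin (r + 1) × Fin (e + 1) → MvPowerSeries (Fin D) l,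
      x = ∑ i, Ψ (β i) * (ρS i.2 * σ i.1) := by
    intro x
    exact basis_lift_proved D Ψ (fun i => by rw [hSX]; exact hφm _ (hy i))
      (by rw [hyS]; exact hregS) (fun i : Fin (r + 1) × Fin (e + 1) => ρS i.2 * σ i.1)
      (fun x => by
        obtain ⟨t, ht⟩ := hσ1 x
        refine ⟨t, ?_⟩
        rw [hyS, ← hmapy]
        simpa only [hSC] using ht)
      (fun t ht => by
        rw [hyS, ← hmapy] at ht
        simp only [hSC] at ht
        exact hσ2 t ht) x
  let Θ := YD7Theta Ψ ρS σ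
  have hΘsurj : ∀ s : S, ∃ x, Θ x = s := by
    intro s
    obtain ⟨β, hβ, -⟩ := hS s
    refine ⟨fun m n => β (m, n), ?_⟩
    change YD7Theta Ψ ρS σ _ = s
    rw [YD7Theta_eq_sum, hβ]
  have hΘinj : ∀ x x' : Fin (r + 1) → Fin (e + 1) → MvPowerSeries (Fin D) l,
      YD7Theta Ψ ρS σ x = YD7Theta Ψ ρS σ x' → x = x' := by
    intro x x' hx
    obtain ⟨β, -, hβ⟩ := hS (YD7Theta Ψ ρS σ x)
    have h1 := hβ (fun i => x i.1 i.2) (YD7Theta_eq_sum Ψ ρS σ x)
    have h2 := hβ (fun i => x' i.1 i.2) (by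
      change YD7Theta Ψ ρS σ x = _
      rw [hx]; exact YD7Theta_eq_sum Ψ ρS σ x')
    funext m n
    have h3 := congrFun (h1.trans h2.symm) (m, n)
    exact h3
  -- coordinates
  choose αc hαc using hR
  choose θc hθc using hΘsurj
  have hθc' : ∀ s, YD7Theta Ψ ρS σ (θc s) = s := hθc
  have hPhi : ∀ x : R, YD7Phi Ψ ρS (fun n => J (αc x n)) = φ x := by
    intro x
    conv_rhs => rw [hαc x]
    rw [map_sum]
    unfold YD7Phi
    refine Finset.sum_congr rfl fun i _ => ?_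
    rw [hJ, map_mul]
  set cc : Fin (e + 1) → Fin (e + 1) → Fin (e + 1) → MvPowerSeries (Fin D) l :=
    fun i j m => J (αc (ρ i * ρ j) m) with hcc
  have hcc' : ∀ i j, YD7Phi Ψ ρS (cc i j) = ρS i * ρS j := by
    intro i j
    have := hPhi (ρ i * ρ j)
    rw [map_mul] at this
    exact this
  set dd : Fin (r + 1) → Fin (r + 1) → Fin (r + 1) → Fin (e + 1) → MvPowerSeries (Fin D) l :=
    fun i j => θc (σ i * σ j) with hdd
  have hdd' : ∀ i j, YD7Theta Ψ ρS σ (dd i j) = σ i * σ j := fun i j => hθc' _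
  -- maximal ideals
  set M := maximalIdeal (MvPowerSeries (Fin D) l) with hM
  have hPhiM : ∀ x, YD7Phi Ψ ρS x ∈ maximalIdeal S → x 0 ∈ M := fun x hx =>
    YD7_mem_max Ψ _ (YD7_Phi_max Ψ ρS hρS0 hρSm x hx)
  have hThetaM : ∀ x, YD7Theta Ψ ρS σ x ∈ maximalIdeal S → x 0 0 ∈ M := fun x hx =>
    YD7_mem_max Ψ _ (YD7_Theta_max Ψ ρS σ hρS0 hσ0 hρSm hσm x hx)
  have hcM : ∀ i j, ¬ (i = 0 ∧ j = 0) → cc i j 0 ∈ M := by
    intro i j hij
    refine hPhiM (cc i j) ?_
    rw [hcc']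
    by_cases hi : i = 0
    · have hj : j ≠ 0 := fun h => hij ⟨hi, h⟩
      obtain ⟨j', rfl⟩ := Fin.exists_succ_eq.mpr hj
      exact Ideal.mul_mem_left _ _ (hρSm j')
    · obtain ⟨i', rfl⟩ := Fin.exists_succ_eq.mpr hi
      exact Ideal.mul_mem_right _ _ (hρSm i')
  -- elements of `m S`
  have hmS : ∀ s ∈ (maximalIdeal R).map φ, ∀ m, θc s m 0 ∈ M := by
    intro s hs
    have key : ∃ x, YD7Theta Ψ ρS σ x = s ∧ ∀ m, x m 0 ∈ M := by
      refine Submodule.span_induction (p := fun s _ => ∃ x, YD7Theta Ψ ρS σ x = s ∧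
        ∀ m, x m 0 ∈ M) ?_ ?_ ?_ ?_ hs
      · rintro _ ⟨μ, hμ, rfl⟩
        refine ⟨fun m n => if m = 0 then J (αc μ n) else 0, ?_, fun m => ?_⟩
        · rw [YD7Theta_row Ψ ρS σ _ hσ0]
          exact hPhi μ
        · by_cases hm : m = 0
          · simp only [hm, if_true]
            exact hPhiM _ (by rw [hPhi]; exact hφm _ hμ)
          · simp only [hm, if_false]
            exact M.zero_mem
      · exact ⟨fun _ _ => 0, by simp [YD7Theta, YD7Phi], fun m => M.zero_mem⟩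
      · rintro s s' _ _ ⟨x, hx, hx'⟩ ⟨x', hx1, hx1'⟩
        exact ⟨fun m n => x m n + x' m n, by rw [YD7Theta_add, hx, hx1],
          fun m => M.add_mem (hx' m) (hx1' m)⟩
      · rintro s s' _ ⟨x, hx, hx'⟩
        refine ⟨mS cc dd (θc s) x, ?_, fun m => ?_⟩
        · rw [YD7Theta_mS Ψ ρS σ cc hcc' dd hdd', hθc', hx]
          rfl
        · have h2 : mS cc dd (θc s) x m 0 =
              ∑ i, ∑ j, mR cc (mR cc (θc s i) (x j)) (dd i j m) 0 := by
            simp [mS, Finset.sum_apply]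
          rw [h2]
          refine Ideal.sum_mem _ fun i _ => Ideal.sum_mem _ fun j' _ => ?_
          refine YD7_mR_zero M cc hcM _ _ (Or.inl ?_)
          exact YD7_mR_zero M cc hcM _ _ (Or.inr (hx' j'))
    obtain ⟨x, hx, hx'⟩ := key
    have : θc s = x := hΘinj _ _ (by rw [hθc', hx])
    rw [this]
    exact hx'
  -- the reduction
  let G : Fin e ⊕ Fin D → R := Sum.elim (fun i => ρ i.succ) y
  have hG : maximalIdeal R ≤ Ideal.span (Set.range G) := by
    intro x hx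
    obtain ⟨t, ht⟩ := hρ1 x
    have hyG : Ideal.span (Set.range y) ≤ Ideal.span (Set.range G) :=
      Ideal.span_mono (by rintro _ ⟨i, rfl⟩; exact ⟨Sum.inr i, rfl⟩)
    have hym : Ideal.span (Set.range y) ≤ maximalIdeal R := by
      rw [Ideal.span_le]
      rintro _ ⟨i, rfl⟩
      exact hy i
    have hρG : ∑ i : Fin e, a (t i.succ) * ρ i.succ ∈ Ideal.span (Set.range G) :=
      Ideal.sum_mem _ fun i _ => Ideal.mul_mem_left _ _ (Ideal.subset_span ⟨Sum.inl i, rfl⟩)
    rw [Fin.sum_univ_succ, hρ0, mul_one] at ht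
    have ht0 : t 0 = 0 := by
      by_contra h
      have h1 : a (t 0) ∈ maximalIdeal R := by
        have h2 : a (t 0) = x - (∑ i : Fin e, a (t i.succ) * ρ i.succ) -
          (x - (a (t 0) + ∑ i : Fin e, a (t i.succ) * ρ i.succ)) := by ring
        rw [h2]
        exact Ideal.sub_mem _ (Ideal.sub_mem _ hx
          (Ideal.sum_mem _ fun i _ => Ideal.mul_mem_left _ _ (hρm i))) (hym ht)
      exact (mem_maximalIdeal _).mp h1 ((isUnit_iff_ne_zero.mpr h).map a)
    have h2 : x = (x - (a (t 0) + ∑ i : Fin e, a (t i.succ) * ρ i.succ)) +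
        ∑ i : Fin e, a (t i.succ) * ρ i.succ := by
      rw [ht0, map_zero]
      ring
    rw [h2]
    exact Ideal.add_mem _ (hyG ht) hρG
  have hred : ∀ f : Fin (c + 1) → Fin e, ∃ Af : Fin D → (Fin c → Fin e ⊕ Fin D) → R,
      (List.ofFn fun j => ρ (f j).succ).prod = ∑ ν, ∑ g : Fin c → Fin e ⊕ Fin D,
        y ν * (Af ν g * (List.ofFn fun j => G (g j)).prod) := by
    intro f
    refine YD7_red G y c _ ?_
    refine Ideal.mul_mono_right (Ideal.pow_right_mono hG c) (hc ?_)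
    have : ∀ (n : ℕ) (f : Fin n → Fin e),
        (List.ofFn fun j => ρ (f j).succ).prod ∈ maximalIdeal R ^ n := by
      intro n
      induction n with
      | zero => intro f; simp
      | succ n ih =>
        intro f
        rw [List.ofFn_succ, List.prod_cons, pow_succ']
        exact Ideal.mul_mem_mul (hρm _) (ih fun i => f i.succ)
    exact this (c + 1) f
  choose Af hAf using hred
  -- nilpotency
  obtain ⟨K, hK⟩ := hfib
  have hnl : ∀ (i : Fin r) (m : Fin (r + 1)), ∃ w : Fin D → MvPowerSeries (Fin D) l,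
      θc (σ i.succ ^ K) m 0 = ∑ ν, MvPowerSeries.X ν * w ν := fun i m =>
    YD7_exists_sum _ (hmS _ (hK (Ideal.pow_mem_pow (hσm i) K)) m)
  choose wn hwn using hnl
  have hzc : ∀ ν, ∃ w : Fin D → MvPowerSeries (Fin D) l,
      θc (z ν) 0 0 = ∑ μ, MvPowerSeries.X μ * w μ := fun ν =>
    YD7_exists_sum _ (hThetaM _ (by rw [hθc']; exact hz ν))
  choose wz hwz using hzc
  -- composition series
  have hka : ∀ (ν : Fin D) (i : Fin L), ∃ (κ : Fin L → l) (w : Fin D → S),
      (∀ k', ¬ k' < i → κ k' = 0) ∧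
      φ (y ν) * g i = (∑ k', b (κ k') * g k') + ∑ μ, z μ * w μ := by
    intro ν i
    obtain ⟨κ, h1, h2⟩ := hg1 (φ (y ν)) (hφm _ (hy ν)) i
    rw [Ideal.mem_span_range_iff_exists_fun] at h2
    obtain ⟨w, hw⟩ := h2
    refine ⟨κ, w, h1, ?_⟩
    rw [sub_eq_iff_eq_add.mp hw.symm, add_comm]
    congr 1
    exact Finset.sum_congr rfl fun μ _ => mul_comm _ _
  choose κa wa hκa1 hκa2 using hka
  have hla : ∀ s : S, ∃ (κ : Fin L → l) (w : Fin D → S),
      s = (∑ k', b (κ k') * g k') + ∑ μ, z μ * w μ := by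
    intro s
    obtain ⟨κ, h2⟩ := hg2 s
    rw [Ideal.mem_span_range_iff_exists_fun] at h2
    obtain ⟨w, hw⟩ := h2
    refine ⟨κ, w, ?_⟩
    rw [sub_eq_iff_eq_add.mp hw.symm, add_comm]
    congr 1
    exact Finset.sum_congr rfl fun μ _ => mul_comm _ _
  choose κl wl hκl using hla
  let T : Idx D e r L c → MvPowerSeries (Fin D) l := fun x => match x with
    | .cR i j m => cc i j m
    | .cS i j m n => dd i j m n
    | .red f ν g n => J (αc (Af f ν g) n)
    | .nl i m ν => wn i m ν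
    | .z ν m n => θc (z ν) m n
    | .zc ν μ => wz ν μ
    | .g i m n => θc (g i) m n
    | .ka ν i i' => MvPowerSeries.C (κa ν i i')
    | .w ν i μ m n => θc (wa ν i μ) m n
    | .la m n i => MvPowerSeries.C (κl (ρS n * σ m) i)
    | .v m n μ m' n' => θc (wl (ρS n * σ m) μ) m' n'
  refine ⟨K, T, YD7_rel Ψ _ T ρS σ hρS0 hσ0 hΘinj (fun i j => hcc' i j) (fun i j => hdd' i j)
    ?_ ?_ ?_ ?_ ?_⟩
  · intro f
    have h1 : (List.ofFn fun j => ρS (f j).succ).prod =
        φ (List.ofFn fun j => ρ (f j).succ).prod := by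
      rw [map_list_prod, List.map_ofFn]
      rfl
    rw [h1, hAf f, map_sum]
    refine Finset.sum_congr rfl fun ν _ => ?_
    rw [map_sum]
    refine Finset.sum_congr rfl fun g' _ => ?_
    rw [map_mul, map_mul, hSX]
    congr 1
    have h2 : YD7Phi Ψ ρS (fun n => T (.red f ν g' n)) = φ (Af f ν g') := hPhi _
    rw [h2]
    congr 1
    rw [map_list_prod, List.map_ofFn]
    congr 2
    funext i
    rw [Function.comp_apply]
    rcases g' i with i' | ν'
    · rfl
    · simp only [G, Sum.elim_inr, hSX]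
  · intro i x hx m
    have h1 : x = θc (σ i.succ ^ K) := hΘinj _ _ (by rw [hx, hθc'])
    rw [h1]
    exact hwn i m
  · intro ν
    exact hwz ν
  · intro ν i
    have h1 : YD7Theta Ψ ρS σ (Tg T i) = g i := hθc' _
    rw [h1, hSX, hκa2 ν i]
    congr 1
    · refine Finset.sum_congr rfl fun k' _ => ?_
      have h2 : YD7Theta Ψ ρS σ (Tg T k') = g k' := hθc' _
      have h3 : Ψ (T (.ka ν i k')) = b (κa ν i k') := hSC _
      by_cases hk' : k' < i
      · rw [if_pos hk', h2, h3]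
      · rw [if_neg hk', hκa1 ν i k' hk', map_zero, zero_mul]
    · refine Finset.sum_congr rfl fun μ _ => ?_
      have h2 : YD7Theta Ψ ρS σ (Tz T μ) = z μ := hθc' _
      have h3 : YD7Theta Ψ ρS σ (fun m n => T (.w ν i μ m n)) = wa ν i μ := hθc' _
      rw [h2, h3]
  · intro m n
    rw [hκl (ρS n * σ m)]
    congr 1
    · refine Finset.sum_congr rfl fun k' _ => ?_
      have h2 : YD7Theta Ψ ρS σ (Tg T k') = g k' := hθc' _
      have h3 : Ψ (T (.la m n k')) = b (κl (ρS n * σ m) k') := hSC _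
      rw [h2, h3]
    · refine Finset.sum_congr rfl fun μ _ => ?_
      have h2 : YD7Theta Ψ ρS σ (Tz T μ) = z μ := hθc' _
      have h3 : YD7Theta Ψ ρS σ (fun m' n' => T (.v m n μ m' n')) = wl (ρS n * σ m) μ := hθc' _
      rw [h2, h3]

end Vale.Agent.P202Y
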