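import Mathlib

/-! # P202Y: specialization of a finitely generated ring to characteristic `p` -/

namespace Vale.Agent.P202Y

universe u

theorem YA4_jac : IsJacobsonRing ℤ := by
  rw [isJacobsonRing_iff_prime_eq]
  intro P hP
  by_cases h : P = ⊥
  · subst h
    rw [eq_bot_iff]
    intro x hx
    rw [Ideal.mem_jacobson_bot] at hx
    have h1 := hx x
    rw [Int.isUnit_iff] at h1
    rw [Ideal.mem_bot]
    rcases h1 with h1 | h1
    · have h2 : x * x = 0 := by linarith
      exact mul_self_eq_zero.1 h2
    · nlinarith [mul_self_nonneg x]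
  · have := hP.isMaximal h
    exact Ideal.jacobson_eq_self_of_isMaximal

theorem YA4_field (K : Type u) [Field K] (h : (Int.castRingHom K).FiniteType) :
    ∃ (p : ℕ) (_ : Fact p.Prime), Nonempty (K →+* AlgebraicClosure (ZMod p)) := by
  have := YA4_jac
  have hfin : (Int.castRingHom K).Finite := RingHom.finite_iff_finiteType_of_isJacobsonRing.2 h
  have hint : (Int.castRingHom K).IsIntegral := hfin.to_isIntegral
  obtain ⟨p, hp⟩ := CharP.exists K
  have hp0 : p ≠ 0 := by
    rintro rfl
    have : CharZero K := CharP.charP_to_charZero K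
    have : Algebra.IsIntegral ℤ K := ⟨fun x => hint x⟩
    have hinj : Function.Injective (algebraMap ℤ K) := by
      intro a b hab
      have h : (a : K) = (b : K) := by simpa using hab
      exact_mod_cast h
    have h1 : IsField ℤ := isField_of_isIntegral_of_isField hinj (Field.toIsField K)
    exact Int.not_isField h1
  have hpp : p.Prime := (CharP.char_is_prime_or_zero K p).resolve_right hp0
  have : Fact p.Prime := ⟨hpp⟩
  refine ⟨p, ⟨hpp⟩, ?_⟩
  let _ : Algebra (ZMod p) K := ZMod.algebra K p
  have : Algebra.IsAlgebraic (ZMod p) K := by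
    refine ⟨fun x => ?_⟩
    obtain ⟨P, hP, hx⟩ := hint x
    have h2 : IsIntegral (ZMod p) x := by
      refine ⟨P.map (Int.castRingHom (ZMod p)), hP.map _, ?_⟩
      rw [Polynomial.eval₂_map]
      have h3 : (algebraMap (ZMod p) K).comp (Int.castRingHom (ZMod p)) = Int.castRingHom K :=
        RingHom.ext_int _ _
      rw [h3]
      exact hx
    exact h2.isAlgebraic
  exact ⟨(IsAlgClosed.lift : K →ₐ[ZMod p] AlgebraicClosure (ZMod p)).toRingHom⟩

/-- YA4: specialization of a finitely generated ring to characteristic `p` -/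
theorem exists_spec_proved {k : Type u} [Field k] [CharZero k] (Lam : Subalgebra ℤ k)
    (h : Lam.FG) :
    ∃ (p : ℕ) (_ : Fact p.Prime), Nonempty (Lam →+* AlgebraicClosure (ZMod p)) := by
  have h1 : Algebra.FiniteType ℤ Lam := (Subalgebra.fg_iff_finiteType Lam).1 h
  have h2 : (algebraMap ℤ Lam).FiniteType := RingHom.finiteType_algebraMap.2 h1
  obtain ⟨M, hM⟩ := Ideal.exists_maximal Lam
  let _ : Field (Lam ⧸ M) := Ideal.Quotient.field M
  have h3 : ((Ideal.Quotient.mk M).comp (algebraMap ℤ Lam)).FiniteType :=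
    (RingHom.FiniteType.of_surjective _ Ideal.Quotient.mk_surjective).comp h2
  have h4 : (Ideal.Quotient.mk M).comp (algebraMap ℤ Lam) = Int.castRingHom (Lam ⧸ M) :=
    RingHom.ext_int _ _
  rw [h4] at h3
  obtain ⟨p, hp, ⟨f⟩⟩ := YA4_field (Lam ⧸ M) h3
  exact ⟨p, hp, ⟨f.comp (Ideal.Quotient.mk M)⟩⟩

end Vale.Agent.P202Y
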