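import Mathlib

/-! # P202Y, module YC2: the variables form a regular sequence in `k[[y]]` (helper66) -/

namespace Vale.Agent.P202Y

open RingTheory.Sequence

universe u

theorem YC2_coeff {D : ℕ} {k : Type u} [CommRing k] (s : Fin D) (f : MvPowerSeries (Fin D) k)
    (n : Fin D →₀ ℕ) : MvPowerSeries.coeff n (MvPowerSeries.X s * f) =
      if n s = 0 then 0 else MvPowerSeries.coeff (n - Finsupp.single s 1) f := by
  rw [MvPowerSeries.X_def, MvPowerSeries.coeff_monomial_mul]
  by_cases h : n s = 0
  · rw [if_pos h, if_neg]
    intro h2
    have := h2 s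
    rw [Finsupp.single_eq_same, h] at this
    omega
  · rw [if_neg h, if_pos, one_mul]
    intro j
    by_cases hj : j = s
    · subst hj
      rw [Finsupp.single_eq_same]
      omega
    · rw [Finsupp.single_eq_of_ne (by tauto)]
      omega

/-- membership in the ideal of the first `i` variables -/
theorem YC2_mem {D : ℕ} {k : Type u} [CommRing k] (i : ℕ) (hi : i ≤ D)
    (f : MvPowerSeries (Fin D) k) :
    f ∈ Ideal.ofList ((List.ofFn (MvPowerSeries.X : Fin D → MvPowerSeries (Fin D) k)).take i) ↔
      ∀ n : Fin D →₀ ℕ, (∀ j : Fin D, (j : ℕ) < i → n j = 0) → MvPowerSeries.coeff n f = 0 := by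
  classical
  induction i generalizing f with
  | zero =>
    simp only [List.take_zero, Ideal.ofList_nil, Ideal.mem_bot]
    constructor
    · intro h n _
      rw [h]
      exact map_zero _
    · intro h
      ext n
      rw [h n (fun j hj => absurd hj (Nat.not_lt_zero _))]
      rfl
  | succ i ih =>
    have hlen : i < (List.ofFn (MvPowerSeries.X : Fin D → MvPowerSeries (Fin D) k)).length := by
      rw [List.length_ofFn]; omega
    rw [List.take_succ_eq_append_getElem hlen, Ideal.ofList_append, Ideal.ofList_singleton,
      List.getElem_ofFn, Submodule.mem_sup]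
    constructor
    · rintro ⟨a, ha, b, hb, rfl⟩ n hn
      rw [map_add, (ih (by omega) a).1 ha n (fun j hj => hn j (by omega)), zero_add]
      rw [Ideal.mem_span_singleton'] at hb
      obtain ⟨c, rfl⟩ := hb
      rw [mul_comm, YC2_coeff, if_pos]
      exact hn _ (by simp)
    · intro h
      let s : Fin D := ⟨i, by omega⟩
      let g : MvPowerSeries (Fin D) k := fun m =>
        if (∀ j : Fin D, (j : ℕ) < i → m j = 0) then
          MvPowerSeries.coeff (m + Finsupp.single s 1) f else 0
      refine ⟨f - MvPowerSeries.X s * g, ?_, MvPowerSeries.X s * g, ?_, by ring⟩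
      · rw [ih (by omega)]
        intro n hn
        rw [map_sub, YC2_coeff]
        by_cases h0 : n s = 0
        · rw [if_pos h0, h n, sub_zero]
          intro j hj
          rcases Nat.lt_succ_iff_lt_or_eq.1 hj with h1 | h1
          · exact hn j h1
          · have : j = s := Fin.ext h1
            rw [this]; exact h0
        · rw [if_neg h0]
          have h1 : MvPowerSeries.coeff (n - Finsupp.single s 1) g =
              MvPowerSeries.coeff (n - Finsupp.single s 1 + Finsupp.single s 1) f := by
            change (if _ then _ else _) = _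
            rw [if_pos]
            intro j hj
            rw [Finsupp.tsub_apply, hn j hj, Nat.zero_sub]
          rw [h1, tsub_add_cancel_of_le, sub_self]
          intro j
          by_cases hj : j = s
          · subst hj
            rw [Finsupp.single_eq_same]
            omega
          · rw [Finsupp.single_eq_of_ne (by tauto)]
            omega
      · exact Ideal.mul_mem_right _ _ (Ideal.subset_span (Set.mem_singleton _))

theorem mvps_regular_proved (D : ℕ) (k : Type u) [Field k] :
    IsRegular (MvPowerSeries (Fin D) k)
      (List.ofFn (MvPowerSeries.X : Fin D → MvPowerSeries (Fin D) k)) := by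
  refine ⟨⟨?_⟩, ?_⟩
  · intro i hi
    have hiD : i < D := by rw [List.length_ofFn] at hi; exact hi
    rw [isSMulRegular_quotient_iff_mem_of_smul_mem]
    intro f hf
    rw [smul_eq_mul, Ideal.mul_top, YC2_mem i hiD.le] at hf ⊢
    intro n hn
    rw [List.getElem_ofFn] at hf
    have h1 := hf (n + Finsupp.single ⟨i, hiD⟩ 1) (by
      intro j hj
      rw [Finsupp.add_apply, hn j hj, Finsupp.single_eq_of_ne, add_zero]
      intro h2
      rw [h2] at hj
      exact absurd hj (lt_irrefl _))
    rw [smul_eq_mul, YC2_coeff, if_neg, add_tsub_cancel_right] at h1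
    · exact h1
    · rw [Finsupp.add_apply, Finsupp.single_eq_same]
      omega
  · intro h
    have h1 : (1 : MvPowerSeries (Fin D) k) ∈
        (Ideal.ofList (List.ofFn (MvPowerSeries.X : Fin D → MvPowerSeries (Fin D) k)) •
          (⊤ : Submodule (MvPowerSeries (Fin D) k) (MvPowerSeries (Fin D) k))) := by
      rw [← h]; trivial
    rw [smul_eq_mul, Ideal.mul_top] at h1
    have h2 := (YC2_mem D le_rfl (1 : MvPowerSeries (Fin D) k)).1 (by
      rw [List.take_of_length_le (by rw [List.length_ofFn])]
      exact h1) 0 (fun _ _ => rfl)
    rw [MvPowerSeries.coeff_zero_one] at h2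
    exact one_ne_zero h2

end Vale.Agent.P202Y
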