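import Mathlib

/-! # P202Y, module YC3: `k[[y]]` is F-finite for `k` perfect (helper66) -/

namespace Vale.Agent.P202Y

universe u v

theorem YC3_finite {A : Type u} {B : Type v} [CommRing A] [CommRing B] (f : A →+* B) {ι : Type}
    [Fintype ι] (b : ι → B) (h : ∀ x, ∃ c : ι → A, x = ∑ i, f (c i) * b i) : f.Finite := by
  let _ := f.toAlgebra
  change Module.Finite A B
  refine Module.Finite.of_surjective (Fintype.linearCombination A b) fun x => ?_
  obtain ⟨c, hc⟩ := h x
  refine ⟨c, ?_⟩
  rw [Fintype.linearCombination_apply, hc]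
  refine Finset.sum_congr rfl fun i _ => ?_
  rw [Algebra.smul_def]
  rfl

section

variable (D : ℕ) (p : ℕ) [hp : Fact p.Prime] (k : Type u) [Field k] [CharP k p]

/-- coefficients of a `p`-th power -/
theorem YC3_coeff (g : MvPowerSeries (Fin D) k) (l : Fin D →₀ ℕ) :
    MvPowerSeries.coeff l (g ^ p) = if (∀ i, p ∣ l i) then
      (MvPowerSeries.coeff (l.mapRange (fun a => a / p) (Nat.zero_div p)) g) ^ p else 0 := by
  rw [← MvPowerSeries.map_frobenius_expand p hp.out.ne_zero, MvPowerSeries.coeff_map]
  by_cases h : ∀ i, p ∣ l i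
  · rw [if_pos h]
    have hl : p • (l.mapRange (fun a => a / p) (Nat.zero_div p)) = l := by
      ext i
      simp [Nat.mul_div_cancel' (h i)]
    conv_lhs => rw [← hl]
    rw [MvPowerSeries.coeff_expand_smul, frobenius_def]
  · rw [if_neg h]
    push Not at h
    obtain ⟨i, hi⟩ := h
    rw [MvPowerSeries.coeff_expand_of_not_dvd p hp.out.ne_zero g hi, map_zero]

/-- exponent attached to a digit vector -/
noncomputable def YC3_e (a : Fin D → Fin p) : Fin D →₀ ℕ := Finsupp.equivFunOnFinite.symm fun i => (a i : ℕ)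

theorem YC3_e_apply (a : Fin D → Fin p) (i : Fin D) : YC3_e D p a i = (a i : ℕ) := rfl

/-- the component of `f` -/
noncomputable def YC3_g [PerfectRing k p] (f : MvPowerSeries (Fin D) k) (a : Fin D → Fin p) :
    MvPowerSeries (Fin D) k := fun n =>
  (frobeniusEquiv k p).symm (MvPowerSeries.coeff (p • n + YC3_e D p a) f)

theorem YC3_g_coeff [PerfectRing k p] (f : MvPowerSeries (Fin D) k) (a : Fin D → Fin p) (n : Fin D →₀ ℕ) :
    (MvPowerSeries.coeff n (YC3_g D p k f a)) ^ p =
      MvPowerSeries.coeff (p • n + YC3_e D p a) f := by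
  have : MvPowerSeries.coeff n (YC3_g D p k f a) =
    (frobeniusEquiv k p).symm (MvPowerSeries.coeff (p • n + YC3_e D p a) f) := rfl
  rw [this, ← frobenius_def, frobenius_apply_frobeniusEquiv_symm]

theorem YC3_decomp [PerfectRing k p] (f : MvPowerSeries (Fin D) k) :
    f = ∑ a : Fin D → Fin p, (YC3_g D p k f a) ^ p * MvPowerSeries.monomial (YC3_e D p a) 1 := by
  classical
  ext m
  rw [map_sum]
  have hp0 : 0 < p := hp.out.pos
  let a0 : Fin D → Fin p := fun i => ⟨m i % p, Nat.mod_lt _ hp0⟩
  have hle : YC3_e D p a0 ≤ m := fun i => Nat.mod_le _ _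
  rw [Finset.sum_eq_single a0]
  · rw [MvPowerSeries.coeff_mul_monomial, if_pos hle, mul_one, YC3_coeff, if_pos]
    · have hm : p • ((m - YC3_e D p a0).mapRange (fun a => a / p) (Nat.zero_div p)) +
          YC3_e D p a0 = m := by
        ext i
        have h1 : (m - YC3_e D p a0) i = m i - m i % p := rfl
        simp only [Finsupp.add_apply, Finsupp.smul_apply, Finsupp.mapRange_apply, h1, smul_eq_mul]
        have h2 : YC3_e D p a0 i = m i % p := rfl
        rw [h2]
        have h3 : m i - m i % p = p * (m i / p) := by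
          have := Nat.div_add_mod (m i) p
          omega
        rw [h3, Nat.mul_div_cancel_left _ hp0]
        exact Nat.div_add_mod (m i) p
      rw [YC3_g_coeff, hm]
    · intro i
      have h1 : (m - YC3_e D p a0) i = m i - m i % p := rfl
      rw [h1]
      exact Nat.dvd_sub_mod _
  · intro a _ ha
    rw [MvPowerSeries.coeff_mul_monomial]
    by_cases hle' : YC3_e D p a ≤ m
    · rw [if_pos hle', mul_one, YC3_coeff, if_neg]
      intro h
      apply ha
      funext i
      apply Fin.ext
      have h1 : (m - YC3_e D p a) i = m i - (a i : ℕ) := rfl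
      have h2 := h i
      rw [h1] at h2
      have h3 : (a i : ℕ) ≤ m i := hle' i
      have h4 : (a i : ℕ) < p := (a i).2
      change (a i : ℕ) = m i % p
      obtain ⟨q, hq⟩ := h2
      have h5 : m i = (a i : ℕ) + p * q := by omega
      rw [h5, Nat.add_mul_mod_self_left, Nat.mod_eq_of_lt h4]
    · rw [if_neg hle']
  · intro h
    exact absurd (Finset.mem_univ _) h

end

theorem YC3_charP (D p : ℕ) (k : Type u) [Field k] [CharP k p] :
    CharP (MvPowerSeries (Fin D) k) p :=
  charP_of_injective_ringHom (f := (MvPowerSeries.C : k →+* MvPowerSeries (Fin D) k))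
    MvPowerSeries.C_injective p

/-- YC3 -/
theorem frob_finite_proved (D : ℕ) (p : ℕ) [Fact p.Prime] (k : Type u) [Field k] [CharP k p]
    [PerfectRing k p] (R : Type u) [CommRing R] [CharP R p] [Algebra (MvPowerSeries (Fin D) k) R]
    [Module.Finite (MvPowerSeries (Fin D) k) R] : (frobenius R p).Finite := by
  have := YC3_charP D p k
  have h1 : (frobenius (MvPowerSeries (Fin D) k) p).Finite :=
    YC3_finite _ (fun a : Fin D → Fin p => MvPowerSeries.monomial (YC3_e D p a) 1) fun f =>
      ⟨YC3_g D p k f, YC3_decomp D p k f⟩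
  have h2 : (algebraMap (MvPowerSeries (Fin D) k) R).Finite :=
    RingHom.finite_algebraMap.2 inferInstance
  have h3 := h2.comp h1
  have h4 : (algebraMap (MvPowerSeries (Fin D) k) R).comp (frobenius (MvPowerSeries (Fin D) k) p) =
      (frobenius R p).comp (algebraMap (MvPowerSeries (Fin D) k) R) :=
    RingHom.ext fun x => by simp [frobenius_def]
  rw [h4] at h3
  exact RingHom.Finite.of_comp_finite h3

end Vale.Agent.P202Y
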