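import Vale.Agent.P202Y.Rings

/-! # P202Y, YB3: `R_B` is Cohen-Macaulay of dimension `D`, `length(R_B/y) = e+1` -/

namespace Vale.Agent.P202Y

open IsLocalRing RingTheory.Sequence

universe u v w

section general

variable {A : Type u} [CommRing A] {n : ℕ} {c : Fin (n + 1) → Fin (n + 1) → Fin (n + 1) → A}
  {h : SCAx c}

theorem YB3_mem_map (J : Ideal A) (x : SC c h) :
    x ∈ J.map (algebraMap A (SC c h)) ↔ ∀ m, SC.vec x m ∈ J := by
  constructor
  · intro hx
    refine Submodule.span_induction (p := fun x _ => ∀ m, SC.vec x m ∈ J) ?_ ?_ ?_ ?_ hx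
    · rintro _ ⟨b, hb, rfl⟩ m
      rw [SC.vec_algebraMap]
      split
      · exact hb
      · exact J.zero_mem
    · intro m
      rw [map_zero]
      exact J.zero_mem
    · intro x y _ _ hx hy m
      rw [map_add]
      exact J.add_mem (hx m) (hy m)
    · intro a x _ hx m
      rw [smul_eq_mul, SC.vec_mul]
      refine J.sum_mem fun i _ => J.sum_mem fun j _ => ?_
      exact J.mul_mem_right _ (J.mul_mem_left _ (hx j))
  · intro hx
    rw [SC.eq_sum x]
    refine Ideal.sum_mem _ fun i _ => ?_
    rw [Algebra.smul_def]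
    exact Ideal.mul_mem_right _ _ (Ideal.mem_map_of_mem _ (hx i))

end general

variable {B : Type u} [CommRing B] {D e r L c K : ℕ} {y : Fin D → B} {T : Idx D e r L c → B}

theorem YB3_vec_prod (h : SCAx (Tc T)) (l : List (RB T h)) :
    SC.vec l.prod = lR (Tc T) (l.map fun x => SC.vec x) := by
  induction l with
  | nil =>
    funext m
    rw [List.prod_nil, SC.vec_one]
    rfl
  | cons x l ih =>
    rw [List.prod_cons, RB_mul_vec, ih]
    rfl

theorem YB3_vec_bas (h : SCAx (Tc T)) (i : Fin (e + 1)) :
    SC.vec (SC.bas (c := Tc T) (h := h) i) = bR B e i := by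
  funext m
  rw [SC.vec_bas]
  rfl

/-- the elements `r_(i+1)` are nilpotent modulo `y` -/
theorem YB3_pow (h : Rel K y T) (i : Fin e) :
    (SC.bas (c := Tc T) (h := h.axR) i.succ) ^ (c + 1) ∈
      (Ideal.span (Set.range y)).map (algebraMap B (RB T h.axR)) := by
  rw [YB3_mem_map]
  intro m
  have h1 : (SC.bas (c := Tc T) (h := h.axR) i.succ) ^ (c + 1)
      = (List.ofFn fun _ : Fin (c + 1) => SC.bas (c := Tc T) (h := h.axR) i.succ).prod := by
    rw [List.ofFn_const, List.prod_replicate]
  rw [h1, YB3_vec_prod, List.map_ofFn]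
  have h2 := h.red (fun _ => i) m
  have h3 : ((fun x => SC.vec x) ∘ fun _ : Fin (c + 1) => SC.bas (c := Tc T) (h := h.axR) i.succ)
      = fun _ : Fin (c + 1) => bR B e i.succ := by
    funext j
    exact YB3_vec_bas h.axR i.succ
  rw [h3, h2]
  refine Ideal.sum_mem _ fun ν _ => Ideal.sum_mem _ fun g _ => ?_
  exact Ideal.mul_mem_right _ _ (Ideal.subset_span ⟨ν, rfl⟩)

section loc

variable [IsLocalRing B] [IsNoetherianRing B]

theorem YB3_bas_mem (hy : maximalIdeal B = Ideal.span (Set.range y)) (h : Rel K y T)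
    [IsLocalRing (RB T h.axR)] [IsLocalHom (algebraMap B (RB T h.axR))] (i : Fin e) :
    SC.bas (c := Tc T) (h := h.axR) i.succ ∈ maximalIdeal (RB T h.axR) := by
  have h1 := YB3_pow h i
  rw [← hy] at h1
  have h2 : (maximalIdeal B).map (algebraMap B (RB T h.axR)) ≤ maximalIdeal (RB T h.axR) :=
    ((IsLocalRing.local_hom_TFAE (algebraMap B (RB T h.axR))).out 0 2).mp ‹_›
  exact Ideal.IsPrime.mem_of_pow_mem (maximalIdeal.isMaximal _).isPrime _ (h2 h1)

theorem YB3_res (hy : maximalIdeal B = Ideal.span (Set.range y)) (h : Rel K y T)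
    [IsLocalRing (RB T h.axR)] [IsLocalHom (algebraMap B (RB T h.axR))] :
    Function.Surjective (algebraMap (ResidueField B) (ResidueField (RB T h.axR))) := by
  intro z
  obtain ⟨x, rfl⟩ := residue_surjective z
  refine ⟨residue B (SC.vec x 0), ?_⟩
  have h1 : algebraMap (ResidueField B) (ResidueField (RB T h.axR)) (residue B (SC.vec x 0))
      = residue (RB T h.axR) (algebraMap B (RB T h.axR) (SC.vec x 0)) := rfl
  rw [h1, ← sub_eq_zero, ← map_sub, residue_eq_zero_iff]
  have h2 : algebraMap B (RB T h.axR) (SC.vec x 0) - x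
      = -∑ i : Fin e, SC.vec x i.succ • SC.bas (c := Tc T) (h := h.axR) i.succ := by
    have h3 := SC.eq_sum x
    rw [Fin.sum_univ_succ, SC.bas_zero, ← Algebra.algebraMap_eq_smul_one] at h3
    nth_rewrite 2 [h3]
    ring
  rw [h2]
  refine neg_mem (Ideal.sum_mem _ fun i _ => ?_)
  rw [Algebra.smul_def]
  exact Ideal.mul_mem_left _ _ (YB3_bas_mem hy h i)

theorem YB3_length (hy : maximalIdeal B = Ideal.span (Set.range y)) (h : Rel K y T)
    [IsLocalRing (RB T h.axR)] [IsLocalHom (algebraMap B (RB T h.axR))] :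
    Module.length (RB T h.axR) (RB T h.axR ⧸ Ideal.span (Set.range fun ν =>
      algebraMap B (RB T h.axR) (y ν))) = e + 1 := by
  set I := Ideal.span (Set.range fun ν => algebraMap B (RB T h.axR) (y ν)) with hI
  have hImap : I = (maximalIdeal B).map (algebraMap B (RB T h.axR)) := by
    rw [hI, hy, Ideal.map_span, ← Set.range_comp]
    rfl
  have hone : Module.length (ResidueField B) (ResidueField (RB T h.axR)) = 1 := by
    rw [Module.length_eq_of_surjective (R := ResidueField (RB T h.axR)) (YB3_res hy h),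
      Module.length_eq_one]
  have hk : Module.length B (ResidueField B) = 1 := by
    rw [Module.length_eq_of_surjective (R := ResidueField B) (M := ResidueField B)
      (residue_surjective (R := B)), Module.length_eq_one]
  have h1 := IsLocalRing.length_restrictScalars B (RB T h.axR) (RB T h.axR ⧸ I)
  rw [hone, mul_one] at h1
  rw [← h1]
  let f : RB T h.axR →ₗ[B] (Fin (e + 1) → ResidueField B) :=
    ((Algebra.linearMap B (ResidueField B)).compLeft (Fin (e + 1))) ∘ₗ
      (SC.vec (c := Tc T) (h := h.axR)).toLinearMap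
  have hf : Function.Surjective f := by
    intro z
    choose w hw using fun i => residue_surjective (R := B) (z i)
    refine ⟨(SC.vec (c := Tc T) (h := h.axR)).symm w, ?_⟩
    funext i
    exact hw i
  have hker : LinearMap.ker f = I.restrictScalars B := by
    ext x
    rw [LinearMap.mem_ker, Submodule.restrictScalars_mem, hImap, YB3_mem_map]
    constructor
    · intro hx m
      have h2 := congrFun hx m
      exact (residue_eq_zero_iff _).mp h2
    · intro hx
      funext m
      exact (residue_eq_zero_iff _).mpr (hx m)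
  have e1 : (RB T h.axR ⧸ I) ≃ₗ[B] (Fin (e + 1) → ResidueField B) :=
    (Submodule.Quotient.restrictScalarsEquiv B I).symm ≪≫ₗ
      (Submodule.quotEquivOfEq _ _ hker.symm) ≪≫ₗ f.quotKerEquivOfSurjective hf
  rw [e1.length_eq, Module.length_pi, hk]
  simp

/-- YB3: `R_B` is Cohen-Macaulay of dimension `D` (it is finite free over `B`), `length(R_B/y) = e+1`. -/
theorem RB_cm_proved (hy : maximalIdeal B = Ideal.span (Set.range y))
    (hreg : IsRegular B (List.ofFn y))
    (h : Rel K y T) [IsLocalRing (RB T h.axR)] [IsLocalHom (algebraMap B (RB T h.axR))]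
    (hres : ∃ φ : ResidueField B →+* ResidueField (RB T h.axR), Function.Bijective φ) :
    ringKrullDim (RB T h.axR) = D ∧
      IsRegular (RB T h.axR) (List.ofFn fun ν => algebraMap B (RB T h.axR) (y ν)) ∧
      Module.length (RB T h.axR) (RB T h.axR ⧸
        Ideal.span (Set.range fun ν => algebraMap B (RB T h.axR) (y ν))) = e + 1 := by
  have hlen := YB3_length hy h
  have hregR : IsRegular (RB T h.axR) (List.ofFn fun ν => algebraMap B (RB T h.axR) (y ν)) := by
    have h1 := hreg.of_faithfullyFlat (S := RB T h.axR)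
    rw [List.map_ofFn] at h1
    exact h1
  refine ⟨?_, hregR, hlen⟩
  have hN : IsNoetherianRing (RB T h.axR) := IsNoetherianRing.of_finite B (RB T h.axR)
  have hspan : Ideal.ofList (List.ofFn fun ν => algebraMap B (RB T h.axR) (y ν))
      = Ideal.span (Set.range fun ν => algebraMap B (RB T h.axR) (y ν)) := by
    unfold Ideal.ofList
    congr 1
    ext x
    simp [List.mem_ofFn]
  have hdim := ringKrullDim_add_length_eq_ringKrullDim_of_isRegular _ hregR
  rw [List.length_ofFn, hspan] at hdim
  set I := Ideal.span (Set.range fun ν => algebraMap B (RB T h.axR) (y ν)) with hI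
  have hne : Nontrivial (RB T h.axR ⧸ I) := by
    rw [← Module.length_pos_iff (R := RB T h.axR), hlen]
    positivity
  have hfin : Module.length (RB T h.axR) (RB T h.axR ⧸ I) ≠ ⊤ := by
    rw [hlen]
    exact ENat.natCast_ne_top (e + 1)
  have hfl := Module.length_ne_top_iff.mp hfin
  rw [isFiniteLength_iff_isNoetherian_isArtinian] at hfl
  have hart : IsArtinianRing (RB T h.axR ⧸ I) :=
    isArtinian_of_tower (RB T h.axR) hfl.2
  have h0 : ringKrullDim (RB T h.axR ⧸ I) = 0 :=
    ringKrullDimZero_iff_ringKrullDim_eq_zero.mp inferInstance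
  rw [h0, zero_add] at hdim
  exact hdim.symm

end loc

end Vale.Agent.P202Y
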