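import Vale.Agent.P202Y.Rings

/-! # P202Y, module YB2: the reduction equations (helper62) -/

namespace Vale.Agent.P202Y

open IsLocalRing

universe u v w

theorem yb2_sup_pow {R : Type u} [CommRing R] (E Y : Ideal R) (n : ℕ) :
    (E ⊔ Y) ^ (n + 1) ≤ E ^ (n + 1) ⊔ Y * (E ⊔ Y) ^ n := by
  induction n with
  | zero => simp
  | succ n ih =>
    calc (E ⊔ Y) ^ (n + 1 + 1) = (E ⊔ Y) ^ (n + 1) * (E ⊔ Y) := pow_succ _ _
      _ ≤ (E ^ (n + 1) ⊔ Y * (E ⊔ Y) ^ n) * (E ⊔ Y) := Ideal.mul_mono_left ih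
      _ = (E ^ (n + 1) * E ⊔ E ^ (n + 1) * Y) ⊔ Y * (E ⊔ Y) ^ n * (E ⊔ Y) := by
          rw [Ideal.sup_mul, Ideal.mul_sup]
      _ ≤ E ^ (n + 1 + 1) ⊔ Y * (E ⊔ Y) ^ (n + 1) := by
          refine sup_le (sup_le ?_ ?_) ?_
          · rw [← pow_succ]
            exact le_sup_left
          · refine le_trans ?_ le_sup_right
            rw [mul_comm]
            exact Ideal.mul_mono_right (Ideal.pow_right_mono le_sup_left _)
          · refine le_trans ?_ le_sup_right
            rw [mul_assoc, ← pow_succ]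

theorem yb2_span_pow {R : Type u} [CommRing R] {ι : Type} (b : ι → R) (n : ℕ) :
    Ideal.span (Set.range b) ^ n
      ≤ Ideal.span (Set.range fun f : Fin n → ι => (List.ofFn fun j => b (f j)).prod) := by
  induction n with
  | zero =>
    rw [pow_zero, Ideal.one_eq_top]
    have h1 : (1 : R) ∈ Ideal.span
        (Set.range fun f : Fin 0 → ι => (List.ofFn fun j => b (f j)).prod) :=
      Ideal.subset_span ⟨Fin.elim0, by simp⟩
    rw [(Ideal.eq_top_iff_one _).2 h1]
  | succ n ih =>
    rw [pow_succ']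
    refine le_trans (Ideal.mul_mono_right ih) ?_
    rw [Ideal.span_mul_span', Ideal.span_le]
    rintro x hx
    obtain ⟨u, ⟨i, rfl⟩, v, ⟨f, rfl⟩, rfl⟩ := Set.mem_mul.1 hx
    refine Ideal.subset_span ⟨Fin.cons i f, ?_⟩
    simp only [List.ofFn_succ, Fin.cons_zero, Fin.cons_succ, List.prod_cons]

theorem yb2_prod_mem {R : Type u} [CommRing R] (I : Ideal R) (n : ℕ) (f : Fin n → R)
    (hf : ∀ j, f j ∈ I) : (List.ofFn f).prod ∈ I ^ n := by
  induction n with
  | zero => simp
  | succ n ih =>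
    rw [List.ofFn_succ, List.prod_cons, pow_succ']
    exact Ideal.mul_mem_mul (hf 0) (ih _ fun j => hf _)

section

variable {B : Type u} [CommRing B] {D e r L c K : ℕ} {y : Fin D → B} {T : Idx D e r L c → B}

theorem yb2_lR (h : SCAx (Tc T)) (l : List (RB T h)) :
    SC.vec l.prod = lR (Tc T) (l.map fun x => SC.vec x) := by
  induction l with
  | nil =>
    funext m
    rfl
  | cons a l ih =>
    rw [List.prod_cons, RB_mul_vec, ih]
    rfl

/-- the generators of the maximal ideal -/
noncomputable def yb2_gen (h : SCAx (Tc T)) (y : Fin D → B) : Fin e ⊕ Fin D → RB T h :=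
  Sum.elim (fun i => SC.bas i.succ) (fun ν => algebraMap B (RB T h) (y ν))

theorem yb2_gen_vec (h : SCAx (Tc T)) (y : Fin D → B) (i : Fin e ⊕ Fin D) :
    SC.vec (yb2_gen h y i) = gen y e i := by
  funext n
  cases i with
  | inl i => exact SC.vec_bas _ _
  | inr ν =>
    change SC.vec (algebraMap B (RB T h) (y ν)) n = y ν * oR B e n
    rw [SC.vec_algebraMap]
    unfold oR
    split <;> simp

theorem yb2_key (h : Rel K y T) (f : Fin (c + 1) → Fin e) :
    (List.ofFn fun j => (SC.bas (f j).succ : RB T h.axR)).prod =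
      ∑ ν, ∑ g : Fin c → Fin e ⊕ Fin D, algebraMap B (RB T h.axR) (y ν) *
        ((SC.vec.symm (fun n => T (.red f ν g n)) : RB T h.axR) *
          (List.ofFn fun j => yb2_gen h.axR y (g j)).prod) := by
  refine SC.ext' fun n => ?_
  rw [yb2_lR, List.map_ofFn]
  have e1 : ((fun x => SC.vec x) ∘ fun j => (SC.bas (f j).succ : RB T h.axR))
      = fun j => bR B e (f j).succ := by
    funext j m
    exact SC.vec_bas _ _
  rw [e1, h.red f n, map_sum, Finset.sum_apply]
  refine Finset.sum_congr rfl fun ν _ => ?_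
  rw [map_sum, Finset.sum_apply]
  refine Finset.sum_congr rfl fun g _ => ?_
  rw [← Algebra.smul_def, map_smul, Pi.smul_apply, smul_eq_mul, RB_mul_vec,
    LinearEquiv.apply_symm_apply, yb2_lR, List.map_ofFn]
  have e2 : ((fun x => SC.vec x) ∘ fun j => yb2_gen h.axR y (g j)) = fun j => gen y e (g j) := by
    funext j
    exact yb2_gen_vec _ _ _
  rw [e2]

end

section B

variable {B : Type u} [CommRing B] [IsLocalRing B] [IsNoetherianRing B] {D e r L c K : ℕ}
  {y : Fin D → B} {T : Idx D e r L c → B}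

/-- YB2: the reduction equations: `m^(c+1) ≤ (y) m^c`, hence `m^(t+c) ≤ (y)^t`. -/
theorem RB_red_proved (hy : maximalIdeal B = Ideal.span (Set.range y)) (h : Rel K y T)
    [IsLocalRing (RB T h.axR)]
    (hm : maximalIdeal (RB T h.axR) = Ideal.span (Set.range fun i : Fin e => SC.bas i.succ) ⊔
        Ideal.span (Set.range fun ν => algebraMap B (RB T h.axR) (y ν))) (t : ℕ) :
    maximalIdeal (RB T h.axR) ^ (t + c) ≤
      Ideal.span (Set.range fun ν => algebraMap B (RB T h.axR) (y ν)) ^ t := by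
  have hgen : ∀ i, yb2_gen h.axR y i ∈ maximalIdeal (RB T h.axR) := by
    intro i
    rw [hm]
    cases i with
    | inl i => exact Ideal.mem_sup_left (Ideal.subset_span ⟨i, rfl⟩)
    | inr ν => exact Ideal.mem_sup_right (Ideal.subset_span ⟨ν, rfl⟩)
  have h1 : maximalIdeal (RB T h.axR) ^ (c + 1) ≤
      Ideal.span (Set.range fun ν => algebraMap B (RB T h.axR) (y ν)) *
        maximalIdeal (RB T h.axR) ^ c := by
    conv_lhs => rw [hm]
    refine le_trans (yb2_sup_pow _ _ _) ?_
    rw [← hm]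
    refine sup_le ?_ le_rfl
    refine le_trans (yb2_span_pow _ _) ?_
    rw [Ideal.span_le]
    rintro x ⟨f, rfl⟩
    change (List.ofFn fun j => (SC.bas (f j).succ : RB T h.axR)).prod ∈
      Ideal.span (Set.range fun ν => algebraMap B (RB T h.axR) (y ν)) *
        maximalIdeal (RB T h.axR) ^ c
    rw [yb2_key h f]
    refine Ideal.sum_mem _ fun ν _ => Ideal.sum_mem _ fun g _ => ?_
    refine Ideal.mul_mem_mul (Ideal.subset_span ⟨ν, rfl⟩) ?_
    refine Ideal.mul_mem_left _ _ ?_
    exact yb2_prod_mem _ _ _ fun j => hgen _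
  have h2 : maximalIdeal (RB T h.axR) ^ (t + c) ≤
      Ideal.span (Set.range fun ν => algebraMap B (RB T h.axR) (y ν)) ^ t *
        maximalIdeal (RB T h.axR) ^ c := by
    induction t with
    | zero =>
      rw [zero_add, pow_zero, one_mul]
    | succ t ih =>
      have e1 : t + 1 + c = (c + 1) + t := by ring
      rw [e1, pow_add]
      refine le_trans (Ideal.mul_mono_left h1) ?_
      rw [mul_assoc, ← pow_add, add_comm c t]
      refine le_trans (Ideal.mul_mono_right ih) ?_
      rw [← mul_assoc, pow_succ']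
  exact h2.trans Ideal.mul_le_left

end B

end Vale.Agent.P202Y
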