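import Vale.Agent.P202Y.YB4

/-! # P202Y, module YB5: `length(S_B / z) ≤ L` (helper74) -/

namespace Vale.Agent.P202Y

open IsLocalRing

universe u v w

/-- A module with a finite chain of generators, each killed by the maximal ideal modulo the
previous ones. -/
theorem YB5_chain {B : Type u} [CommRing B] [IsLocalRing B] {D : ℕ} (y : Fin D → B)
    (hy : maximalIdeal B = Ideal.span (Set.range y)) :
    ∀ (L : ℕ) (Q : Type v) [AddCommGroup Q] [Module B Q] (g : Fin L → Q),
      (∀ ν k, y ν • g k ∈ Submodule.span B (g '' {k' | k' < k})) →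
      Submodule.span B (Set.range g) = ⊤ → Module.length B Q ≤ L := by
  intro L
  induction L with
  | zero =>
    intro Q _ _ g _ hspan
    have h1 : Set.range g = ∅ := Set.range_eq_empty g
    rw [h1, Submodule.span_empty] at hspan
    haveI : Subsingleton Q := by
      have : Subsingleton (Submodule B Q) := subsingleton_of_bot_eq_top hspan
      exact (Submodule.subsingleton_iff B).mp this
    rw [Module.length_eq_zero]
    simp
  | succ L ih =>
    intro Q _ _ g hg hspan
    let N : Submodule B Q := Submodule.span B {g 0}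
    have h0 : ∀ ν, y ν • g 0 = 0 := by
      intro ν
      have h1 := hg ν 0
      have h2 : ({k' | k' < (0 : Fin (L + 1))} : Set (Fin (L + 1))) = ∅ := by
        ext k; simp
      rw [h2, Set.image_empty, Submodule.span_empty, Submodule.mem_bot] at h1
      exact h1
    have hNlen : Module.length B N ≤ 1 := by
      have hmem : g 0 ∈ N := Submodule.mem_span_singleton_self _
      let f : B →ₗ[B] N := LinearMap.toSpanSingleton B N ⟨g 0, hmem⟩
      have hker : maximalIdeal B ≤ LinearMap.ker f := by
        rw [hy]
        refine Ideal.span_le.mpr ?_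
        rintro _ ⟨ν, rfl⟩
        apply Subtype.ext
        exact h0 ν
      let f' : (B ⧸ maximalIdeal B) →ₗ[B] N := (maximalIdeal B).liftQ f hker
      have hf' : Function.Surjective f' := by
        intro q
        obtain ⟨b, hb⟩ := Submodule.mem_span_singleton.mp q.2
        refine ⟨Submodule.Quotient.mk b, ?_⟩
        apply Subtype.ext
        exact hb
      have h3 := Module.length_le_of_surjective f' hf'
      haveI : IsSimpleModule B (B ⧸ maximalIdeal B) :=
        isSimpleModule_iff_isCoatom.mpr (maximalIdeal.isMaximal B).out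
      rw [Module.length_eq_one B (B ⧸ maximalIdeal B)] at h3
      exact h3
    have hQ : Module.length B (Q ⧸ N) ≤ L := by
      refine ih (Q ⧸ N) (fun k => Submodule.Quotient.mk (g k.succ)) ?_ ?_
      · intro ν k
        have h1 := hg ν k.succ
        have h2 : N.mkQ (y ν • g k.succ) ∈
            (Submodule.span B (g '' {k' | k' < k.succ})).map N.mkQ :=
          Submodule.mem_map_of_mem h1
        rw [Submodule.map_span] at h2
        have h3 : Submodule.span B (N.mkQ '' (g '' {k' | k' < k.succ})) ≤
            Submodule.span B ((fun k => (Submodule.Quotient.mk (g k.succ) : Q ⧸ N)) ''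
              {k' | k' < k}) := by
          rw [Submodule.span_le]
          rintro _ ⟨_, ⟨k', hk', rfl⟩, rfl⟩
          rcases Fin.eq_zero_or_eq_succ k' with rfl | ⟨j, rfl⟩
          · have : N.mkQ (g 0) = 0 := by
              rw [Submodule.mkQ_apply, Submodule.Quotient.mk_eq_zero]
              exact Submodule.mem_span_singleton_self _
            rw [this]
            exact Submodule.zero_mem _
          · refine Submodule.subset_span ⟨j, ?_, rfl⟩
            exact Fin.succ_lt_succ_iff.mp hk'
        exact h3 h2
      · rw [eq_top_iff]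
        intro q _
        obtain ⟨x, rfl⟩ := Submodule.Quotient.mk_surjective N q
        have hx : x ∈ Submodule.span B (Set.range g) := by rw [hspan]; trivial
        have h2 : N.mkQ x ∈ (Submodule.span B (Set.range g)).map N.mkQ :=
          Submodule.mem_map_of_mem hx
        rw [Submodule.map_span] at h2
        have h3 : Submodule.span B (N.mkQ '' Set.range g) ≤
            Submodule.span B (Set.range fun k : Fin L =>
              (Submodule.Quotient.mk (g k.succ) : Q ⧸ N)) := by
          rw [Submodule.span_le]
          rintro _ ⟨_, ⟨k', rfl⟩, rfl⟩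
          rcases Fin.eq_zero_or_eq_succ k' with rfl | ⟨j, rfl⟩
          · have : N.mkQ (g 0) = 0 := by
              rw [Submodule.mkQ_apply, Submodule.Quotient.mk_eq_zero]
              exact Submodule.mem_span_singleton_self _
            rw [this]
            exact Submodule.zero_mem _
          · exact Submodule.subset_span ⟨j, rfl⟩
        exact h3 h2
    have hadd := Module.length_eq_add_of_exact N.subtype N.mkQ N.subtype_injective
      N.mkQ_surjective (LinearMap.exact_subtype_mkQ N)
    rw [hadd]
    calc Module.length B N + Module.length B (Q ⧸ N) ≤ 1 + L := add_le_add hNlen hQ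
      _ = ((L + 1 : ℕ) : ℕ∞) := by push_cast; ring

variable {B : Type u} [CommRing B] {D e r L c K : ℕ} {y : Fin D → B} {T : Idx D e r L c → B}

theorem YB5_vecS_mkS (h : SCAx (Tc T)) (h' : SCAx (dS T h)) (x : Fin (r + 1) → Fin (e + 1) → B) :
    vecS (mkS h' x) = x := rfl

theorem YB5_ext {h : SCAx (Tc T)} {h' : SCAx (dS T h)} {x x' : SB T h h'}
    (hx : ∀ m n, vecS x m n = vecS x' m n) : x = x' :=
  SC.ext' fun m => SC.ext' fun n => hx m n

theorem YB5_vecS_add {h : SCAx (Tc T)} {h' : SCAx (dS T h)} (x x' : SB T h h') (m : Fin (r + 1))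
    (n : Fin (e + 1)) : vecS (x + x') m n = vecS x m n + vecS x' m n := by
  unfold vecS
  rw [map_add, Pi.add_apply, map_add, Pi.add_apply]

theorem YB5_vecS_sum {h : SCAx (Tc T)} {h' : SCAx (dS T h)} {ι : Type*} (s : Finset ι)
    (x : ι → SB T h h') (m : Fin (r + 1)) (n : Fin (e + 1)) :
    vecS (∑ i ∈ s, x i) m n = ∑ i ∈ s, vecS (x i) m n := by
  unfold vecS
  rw [map_sum, Finset.sum_apply, map_sum, Finset.sum_apply]

/-- the structure map from `B` -/
noncomputable def YB5_psi (h : SCAx (Tc T)) (h' : SCAx (dS T h)) : B →+* SB T h h' :=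
  (algebraMap (RB T h) (SB T h h')).comp (algebraMap B (RB T h))

theorem YB5_vecS_psi {h : SCAx (Tc T)} {h' : SCAx (dS T h)} (b : B) (x : SB T h h')
    (m : Fin (r + 1)) (n : Fin (e + 1)) :
    vecS (YB5_psi h h' b * x) m n = b * vecS x m n := by
  unfold YB5_psi vecS
  rw [RingHom.comp_apply, ← Algebra.smul_def, map_smul, Pi.smul_apply, smul_eq_mul,
    ← Algebra.smul_def, map_smul, Pi.smul_apply, smul_eq_mul]

/-- YB5: `length(S_B / z) ≤ L`. -/
theorem SB_length_proved [IsLocalRing B] [IsNoetherianRing B]
    (hy : maximalIdeal B = Ideal.span (Set.range y)) (h : Rel K y T)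
    [IsLocalRing (SB T h.axR h.axS)]
    (hloc : ∀ x : B, x ∈ maximalIdeal B → algebraMap (RB T h.axR) (SB T h.axR h.axS)
        (algebraMap B (RB T h.axR) x) ∈ maximalIdeal (SB T h.axR h.axS))
    (hz : ∀ x : SB T h.axR h.axS, vecS x 0 0 ∈ maximalIdeal B → x ∈ maximalIdeal (SB T h.axR h.axS)) :
    (∀ ν, mkS h.axS (Tz T ν) ∈ maximalIdeal (SB T h.axR h.axS)) ∧
    Module.length (SB T h.axR h.axS) (SB T h.axR h.axS ⧸
      Ideal.span (Set.range fun ν => mkS h.axS (Tz T ν))) ≤ L := by
  constructor
  · intro ν
    apply hz
    rw [YB5_vecS_mkS, h.zc ν, hy]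
    exact Ideal.sum_mem _ fun μ _ => Ideal.mul_mem_right _ _ (Ideal.subset_span ⟨μ, rfl⟩)
  · set Z : Ideal (SB T h.axR h.axS) := Ideal.span (Set.range fun ν => mkS h.axS (Tz T ν)) with hZ
    letI : Algebra B (SB T h.axR h.axS) := (YB5_psi h.axR h.axS).toAlgebra
    have hsmul : ∀ (b : B) (x : SB T h.axR h.axS), b • x = YB5_psi h.axR h.axS b * x :=
      fun b x => rfl
    have hzmem : ∀ (μ : Fin D) (w : Fin (r + 1) → Fin (e + 1) → B),
        mkS h.axS (Tz T μ) * mkS h.axS w ∈ Z := fun μ w =>
      Ideal.mul_mem_right _ _ (Ideal.subset_span ⟨μ, rfl⟩)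
    -- length over `B`
    have hB : Module.length B (SB T h.axR h.axS ⧸ Z) ≤ L := by
      refine YB5_chain y hy L (SB T h.axR h.axS ⧸ Z)
        (fun k => Ideal.Quotient.mk Z (mkS h.axS (Tg T k))) ?_ ?_
      · intro ν k
        have hrel : y ν • mkS h.axS (Tg T k) =
            (∑ k' : Fin L, (if k' < k then T (.ka ν k k') else 0) • mkS h.axS (Tg T k')) +
            ∑ μ, mkS h.axS (Tz T μ) * mkS h.axS (fun m n => T (.w ν k μ m n)) := by
          refine YB5_ext fun m n => ?_
          rw [hsmul, YB5_vecS_psi, YB5_vecS_add, YB5_vecS_sum, YB5_vecS_sum, YB5_vecS_mkS,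
            h.ka ν k m n]
          congr 1
          · refine Finset.sum_congr rfl fun k' _ => ?_
            rw [hsmul, YB5_vecS_psi, YB5_vecS_mkS]
            split_ifs <;> simp
        have h1 : y ν • (Ideal.Quotient.mk Z (mkS h.axS (Tg T k))) =
            ∑ k' : Fin L, (if k' < k then T (.ka ν k k') else 0) •
              Ideal.Quotient.mk Z (mkS h.axS (Tg T k')) := by
          have h2 : Ideal.Quotient.mk Z (y ν • mkS h.axS (Tg T k)) =
              y ν • (Ideal.Quotient.mk Z (mkS h.axS (Tg T k))) := rfl
          rw [← h2, hrel, map_add, map_sum, map_sum]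
          have h3 : ∑ μ, Ideal.Quotient.mk Z (mkS h.axS (Tz T μ) *
              mkS h.axS (fun m n => T (.w ν k μ m n))) = 0 :=
            Finset.sum_eq_zero fun μ _ => Ideal.Quotient.eq_zero_iff_mem.mpr (hzmem μ _)
          rw [h3, add_zero]
          rfl
        rw [h1]
        refine Submodule.sum_mem _ fun k' _ => ?_
        by_cases hk : k' < k
        · rw [if_pos hk]
          exact Submodule.smul_mem _ _ (Submodule.subset_span ⟨k', hk, rfl⟩)
        · rw [if_neg hk, zero_smul]
          exact Submodule.zero_mem _
      · rw [eq_top_iff]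
        intro q _
        obtain ⟨x, rfl⟩ := Ideal.Quotient.mk_surjective q
        have hx : x = ∑ a : Fin (r + 1), ∑ b : Fin (e + 1), vecS x a b • mkS h.axS (bS B e r a b) := by
          refine YB5_ext fun m n => ?_
          rw [YB5_vecS_sum]
          simp only [YB5_vecS_sum, hsmul, YB5_vecS_psi, YB5_vecS_mkS, bS, mul_ite, mul_one, mul_zero]
          rw [Finset.sum_eq_single m, Finset.sum_eq_single n]
          · simp
          · intro b _ hb
            rw [if_neg]
            rintro ⟨-, h2⟩
            exact hb h2.symm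
          · intro h0; exact absurd (Finset.mem_univ _) h0
          · intro a _ ha
            refine Finset.sum_eq_zero fun b _ => ?_
            rw [if_neg]
            rintro ⟨h1, -⟩
            exact ha h1.symm
          · intro h0; exact absurd (Finset.mem_univ _) h0
        have hb : ∀ a b, Ideal.Quotient.mk Z (mkS h.axS (bS B e r a b)) ∈
            Submodule.span B (Set.range fun k : Fin L =>
              Ideal.Quotient.mk Z (mkS h.axS (Tg T k))) := by
          intro a b
          have hrel : mkS h.axS (bS B e r a b) =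
              (∑ k : Fin L, T (.la a b k) • mkS h.axS (Tg T k)) +
              ∑ μ, mkS h.axS (Tz T μ) * mkS h.axS (fun m n => T (.v a b μ m n)) := by
            refine YB5_ext fun m n => ?_
            rw [YB5_vecS_add, YB5_vecS_sum, YB5_vecS_sum, YB5_vecS_mkS, h.la a b m n]
            congr 1
            · refine Finset.sum_congr rfl fun k' _ => ?_
              rw [hsmul, YB5_vecS_psi, YB5_vecS_mkS]
          rw [hrel, map_add, map_sum, map_sum]
          have h3 : ∑ μ, Ideal.Quotient.mk Z (mkS h.axS (Tz T μ) *
              mkS h.axS (fun m n => T (.v a b μ m n))) = 0 :=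
            Finset.sum_eq_zero fun μ _ => Ideal.Quotient.eq_zero_iff_mem.mpr (hzmem μ _)
          rw [h3, add_zero]
          refine Submodule.sum_mem _ fun k _ => ?_
          have h4 : Ideal.Quotient.mk Z (T (.la a b k) • mkS h.axS (Tg T k)) =
              T (.la a b k) • Ideal.Quotient.mk Z (mkS h.axS (Tg T k)) := rfl
          rw [h4]
          exact Submodule.smul_mem _ _ (Submodule.subset_span ⟨k, rfl⟩)
        rw [hx, map_sum]
        refine Submodule.sum_mem _ fun a _ => ?_
        rw [map_sum]
        refine Submodule.sum_mem _ fun b _ => ?_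
        have h4 : Ideal.Quotient.mk Z (vecS x a b • mkS h.axS (bS B e r a b)) =
            vecS x a b • Ideal.Quotient.mk Z (mkS h.axS (bS B e r a b)) := rfl
        rw [h4]
        exact Submodule.smul_mem _ _ (hb a b)
    have h5 := Submodule.length_le_length_restrictScalars (R := SB T h.axR h.axS) B
      (⊤ : Submodule (SB T h.axR h.axS) (SB T h.axR h.axS ⧸ Z))
    rw [Module.length_top] at h5
    refine h5.trans (le_trans (le_of_eq ?_) hB)
    exact (Module.length_top (R := B) (M := SB T h.axR h.axS ⧸ Z))

end Vale.Agent.P202Y
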