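import Vale.Agent.P202.Full

namespace Vale.Agent.P202Y

open IsLocalRing Vale.Agent.P202 RingTheory.Sequence

universe u v

theorem YD9_smul_map {R' S : Type*} [CommRing R'] [IsLocalRing R'] [CommRing S] [IsLocalRing S]
    [Algebra R' S] [IsLocalHom (algebraMap R' S)] {l : ℕ} (n : ℕ) (b : Fin l → R')
    (hb : b ∈ maximalIdeal R' ^ n • (⊤ : Submodule R' (Fin l → R'))) :
    (fun i => algebraMap R' S (b i)) ∈ maximalIdeal S ^ n • (⊤ : Submodule S (Fin l → S)) := by
  have hle : (maximalIdeal R' ^ n).map (algebraMap R' S) ≤ maximalIdeal S ^ n := by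
    rw [Ideal.map_pow]
    exact Ideal.pow_right_mono map_maximalIdeal_le n
  refine Submodule.smul_induction_on hb (fun r hr a _ => ?_) (fun a a' h h' => ?_)
  · have h1 : (fun i => algebraMap R' S ((r • a) i)) =
        algebraMap R' S r • fun i => algebraMap R' S (a i) := by
      funext i
      simp
    rw [h1]
    exact Submodule.smul_mem_smul (hle (Ideal.mem_map_of_mem _ hr)) trivial
  · have h1 : (fun i => algebraMap R' S ((a + a') i)) =
        (fun i => algebraMap R' S (a i)) + fun i => algebraMap R' S (a' i) := by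
      funext i
      simp
    rw [h1]
    exact Submodule.add_mem _ h h'

theorem YD9_flat {R R' S : Type*} [CommRing R] [IsNoetherianRing R] [CommRing R'] [IsLocalRing R']
    [IsNoetherianRing R'] [CommRing S] [IsLocalRing S] [IsNoetherianRing S]
    [Algebra R R'] [Algebra R' S] [Algebra R S] [IsScalarTower R R' S] [Module.Flat R S]
    [IsLocalHom (algebraMap R' S)] (I : Ideal R)
    (hI : I.map (algebraMap R R') = maximalIdeal R')
    (hsurj : ∀ (n : ℕ) (x : R'), ∃ r : R, x - algebraMap R R' r ∈ maximalIdeal R' ^ n) :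
    Module.Flat R' S := by
  classical
  rw [Module.Flat.iff_forall_isTrivialRelation]
  intro l f x hfx
  let σ : (Fin l → R') →ₗ[R'] R' := Fintype.linearCombination R' f
  have hσ : ∀ a, σ a = ∑ i, f i * a i := fun a => by
    simp only [σ, Fintype.linearCombination_apply, smul_eq_mul]
    exact Finset.sum_congr rfl fun i _ => mul_comm _ _
  let N : Submodule S (Fin l → S) :=
    Submodule.span S ((fun (a : Fin l → R') (i : Fin l) => algebraMap R' S (a i)) ''
      (LinearMap.ker σ : Set (Fin l → R')))
  have key : ∀ n : ℕ, x ∈ N ⊔ maximalIdeal S ^ n • ⊤ := by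
    intro n
    obtain ⟨c, hc⟩ := Ideal.exists_pow_inf_eq_pow_smul (maximalIdeal R') (LinearMap.range σ)
    have hc1 : ∀ g ∈ maximalIdeal R' ^ (n + c), g ∈ LinearMap.range σ →
        ∃ b ∈ maximalIdeal R' ^ n • (⊤ : Submodule R' (Fin l → R')), σ b = g := by
      intro g hg1 hg2
      have h1 : g ∈ maximalIdeal R' ^ (n + c) • (⊤ : Submodule R' R') ⊓ LinearMap.range σ := by
        refine ⟨?_, hg2⟩
        rw [smul_eq_mul, Ideal.mul_top]
        exact hg1
      rw [hc (n + c) (by omega), Nat.add_sub_cancel] at h1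
      have h2 : g ∈ maximalIdeal R' ^ n • LinearMap.range σ :=
        Submodule.smul_mono le_rfl inf_le_right h1
      rw [LinearMap.range_eq_map, ← Submodule.map_smul''] at h2
      exact h2
    choose g hg using fun i => hsurj (n + c) (f i)
    have hpow : (maximalIdeal R' ^ (n + c)).map (algebraMap R' S) =
        (I ^ (n + c)).map (algebraMap R S) := by
      rw [IsScalarTower.algebraMap_eq R R' S, ← Ideal.map_map, Ideal.map_pow, Ideal.map_pow,
        Ideal.map_pow, hI]
    have hmem : ∑ i, algebraMap R S (g i) * x i ∈ (I ^ (n + c)).map (algebraMap R S) := by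
      rw [← hpow]
      have h1 : ∑ i, algebraMap R S (g i) * x i =
          - ∑ i, algebraMap R' S (f i - algebraMap R R' (g i)) * x i := by
        have h2 : ∑ i, algebraMap R' S (f i) * x i = 0 := by
          simpa [Algebra.smul_def] using hfx
        simp only [map_sub, sub_mul, Finset.sum_sub_distrib, h2, zero_sub, neg_neg,
          ← IsScalarTower.algebraMap_apply R R' S]
      rw [h1]
      refine Ideal.neg_mem_iff _ |>.mpr (Ideal.sum_mem _ fun i _ => ?_)
      exact Ideal.mul_mem_right _ _ (Ideal.mem_map_of_mem _ (hg i))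
    obtain ⟨K, h, hh⟩ := Submodule.fg_iff_exists_fin_generating_family.mp
      (IsNoetherian.noetherian (I ^ (n + c)))
    have hh' : Ideal.span (Set.range h) = I ^ (n + c) := hh
    rw [← hh', Ideal.map_span, ← Set.range_comp, Ideal.mem_span_range_iff_exists_fun] at hmem
    obtain ⟨z, hz⟩ := hmem
    have hrel : ∑ i : Fin l ⊕ Fin K, (Sum.elim g h i) • (Sum.elim x (fun k => - z k) i) = 0 := by
      rw [Fintype.sum_sum_type]
      simp only [Sum.elim_inl, Sum.elim_inr, Algebra.smul_def]
      rw [← hz, ← Finset.sum_add_distrib]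
      refine Finset.sum_eq_zero fun k _ => ?_
      simp only [Function.comp]
      ring
    obtain ⟨k, a, y, hay, hga⟩ := Module.Flat.isTrivialRelation_of_sum_smul_eq_zero (R := R) (M := S)
      (f := Sum.elim g h) (x := Sum.elim x (fun k => - z k)) hrel
    have hga' : ∀ j, ∑ i, g i * a (Sum.inl i) j ∈ I ^ (n + c) := by
      intro j
      have h1 := hga j
      rw [Fintype.sum_sum_type] at h1
      simp only [Sum.elim_inl, Sum.elim_inr] at h1
      rw [eq_neg_of_add_eq_zero_left h1]
      refine Ideal.neg_mem_iff _ |>.mpr (Ideal.sum_mem _ fun i _ => ?_)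
      refine Ideal.mul_mem_right _ _ ?_
      rw [← hh']
      exact Ideal.subset_span ⟨i, rfl⟩
    have hfa : ∀ j, ∃ b ∈ maximalIdeal R' ^ n • (⊤ : Submodule R' (Fin l → R')),
        σ b = σ (fun i => algebraMap R R' (a (Sum.inl i) j)) := by
      intro j
      refine hc1 _ ?_ ⟨_, rfl⟩
      have h1 : σ (fun i => algebraMap R R' (a (Sum.inl i) j)) =
          ∑ i, (f i - algebraMap R R' (g i)) * algebraMap R R' (a (Sum.inl i) j) +
            algebraMap R R' (∑ i, g i * a (Sum.inl i) j) := by
        rw [hσ, map_sum, ← Finset.sum_add_distrib]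
        refine Finset.sum_congr rfl fun i _ => ?_
        rw [map_mul]
        ring
      rw [h1]
      refine Ideal.add_mem _ (Ideal.sum_mem _ fun i _ => Ideal.mul_mem_right _ _ (hg i)) ?_
      rw [← hI, ← Ideal.map_pow]
      exact Ideal.mem_map_of_mem _ (hga' j)
    choose b hb1 hb2 using hfa
    have hx : x = (∑ j, y j • fun i => algebraMap R' S
          ((fun i => algebraMap R R' (a (Sum.inl i) j)) i - b j i)) +
        ∑ j, y j • fun i => algebraMap R' S (b j i) := by
      rw [← Finset.sum_add_distrib]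
      funext i
      have h1 := hay (Sum.inl i)
      simp only [Sum.elim_inl] at h1
      rw [h1, Finset.sum_apply]
      refine Finset.sum_congr rfl fun j _ => ?_
      simp only [Pi.add_apply, Pi.smul_apply, smul_eq_mul, map_sub,
        ← IsScalarTower.algebraMap_apply R R' S]
      rw [Algebra.smul_def]
      ring
    rw [hx]
    refine Submodule.add_mem_sup (Submodule.sum_mem _ fun j _ => Submodule.smul_mem _ _ ?_)
      (Submodule.sum_mem _ fun j _ => Submodule.smul_mem _ _ (YD9_smul_map n (b j) (hb1 j)))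
    refine Submodule.subset_span ⟨(fun i => algebraMap R R' (a (Sum.inl i) j)) - b j, ?_, rfl⟩
    rw [SetLike.mem_coe, LinearMap.mem_ker, map_sub, hb2 j, sub_self]
  have hxN : x ∈ N := by
    rw [← Submodule.Quotient.mk_eq_zero]
    refine IsHausdorff.haus (inferInstance : IsHausdorff (maximalIdeal S) ((Fin l → S) ⧸ N)) _
      fun n => ?_
    rw [SModEq.zero]
    obtain ⟨u, hu, w, hw, huw⟩ := Submodule.mem_sup.mp (key n)
    rw [← huw, Submodule.Quotient.mk_add, (Submodule.Quotient.mk_eq_zero N).mpr hu, zero_add]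
    have h1 : N.mkQ w ∈ Submodule.map N.mkQ (maximalIdeal S ^ n • ⊤) := ⟨w, hw, rfl⟩
    rw [Submodule.map_smul''] at h1
    exact Submodule.smul_mono le_rfl le_top h1
  obtain ⟨n, y, s, hs⟩ := Submodule.mem_span_set'.mp hxN
  choose a ha1 ha2 using fun j => (s j).2
  refine ⟨n, fun i j => a j i, y, fun i => ?_, fun j => ?_⟩
  · rw [← hs, Finset.sum_apply]
    refine Finset.sum_congr rfl fun j _ => ?_
    rw [Pi.smul_apply, ← ha2 j]
    simp only [smul_eq_mul, Algebra.smul_def]
    rw [mul_comm]
  · have h1 := ha1 j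
    rw [SetLike.mem_coe, LinearMap.mem_ker, hσ] at h1
    exact h1

theorem YD9_hom {R S : Type*} [CommRing R] [IsLocalRing R] [IsNoetherianRing R] [CommRing S]
    [IsLocalRing S] [IsAdicComplete (maximalIdeal S) S] [Algebra R S]
    [IsLocalHom (algebraMap R S)] :
    ∃ (_ : Algebra (AdicCompletion (maximalIdeal R) R) S),
      IsScalarTower R (AdicCompletion (maximalIdeal R) R) S ∧
        IsLocalHom (algebraMap (AdicCompletion (maximalIdeal R) R) S) := by
  have hle : ∀ (n : ℕ), ∀ a ∈ maximalIdeal R ^ n,
      (Algebra.ofId R (S ⧸ maximalIdeal S ^ n)) a = 0 := by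
    intro n a ha
    rw [Algebra.ofId_apply, IsScalarTower.algebraMap_apply R S (S ⧸ maximalIdeal S ^ n)]
    refine Ideal.Quotient.eq_zero_iff_mem.mpr ?_
    have h1 : (maximalIdeal R ^ n).map (algebraMap R S) ≤ maximalIdeal S ^ n := by
      rw [Ideal.map_pow]
      exact Ideal.pow_right_mono map_maximalIdeal_le n
    exact h1 (Ideal.mem_map_of_mem _ ha)
  let q : (n : ℕ) → (R ⧸ maximalIdeal R ^ n) →ₐ[R] S ⧸ maximalIdeal S ^ n := fun n =>
    Ideal.Quotient.liftₐ _ (Algebra.ofId R (S ⧸ maximalIdeal S ^ n)) (hle n)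
  have hq : ∀ n r, q n (Ideal.Quotient.mk _ r) = Ideal.Quotient.mk _ (algebraMap R S r) :=
    fun n r => rfl
  let f : (n : ℕ) → AdicCompletion (maximalIdeal R) R →ₐ[R] S ⧸ maximalIdeal S ^ n := fun n =>
    (q n).comp (AdicCompletion.evalₐ (maximalIdeal R) n)
  have hf : ∀ n x, f n x = q n (AdicCompletion.evalₐ (maximalIdeal R) n x) := fun n x => rfl
  let F : AdicCompletion (maximalIdeal R) R →ₐ[R] S :=
    IsAdicComplete.liftAlgHom (maximalIdeal S) f (by
      intro m n hmn
      ext x
      induction x using AdicCompletion.induction_on with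
      | _ a =>
        have h1 : f n (AdicCompletion.mk (maximalIdeal R) R a) =
            Ideal.Quotient.mk _ (algebraMap R S (a.val n)) := by
          rw [hf, AdicCompletion.evalₐ_mk, hq]
        have h2 : f m (AdicCompletion.mk (maximalIdeal R) R a) =
            Ideal.Quotient.mk _ (algebraMap R S (a.val n)) := by
          rw [hf, AdicCompletion.evalₐ_mk, ← AdicCompletion.Ideal.mk_eq_mk _ hmn, hq]
        rw [AlgHom.comp_apply, h1, h2]
        rfl)
  let i : Algebra (AdicCompletion (maximalIdeal R) R) S := F.toRingHom.toAlgebra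
  refine ⟨i, IsScalarTower.of_algebraMap_eq fun r => (F.commutes r).symm,
    isLocalHom_of_map_le ?_⟩
  rw [AdicCompletion.maximalIdeal_eq_map, Ideal.map_map]
  have h1 : (algebraMap (AdicCompletion (maximalIdeal R) R) S).comp
      (algebraMap R (AdicCompletion (maximalIdeal R) R)) = algebraMap R S :=
    RingHom.ext fun r => F.commutes r
  rw [h1]
  exact map_maximalIdeal_le

theorem YD9_noeth (A : Type v) [CommRing A] [IsLocalRing A] [IsNoetherianRing A] :
    IsNoetherianRing (AdicCompletion (maximalIdeal A) A) := by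
  have hfg : (maximalIdeal A).FG := IsNoetherian.noetherian _
  refine noeth_local ?_
  rw [AdicCompletion.maximalIdeal_eq_map]
  exact Ideal.FG.map hfg _

theorem YD9_approx (A : Type v) [CommRing A] [IsLocalRing A] [IsNoetherianRing A] (n : ℕ)
    (x : AdicCompletion (maximalIdeal A) A) :
    ∃ r : A, x - algebraMap A (AdicCompletion (maximalIdeal A) A) r ∈
      maximalIdeal (AdicCompletion (maximalIdeal A) A) ^ n := by
  have hfg : (maximalIdeal A).FG := IsNoetherian.noetherian _
  obtain ⟨z, hz⟩ := Ideal.Quotient.mk_surjective (x.1 n)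
  refine ⟨z, ?_⟩
  rw [AdicCompletion.maximalIdeal_eq_map, ← Ideal.map_pow, ← Submodule.restrictScalars_mem A,
    ← Ideal.smul_top_eq_map]
  rw [AdicCompletion.algebraMap_apply, AdicCompletion.pow_smul_top_eq_ker_eval hfg]
  simpa [AdicCompletion.eval, sub_eq_zero] using hz.symm

theorem reduce_complete_proved (D : ℕ) (R : Type u) (S : Type v) [CommRing R] [IsLocalRing R]
    [IsNoetherianRing R] [CommRing S] [IsLocalRing S] [IsNoetherianRing S] [Algebra R S]
    [Module.Flat R S] [IsLocalHom (algebraMap R S)] [Algebra ℚ R] (hD : ringKrullDim R = D)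
    (hCM : ∃ rs : List R, IsRegular R rs ∧ rs.length = D) :
    ∃ (R' : Type u) (S' : Type v) (_ : CommRing R') (_ : IsLocalRing R')
      (_ : IsNoetherianRing R') (_ : IsAdicComplete (maximalIdeal R') R') (_ : CommRing S')
      (_ : IsLocalRing S') (_ : IsNoetherianRing S') (_ : IsAdicComplete (maximalIdeal S') S')
      (_ : Algebra R' S') (_ : Module.Flat R' S') (_ : IsLocalHom (algebraMap R' S'))
      (_ : Algebra ℚ R'), ringKrullDim R' = D ∧ ringKrullDim S' = D ∧
      (∃ N, maximalIdeal S' ^ N ≤ (maximalIdeal R').map (algebraMap R' S')) ∧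
      (∃ rs : List R', IsRegular R' rs ∧ rs.length = D) ∧
      (∀ x, HasMult R x → HasMult R' x) ∧
      (∀ x x', HasMult S x → HasMult S' x' → x' ≤ x) := by
  -- dimensions
  have hover : (maximalIdeal S).LiesOver (maximalIdeal R) := liesOver_max
  have h1 := Ideal.height_eq_height_add_of_liesOver_of_hasGoingDown (maximalIdeal R)
    (maximalIdeal S)
  obtain ⟨n, hn⟩ := exists_dim_nat (R := S)
  have h2 : (maximalIdeal R).height = (D : ℕ∞) := by
    have := IsLocalRing.maximalIdeal_height_eq_ringKrullDim (R := R)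
    rw [hD] at this
    exact_mod_cast this
  have h3 : (maximalIdeal S).height = (n : ℕ∞) := by
    have := IsLocalRing.maximalIdeal_height_eq_ringKrullDim (R := S)
    rw [hn] at this
    exact_mod_cast this
  have hle : D ≤ n := by
    rw [h2, h3] at h1
    have : (D : ℕ∞) ≤ n := by
      rw [h1]
      exact le_self_add
    exact_mod_cast this
  obtain ⟨f, rfl⟩ := Nat.exists_eq_add_of_le hle
  obtain ⟨e, heS, hUX⟩ := hasMult_UX (A := S) (D + f) hn
  obtain ⟨T, _, _, _, _, _, _, hT, hTX⟩ := exists_art D hD e f S hn hUX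
  -- completions
  let R' := AdicCompletion (maximalIdeal R) R
  let S' := AdicCompletion (maximalIdeal T) T
  have hR'n : IsNoetherianRing R' := YD9_noeth R
  have hS'n : IsNoetherianRing S' := YD9_noeth T
  have hfR : Module.Flat R R' := AdicCompletion.flat_of_isNoetherian _
  have hfT : Module.Flat T S' := AdicCompletion.flat_of_isNoetherian _
  obtain ⟨i, hRS, hlocRS, hcomp⟩ := ext_trans R T S'
  obtain ⟨j, htow, hlocj⟩ := YD9_hom (R := R) (S := S')
  have hflat : Module.Flat R' S' := YD9_flat (R := R) (R' := R') (S := S') (maximalIdeal R)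
    AdicCompletion.maximalIdeal_eq_map.symm (YD9_approx R)
  have hdR' : ringKrullDim R' = D := by
    rw [dim_eq (R := R) (S := R') (artin_fibre_field R R'
      AdicCompletion.maximalIdeal_eq_map.symm), hD]
  have hdS' : ringKrullDim S' = D := by
    rw [dim_eq (R := T) (S := S') (artin_fibre_field T S'
      AdicCompletion.maximalIdeal_eq_map.symm), hT]
  have hclR : ∀ N, cl (maximalIdeal R' ^ N) = cl (maximalIdeal R ^ N) := by
    intro N
    have hm : (maximalIdeal R).map (algebraMap R R') = maximalIdeal R' :=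
      AdicCompletion.maximalIdeal_eq_map.symm
    rw [← hm, ← Ideal.map_pow]
    exact cl_flat R R' hm _
  have hclT : ∀ N, cl (maximalIdeal S' ^ N) = cl (maximalIdeal T ^ N) := by
    intro N
    have hm : (maximalIdeal T).map (algebraMap T S') = maximalIdeal S' :=
      AdicCompletion.maximalIdeal_eq_map.symm
    rw [← hm, ← Ideal.map_pow]
    exact cl_flat T S' hm _
  refine ⟨R', S', inferInstance, inferInstance, hR'n, inferInstance, inferInstance, inferInstance,
    hS'n, inferInstance, j, hflat, hlocj,
    ((algebraMap R R').comp (algebraMap ℚ R)).toAlgebra, hdR', hdS', ?_, ?_, ?_, ?_⟩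
  · exact exists_pow_le_fibre (artin_of_dim_eq D hdR' (by rw [hdS', hdR']))
  · obtain ⟨rs, hrs, hrl⟩ := hCM
    have hff : Module.FaithfullyFlat R R' := Module.FaithfullyFlat.of_flat_of_isLocalHom
    exact ⟨rs.map (algebraMap R R'), hrs.of_faithfullyFlat, by simpa using hrl⟩
  · rintro x ⟨d, hd, hx⟩
    refine ⟨d, ?_, ?_⟩
    · rw [hdR', ← hD, hd]
    · have h5 : ∀ N, Module.length R' (R' ⧸ maximalIdeal R' ^ N) =
          Module.length R (R ⧸ maximalIdeal R ^ N) := hclR
      simp only [h5]
      exact hx
  · intro x x' hx hx'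
    have h5 : x' ≤ e := hasMult_le D hdS' hx' (UX_congr hclT hTX)
    have h6 : x = e := by
      obtain ⟨d, hd, hx⟩ := hx
      obtain ⟨d', hd', hx2⟩ := heS
      have : d = d' := by
        rw [hd] at hd'
        exact_mod_cast hd'
      subst this
      exact tendsto_nhds_unique hx hx2
    rw [h6]
    exact h5

end Vale.Agent.P202Y
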