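import Vale.Agent.P202Y.Ps

/-! # P202, characteristic zero: Cohen-Macaulay rings are free over power series rings (helper85) -/

set_option autoImplicit false

namespace Vale.Agent.P202Y

open IsLocalRing

universe u v w

/-- a power series without constant term is in the ideal of the variables -/
theorem mem_vars (D : ℕ) {R : Type v} [CommRing R] (f : MvPowerSeries (Fin D) R)
    (hf : MvPowerSeries.constantCoeff f = 0) : f ∈ (Ideal.span (Set.range MvPowerSeries.X) : Ideal (MvPowerSeries (Fin D) R)) := by
  classical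
  let g : Fin D → MvPowerSeries (Fin D) R := fun i m =>
    if ∀ j < i, m j = 0 then MvPowerSeries.coeff (m + Finsupp.single i 1) f else 0
  have hg : ∀ i m, MvPowerSeries.coeff m (g i) =
      if ∀ j < i, m j = 0 then MvPowerSeries.coeff (m + Finsupp.single i 1) f else 0 :=
    fun i m => rfl
  have hc : ∀ (n : Fin D →₀ ℕ) i, MvPowerSeries.coeff n (MvPowerSeries.X i * g i) =
      if n i ≠ 0 ∧ ∀ j < i, n j = 0 then MvPowerSeries.coeff n f else 0 := by
    intro n i
    rw [MvPowerSeries.X_def, MvPowerSeries.coeff_monomial_mul, one_mul]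
    by_cases h1 : n i ≠ 0
    · have h2 : Finsupp.single i 1 ≤ n := by
        rw [Finsupp.single_le_iff]
        omega
      rw [if_pos h2, hg, tsub_add_cancel_of_le h2]
      have h3 : (∀ j < i, (n - Finsupp.single i 1 : Fin D →₀ ℕ) j = 0) ↔ ∀ j < i, n j = 0 := by
        refine forall_congr' fun j => forall_congr' fun hj => ?_
        rw [Finsupp.tsub_apply, Finsupp.single_eq_of_ne hj.ne, tsub_zero]
      by_cases h4 : ∀ j < i, n j = 0
      · rw [if_pos (h3.2 h4), if_pos ⟨h1, h4⟩]
      · rw [if_neg (fun h => h4 (h3.1 h)), if_neg (fun h => h4 h.2)]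
    · have h2 : ¬ Finsupp.single i 1 ≤ n := by
        rw [Finsupp.single_le_iff]
        omega
      rw [if_neg h2, if_neg (fun h => h1 h.1)]
  have hsum : f = ∑ i, MvPowerSeries.X i * g i := by
    ext n
    rw [map_sum]
    simp only [hc]
    by_cases hn : n = 0
    · subst hn
      rw [Finset.sum_eq_zero fun i _ => by rw [if_neg (fun h => h.1 rfl)],
        MvPowerSeries.coeff_zero_eq_constantCoeff_apply, hf]
    · have hne : (Finset.univ.filter fun i => n i ≠ 0).Nonempty := by
        by_contra h
        rw [Finset.not_nonempty_iff_eq_empty, Finset.filter_eq_empty_iff] at h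
        apply hn
        ext i
        simpa using h (Finset.mem_univ i)
      obtain ⟨i0, hi0, hmin⟩ := Finset.exists_min_image _ (fun i => i) hne
      rw [Finset.mem_filter] at hi0
      have hmin' : ∀ j < i0, n j = 0 := by
        intro j hj
        by_contra h
        exact absurd (hmin j (Finset.mem_filter.2 ⟨Finset.mem_univ j, h⟩)) (not_le.2 hj)
      rw [Finset.sum_eq_single i0, if_pos ⟨hi0.2, hmin'⟩]
      · intro i _ hi
        rw [if_neg]
        rintro ⟨h1, h2⟩
        rcases lt_trichotomy i i0 with h3 | h3 | h3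
        · exact h1 (hmin' i h3)
        · exact hi h3
        · exact hi0.2 (h2 i0 h3)
      · intro h
        exact absurd (Finset.mem_univ i0) h
  rw [hsum]
  refine Ideal.sum_mem _ fun i _ => Ideal.mul_mem_right _ _ ?_
  exact Ideal.subset_span ⟨i, rfl⟩

theorem maxIdeal_mvps (k : Type v) [Field k] (D : ℕ) :
    maximalIdeal (MvPowerSeries (Fin D) k) = Ideal.ofList (List.ofFn fun i : Fin D =>
      (MvPowerSeries.X i : MvPowerSeries (Fin D) k)) := by
  have h1 : Ideal.ofList (List.ofFn fun i : Fin D => (MvPowerSeries.X i : MvPowerSeries (Fin D) k)) =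
      Ideal.span (Set.range MvPowerSeries.X) := by
    rw [Ideal.ofList]; congr 1; ext x; simp [List.mem_ofFn]
  rw [h1]
  apply le_antisymm
  · intro f hf
    rw [mem_maximalIdeal, mem_nonunits_iff, MvPowerSeries.isUnit_iff_constantCoeff, isUnit_iff_ne_zero,
      not_not] at hf
    exact mem_vars D f hf
  · rw [Ideal.span_le]
    rintro _ ⟨i, rfl⟩
    rw [SetLike.mem_coe, mem_maximalIdeal, mem_nonunits_iff, MvPowerSeries.isUnit_iff_constantCoeff]
    simp

/-- a Cohen-Macaulay complete local ring is finite free over a power series ring -/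
theorem ps_free {k : Type v} [Field k] {R : Type u} [CommRing R] [IsLocalRing R]
    [IsNoetherianRing R] [IsAdicComplete (maximalIdeal R) R] [Algebra k R]
    (hk : ∀ r : R, ∃ c : k, r - algebraMap k R c ∈ maximalIdeal R) {D : ℕ}
    (y : Fin D → R) (hy : ∀ i, y i ∈ maximalIdeal R)
    (hreg : RingTheory.Sequence.IsWeaklyRegular R (List.ofFn y))
    (N : ℕ) (hN : maximalIdeal R ^ N ≤ Ideal.span (Set.range y)) :
    ∃ φ : MvPowerSeries (Fin D) k →ₐ[k] R, (∀ i, φ (MvPowerSeries.X i) = y i) ∧
      ∃ (b : ℕ) (e : Fin b → R), Function.Bijective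
        (fun a : Fin b → MvPowerSeries (Fin D) k => ∑ i, φ (a i) * e i) := by
  obtain ⟨φ, hφ⟩ := ps_exists k R (maximalIdeal R) y hy
  refine ⟨φ, hφ, ?_⟩
  have hfin := ps_finite hk φ (fun i => by rw [hφ]; exact hy i) N (by simpa [hφ] using hN)
  letI : Algebra (MvPowerSeries (Fin D) k) R := (φ : MvPowerSeries (Fin D) k →+* R).toAlgebra
  haveI : Module.Finite (MvPowerSeries (Fin D) k) R := hfin
  have hfree : Module.Free (MvPowerSeries (Fin D) k) R := by
    refine free_of_regular D (MvPowerSeries (Fin D) k) R
      (List.ofFn fun i : Fin D => (MvPowerSeries.X i : MvPowerSeries (Fin D) k)) (by simp) ?_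
      (maxIdeal_mvps k D).symm
    rw [← RingTheory.Sequence.isWeaklyRegular_map_algebraMap_iff R, List.map_ofFn]
    have : (algebraMap (MvPowerSeries (Fin D) k) R ∘ fun i : Fin D => MvPowerSeries.X i) = y := by
      funext i; exact hφ i
    rw [this]
    exact hreg
  let B := Module.Free.chooseBasis (MvPowerSeries (Fin D) k) R
  let B' := B.reindex (Fintype.equivFin _)
  refine ⟨_, B', ?_⟩
  have := B'.equivFun.symm.bijective
  convert this using 2 with a
  rw [Module.Basis.equivFun_symm_apply]
  rfl

end Vale.Agent.P202Y
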