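import Mathlib

/-! # P202, characteristic zero: coefficient fields (helper85) -/

set_option autoImplicit false

namespace Vale.Agent.P202Y

open IsLocalRing Polynomial

universe u v

/-- adjoining an element which is transcendental modulo the maximal ideal -/
theorem cf_trans {k : Type v} [Field k] {S : Type u} [CommRing S] [IsLocalRing S] [Algebra k S]
    (l : Subalgebra k S) (hl : ∀ a ∈ l, a ≠ 0 → ∃ b ∈ l, a * b = 1) (s : S)
    (hs : ∀ p : l[X], p ≠ 0 → IsUnit (aeval s p)) :
    ∃ L : Subalgebra k S, l ≤ L ∧ s ∈ L ∧ ∀ a ∈ L, a ≠ 0 → ∃ b ∈ L, a * b = 1 := by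
  have hnz : ∀ p q : l[X], p ≠ 0 → q ≠ 0 → p * q ≠ 0 := by
    intro p q hp hq h
    have h1 := (hs p hp).mul (hs q hq)
    rw [← map_mul, h, map_zero] at h1
    exact not_isUnit_zero h1
  refine ⟨{ carrier := {x | ∃ p q : l[X], q ≠ 0 ∧ aeval s q * x = aeval s p}
            mul_mem' := ?_, one_mem' := ?_, add_mem' := ?_, zero_mem' := ?_,
            algebraMap_mem' := ?_ }, ?_, ?_, ?_⟩
  · rintro x y ⟨p, q, hq, h⟩ ⟨p', q', hq', h'⟩
    refine ⟨p * p', q * q', hnz _ _ hq hq', ?_⟩
    rw [map_mul, map_mul, ← h, ← h']; ring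
  · refine ⟨1, 1, ?_, by simp⟩
    intro h
    have : (1 : l) = 0 := by simpa using congrArg (fun p => p.coeff 0) h
    exact one_ne_zero (congrArg Subtype.val this)
  · rintro x y ⟨p, q, hq, h⟩ ⟨p', q', hq', h'⟩
    refine ⟨q' * p + q * p', q * q', hnz _ _ hq hq', ?_⟩
    rw [map_add, map_mul, map_mul, map_mul, ← h, ← h']; ring
  · refine ⟨0, 1, ?_, by simp⟩
    intro h
    have : (1 : l) = 0 := by simpa using congrArg (fun p => p.coeff 0) h
    exact one_ne_zero (congrArg Subtype.val this)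
  · intro c
    refine ⟨C (algebraMap k l c), 1, ?_, ?_⟩
    · intro h
      have : (1 : l) = 0 := by simpa using congrArg (fun p => p.coeff 0) h
      exact one_ne_zero (congrArg Subtype.val this)
    · simp [aeval_C]
  · intro a ha
    refine ⟨C ⟨a, ha⟩, 1, ?_, ?_⟩
    · intro h
      have : (1 : l) = 0 := by simpa using congrArg (fun p => p.coeff 0) h
      exact one_ne_zero (congrArg Subtype.val this)
    · simp [aeval_C]
  · refine ⟨X, 1, ?_, by simp⟩
    intro h
    have : (1 : l) = 0 := by simpa using congrArg (fun p => p.coeff 0) h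
    exact one_ne_zero (congrArg Subtype.val this)
  · rintro x ⟨p, q, hq, h⟩ hx
    have hp : p ≠ 0 := by
      rintro rfl
      rw [map_zero] at h
      obtain ⟨u, hu⟩ := hs q hq
      apply hx
      rw [← hu] at h
      exact (Units.mul_right_eq_zero u).mp h
    obtain ⟨u, hu⟩ := hs p hp
    refine ⟨aeval s q * (u⁻¹ : Sˣ), ⟨q, p, hp, ?_⟩, ?_⟩
    · rw [← hu]
      calc (u : S) * (aeval s q * (u⁻¹ : Sˣ)) = aeval s q * (u * (u⁻¹ : Sˣ)) := by ring
        _ = aeval s q := by simp
    · calc x * (aeval s q * (u⁻¹ : Sˣ)) = (aeval s q * x) * (u⁻¹ : Sˣ) := by ring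
        _ = 1 := by rw [h, ← hu]; simp

/-- adjoining a root of an irreducible polynomial -/
theorem cf_alg {k : Type v} [Field k] {S : Type u} [CommRing S] [Algebra k S]
    (l : Subalgebra k S) (s : S) (f : l[X]) (hf : Irreducible f) (hfs : aeval s f = 0)
    (hP : ∀ p : l[X], f ∣ p ∨ ∃ u v : l[X], u * p + v * f = 1) :
    ∃ L : Subalgebra k S, l ≤ L ∧ s ∈ L ∧ ∀ a ∈ L, a ≠ 0 → ∃ b ∈ L, a * b = 1 := by
  refine ⟨{ carrier := {x | ∃ p : l[X], x = aeval s p}
            mul_mem' := ?_, one_mem' := ?_, add_mem' := ?_, zero_mem' := ?_,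
            algebraMap_mem' := ?_ }, ?_, ?_, ?_⟩
  · rintro x y ⟨p, rfl⟩ ⟨q, rfl⟩
    exact ⟨p * q, by simp⟩
  · exact ⟨1, by simp⟩
  · rintro x y ⟨p, rfl⟩ ⟨q, rfl⟩
    exact ⟨p + q, by simp⟩
  · exact ⟨0, by simp⟩
  · intro c
    refine ⟨C (algebraMap k l c), ?_⟩
    simp [aeval_C]
  · intro a ha
    refine ⟨C ⟨a, ha⟩, ?_⟩
    simp [aeval_C]
  · exact ⟨X, by simp⟩
  · rintro x ⟨p, rfl⟩ hx
    rcases hP p with h | ⟨u, v, h⟩
    · obtain ⟨q, rfl⟩ := h
      exact absurd (by rw [map_mul, hfs, zero_mul]) hx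
    · refine ⟨aeval s u, ⟨u, rfl⟩, ?_⟩
      have := congrArg (aeval s) h
      rw [map_add, map_mul, map_mul, hfs, mul_zero, add_zero, map_one] at this
      rw [mul_comm]; exact this

/-- coefficient fields in equal characteristic zero, relative version -/
theorem exists_coeff_field (k : Type v) [Field k] [CharZero k] (S : Type u) [CommRing S]
    [IsLocalRing S] [Algebra k S] [HenselianRing S (maximalIdeal S)] :
    ∃ l : Subalgebra k S, (∀ a ∈ l, a ≠ 0 → ∃ b ∈ l, a * b = 1) ∧
      ∀ s : S, ∃ a ∈ l, s - a ∈ maximalIdeal S := by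
  classical
  let P : Set (Subalgebra k S) := {l | ∀ a ∈ l, a ≠ 0 → ∃ b ∈ l, a * b = 1}
  have hbot : (⊥ : Subalgebra k S) ∈ P := by
    intro a ha h0
    obtain ⟨c, rfl⟩ := Algebra.mem_bot.mp ha
    refine ⟨algebraMap k S c⁻¹, Algebra.mem_bot.mpr ⟨_, rfl⟩, ?_⟩
    rw [← map_mul, mul_inv_cancel₀, map_one]
    rintro rfl
    exact h0 (map_zero _)
  obtain ⟨l, -, hl⟩ := zorn_le_nonempty₀ P (fun c hc hchain x hx => by
    haveI : Nonempty c := ⟨⟨x, hx⟩⟩
    have hdir : Directed (· ≤ ·) (fun a : c => (a : Subalgebra k S)) := by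
      intro a b
      rcases hchain.total a.2 b.2 with h | h
      · exact ⟨b, h, le_refl _⟩
      · exact ⟨a, le_refl _, h⟩
    have hcoe := Subalgebra.coe_iSup_of_directed hdir
    have hmem : ∀ z : S, z ∈ (⨆ a : c, (a : Subalgebra k S)) ↔ ∃ a : c, z ∈ (a : Subalgebra k S) := by
      intro z
      rw [← SetLike.mem_coe, hcoe]; simp
    refine ⟨⨆ a : c, (a : Subalgebra k S), ?_, fun z hz => le_iSup (fun a : c => (a : Subalgebra k S)) ⟨z, hz⟩⟩
    intro a ha h0
    obtain ⟨i, hi⟩ := (hmem a).mp ha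
    obtain ⟨b, hb, hab⟩ := hc i.2 a hi h0
    exact ⟨b, (hmem b).mpr ⟨i, hb⟩, hab⟩) ⊥ hbot
  refine ⟨l, hl.prop, ?_⟩
  have hlP : ∀ a ∈ l, a ≠ 0 → ∃ b ∈ l, a * b = 1 := hl.prop
  have hmax : ∀ L : Subalgebra k S, l ≤ L → (∀ a ∈ L, a ≠ 0 → ∃ b ∈ L, a * b = 1) → L ≤ l :=
    fun L h1 h2 => hl.le_of_ge h2 h1
  have hfield : IsField l :=
    { exists_pair_ne := ⟨0, 1, fun h => zero_ne_one (congrArg Subtype.val h)⟩
      mul_comm := mul_comm
      mul_inv_cancel := by
        intro a ha
        obtain ⟨b, hb, hab⟩ := hlP a a.2 (fun h => ha (Subtype.ext h))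
        exact ⟨⟨b, hb⟩, Subtype.ext hab⟩ }
  letI : Field l := hfield.toField
  haveI : CharZero l := charZero_of_injective_algebraMap (algebraMap k l).injective
  intro s
  by_contra hcon
  push Not at hcon
  by_cases hal : IsAlgebraic l (residue S s)
  · -- algebraic case
    have hint : IsIntegral l (residue S s) := hal.isIntegral
    set f := minpoly l (residue S s) with hf
    have hirr : Irreducible f := minpoly.irreducible hint
    have hsep : f.Separable := hirr.separable
    have hres : ∀ (p : l[X]) (t : S), residue S (aeval t p) = aeval (residue S t) p := by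
      intro p t
      have := aeval_algHom_apply (IsScalarTower.toAlgHom l S (ResidueField S)) t p
      simpa using this.symm
    have h0 : (f.map (algebraMap l S)).eval s ∈ maximalIdeal S := by
      rw [← residue_eq_zero_iff, eval_map_algebraMap, hres, hf, minpoly.aeval]
    have h1 : IsUnit (Ideal.Quotient.mk (maximalIdeal S)
        ((derivative (f.map (algebraMap l S))).eval s)) := by
      rw [derivative_map, eval_map_algebraMap]
      have h2 : residue S (aeval s (derivative f)) ≠ 0 := by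
        rw [hres]
        exact hsep.aeval_derivative_ne_zero (minpoly.aeval _ _)
      exact IsUnit.mk0 (residue S (aeval s (derivative f))) h2
    obtain ⟨a, ha, has⟩ := HenselianRing.is_henselian (I := maximalIdeal S)
      (f.map (algebraMap l S)) ((minpoly.monic hint).map _) s h0 h1
    have ha' : aeval a f = 0 := by
      rw [← eval_map_algebraMap]; exact ha
    obtain ⟨L, hL1, hL2, hL3⟩ := cf_alg l a f hirr ha' (by
      intro p
      by_cases hd : f ∣ p
      · exact Or.inl hd
      · right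
        obtain ⟨u, v, huv⟩ := (hirr.coprime_iff_not_dvd.mpr hd).symm
        exact ⟨u, v, huv⟩)
    refine hcon a (hmax L hL1 hL3 hL2) ?_
    have := (maximalIdeal S).neg_mem has
    simpa using this
  · have hres : ∀ (p : l[X]) (t : S), residue S (aeval t p) = aeval (residue S t) p := by
      intro p t
      have := aeval_algHom_apply (IsScalarTower.toAlgHom l S (ResidueField S)) t p
      simpa using this.symm
    obtain ⟨L, hL1, hL2, hL3⟩ := cf_trans l hlP s (by
      intro p hp
      by_contra hu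
      have h3 : aeval s p ∈ maximalIdeal S := hu
      rw [← residue_eq_zero_iff, hres] at h3
      exact hal ⟨p, hp, h3⟩)
    refine hcon s (hmax L hL1 hL3 hL2) ?_
    simp

end Vale.Agent.P202Y
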