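import Mathlib

/-! # P202, equal characteristic zero from characteristic p: structure-constant algebras and the
finite system (owner helper7) -/

namespace Vale.Agent.P202Y

universe u v w

/-! ### Structure-constant algebras -/

section SC

variable {A : Type u} [CommRing A] {n : ℕ}

/-- The axioms for structure constants on `Fin (n+1) → A` with unit the basis vector `0`. -/
structure SCAx (c : Fin (n + 1) → Fin (n + 1) → Fin (n + 1) → A) : Prop where
  unit : ∀ j m, c 0 j m = if j = m then 1 else 0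
  comm : ∀ i j m, c i j m = c j i m
  assoc : ∀ i j k l, ∑ m, c i j m * c m k l = ∑ m, c j k m * c i m l

/-- The algebra with structure constants `c` (the axioms are part of the type). -/
@[nolint unusedArguments]
def SC (c : Fin (n + 1) → Fin (n + 1) → Fin (n + 1) → A) (_ : SCAx c) : Type u := Fin (n + 1) → A

end SC

/-! ### Raw products -/

section Raw

variable {B : Type u} [CommRing B] {e r : ℕ}

/-- product in the structure-constant algebra `R_B = B^(e+1)` -/
def mR (c : Fin (e + 1) → Fin (e + 1) → Fin (e + 1) → B) (x y : Fin (e + 1) → B) :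
    Fin (e + 1) → B := fun m => ∑ i, ∑ j, x i * y j * c i j m

/-- the unit vector -/
def oR (B : Type u) [CommRing B] (e : ℕ) : Fin (e + 1) → B := fun m => if m = 0 then 1 else 0

/-- basis vector -/
def bR (B : Type u) [CommRing B] (e : ℕ) (i : Fin (e + 1)) : Fin (e + 1) → B :=
  fun m => if m = i then 1 else 0

/-- product in `S_B = R_B^(r+1)` with structure constants `d` in `R_B` -/
def mS (c : Fin (e + 1) → Fin (e + 1) → Fin (e + 1) → B)
    (d : Fin (r + 1) → Fin (r + 1) → Fin (r + 1) → Fin (e + 1) → B)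
    (x y : Fin (r + 1) → Fin (e + 1) → B) : Fin (r + 1) → Fin (e + 1) → B :=
  fun m => ∑ i, ∑ j, mR c (mR c (x i) (y j)) (d i j m)

/-- the basis element `r_a e_b` of `S_B` over `B` -/
def bS (B : Type u) [CommRing B] (e r : ℕ) (b : Fin (r + 1)) (a : Fin (e + 1)) :
    Fin (r + 1) → Fin (e + 1) → B := fun m n => if m = b ∧ n = a then 1 else 0

/-- product of a list in `R_B` -/
def lR (c : Fin (e + 1) → Fin (e + 1) → Fin (e + 1) → B) (l : List (Fin (e + 1) → B)) :
    Fin (e + 1) → B := l.foldr (mR c) (oR B e)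

/-- powers in `S_B` -/
def pS (c : Fin (e + 1) → Fin (e + 1) → Fin (e + 1) → B)
    (d : Fin (r + 1) → Fin (r + 1) → Fin (r + 1) → Fin (e + 1) → B)
    (x : Fin (r + 1) → Fin (e + 1) → B) : ℕ → Fin (r + 1) → Fin (e + 1) → B
  | 0 => bS B e r 0 0
  | k + 1 => mS c d (pS c d x k) x

end Raw

/-! ### The unknowns -/

/-- indices of the unknowns -/
inductive Idx (D e r L c : ℕ) : Type
  /-- structure constants of `R` -/
  | cR (i j m : Fin (e + 1))
  /-- structure constants of `S` over `R` -/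
  | cS (i j m : Fin (r + 1)) (n : Fin (e + 1))
  /-- reduction of the maximal ideal of `R` -/
  | red (f : Fin (c + 1) → Fin e) (ν : Fin D) (g : Fin c → Fin e ⊕ Fin D) (n : Fin (e + 1))
  /-- nilpotency of `e_j`, `j ≥ 1`, modulo `m S` -/
  | nl (j : Fin r) (m : Fin (r + 1)) (ν : Fin D)
  /-- parameters `z` of `S` -/
  | z (ν : Fin D) (m : Fin (r + 1)) (n : Fin (e + 1))
  | zc (ν μ : Fin D)
  /-- composition series of `S / z` -/
  | g (k : Fin L) (m : Fin (r + 1)) (n : Fin (e + 1))
  | ka (ν : Fin D) (k k' : Fin L)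
  | w (ν : Fin D) (k : Fin L) (μ : Fin D) (m : Fin (r + 1)) (n : Fin (e + 1))
  | la (a : Fin (r + 1)) (b : Fin (e + 1)) (k : Fin L)
  | v (a : Fin (r + 1)) (b : Fin (e + 1)) (μ : Fin D) (m : Fin (r + 1)) (n : Fin (e + 1))

variable {D e r L c : ℕ}

section Rel

variable {B : Type u} [CommRing B]

/-- structure constants -/
def Tc (T : Idx D e r L c → B) : Fin (e + 1) → Fin (e + 1) → Fin (e + 1) → B :=
  fun i j m => T (.cR i j m)

def Td (T : Idx D e r L c → B) : Fin (r + 1) → Fin (r + 1) → Fin (r + 1) → Fin (e + 1) → B :=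
  fun i j m n => T (.cS i j m n)

def Tz (T : Idx D e r L c → B) (ν : Fin D) : Fin (r + 1) → Fin (e + 1) → B :=
  fun m n => T (.z ν m n)

def Tg (T : Idx D e r L c → B) (k : Fin L) : Fin (r + 1) → Fin (e + 1) → B :=
  fun m n => T (.g k m n)

/-- generators of the maximal ideal of `R_B`: `r_(i+1)` and `y_ν` -/
def gen (y : Fin D → B) (e : ℕ) : Fin e ⊕ Fin D → Fin (e + 1) → B :=
  Sum.elim (fun i => bR B e i.succ) (fun ν n => y ν * oR B e n)

/-- The relations. -/
structure Rel (K : ℕ) (y : Fin D → B) (T : Idx D e r L c → B) : Prop where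
  /-- `R_B` is a commutative associative algebra -/
  runit : ∀ j m, Tc T 0 j m = if j = m then 1 else 0
  rcomm : ∀ i j m, Tc T i j m = Tc T j i m
  rassoc : ∀ i j k l, ∑ m, Tc T i j m * Tc T m k l = ∑ m, Tc T j k m * Tc T i m l
  /-- `S_B` is a commutative associative `R_B`-algebra -/
  sunit : ∀ j m n, Td T 0 j m n = if j = m then oR B e n else 0
  scomm : ∀ i j m n, Td T i j m n = Td T j i m n
  sassoc : ∀ i j k l n, ∑ m, mR (Tc T) (Td T i j m) (Td T m k l) n =
    ∑ m, mR (Tc T) (Td T j k m) (Td T i m l) n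
  /-- `m^(c+1) ≤ (y) m^c` -/
  red : ∀ (f : Fin (c + 1) → Fin e) n,
    lR (Tc T) (List.ofFn fun j => bR B e (f j).succ) n =
      ∑ ν, ∑ g : Fin c → Fin e ⊕ Fin D, y ν *
        mR (Tc T) (fun n => T (.red f ν g n)) (lR (Tc T) (List.ofFn fun j => gen y e (g j))) n
  /-- `e_j` is nilpotent modulo `m S` -/
  nl : ∀ (j : Fin r) m, pS (Tc T) (Td T) (bS B e r j.succ 0) K m 0 =
    ∑ ν, y ν * T (.nl j m ν)
  /-- `z_ν` is in the maximal ideal -/
  zc : ∀ ν, Tz T ν 0 0 = ∑ μ, y μ * T (.zc ν μ)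
  /-- composition series -/
  ka : ∀ ν k m n, y ν * Tg T k m n = (∑ k' : Fin L, if k' < k then T (.ka ν k k') * Tg T k' m n
    else 0) + ∑ μ, mS (Tc T) (Td T) (Tz T μ) (fun m n => T (.w ν k μ m n)) m n
  la : ∀ a b m n, bS B e r a b m n = (∑ k : Fin L, T (.la a b k) * Tg T k m n) +
    ∑ μ, mS (Tc T) (Td T) (Tz T μ) (fun m n => T (.v a b μ m n)) m n

end Rel

end Vale.Agent.P202Y
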