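import Vale.Agent.P202Y.YE3
import Vale.Agent.P202C.Final

/-! # P202Y: the Cohen-Macaulay case of Lech's inequality over `ℚ` (helper7, with helper90's
characteristic `p` theorem) -/

namespace Vale.Agent.P202Y

open IsLocalRing Vale.Agent.P202 RingTheory.Sequence

universe u v

/-- the characteristic `p` theorem (Cohen-Macaulay case) -/
theorem lechP (D : ℕ) : LechP D := by
  intro p _ R S _ _ _ _ _ _ _ _ _ _ _ hF hD ⟨rs, hrs, hlen⟩ eR eS hR hS
  have hN : IsNoetherianRing S := IsNoetherianRing.of_finite R S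
  cases D with
  | zero =>
    obtain ⟨eR', eS', hR', hS', -, h⟩ := full_ineq (R := R) (S := S) 0 hD
    rw [Nat.zero_sub, Nat.factorial_zero, Nat.cast_one, one_mul] at h
    rw [hasMult_unique hR hR', hasMult_unique hS hS']
    exact h
  | succ n =>
    obtain ⟨eR', eS', hR', hS', h⟩ :=
      Vale.Agent.P202C.fin_core R p hF S n hD ⟨rs, hrs, hlen⟩
    rw [hasMult_unique hR hR', hasMult_unique hS hS']
    exact_mod_cast h

end Vale.Agent.P202Y
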