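import Mathlib
import Vale.Agent.P202.Def

/-! # P202Y: the characteristic p input, Cohen-Macaulay case (helper7) -/

namespace Vale.Agent.P202Y

open IsLocalRing Vale.Agent.P202 RingTheory.Sequence

/-- The characteristic `p` theorem, Cohen-Macaulay case, finite free local extensions. -/
def LechP (D : ℕ) : Prop :=
  ∀ (p : ℕ) [Fact p.Prime] (R S : Type) [CommRing R] [IsLocalRing R] [IsNoetherianRing R]
    [CharP R p] [Infinite (ResidueField R)] [CommRing S] [IsLocalRing S] [Algebra R S]
    [Module.Finite R S] [Module.Free R S] [IsLocalHom (algebraMap R S)],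
    (frobenius R p).Finite → ringKrullDim R = D →
    (∃ rs : List R, IsRegular R rs ∧ rs.length = D) →
    ∀ eR eS, HasMult R eR → HasMult S eS → eR ≤ eS

end Vale.Agent.P202Y
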