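import Mathlib

/-! # P202, characteristic zero: finite extensions of power series rings (helper85) -/

set_option autoImplicit false

namespace Vale.Agent.P202Y

open IsLocalRing

universe u v w

/-- the evaluation homomorphism -/
theorem ps_exists (k : Type v) [CommRing k] (R : Type u) [CommRing R] [Algebra k R] (I : Ideal R)
    [IsAdicComplete I R] {D : ℕ} (y : Fin D → R) (hy : ∀ i, y i ∈ I) :
    ∃ φ : MvPowerSeries (Fin D) k →ₐ[k] R, ∀ i, φ (MvPowerSeries.X i) = y i := by
  letI : WithIdeal R := ⟨I⟩
  letI : UniformSpace k := ⊥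
  haveI : DiscreteUniformity k := ⟨rfl⟩
  haveI h1 : CompleteSpace R := (IsAdic.isPrecomplete_iff (I := I) rfl).mp inferInstance
  haveI h2 : T2Space R := (IsAdic.isHausdorff_iff (I := I) rfl).mp inferInstance
  haveI : ContinuousSMul k R := ⟨by
    refine continuous_iff_continuousAt.mpr ?_
    rintro ⟨c, r⟩
    have h3 : ContinuousAt (fun p : k × R => algebraMap k R p.1 * p.2) (c, r) := by
      refine ContinuousAt.mul ?_ continuousAt_snd
      exact (continuous_of_discreteTopology.comp continuous_fst).continuousAt
    refine h3.congr (Filter.Eventually.of_forall fun p => ?_)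
    simp [Algebra.smul_def]⟩
  have hev : MvPowerSeries.HasEval y := by
    refine ⟨fun i => ?_, ?_⟩
    · have hb := (Ideal.hasBasis_nhds_zero_adic I)
      refine (hb.tendsto_right_iff).mpr ?_
      intro n _
      filter_upwards [Filter.eventually_ge_atTop n] with m hm
      exact Ideal.pow_le_pow_right hm (Ideal.pow_mem_pow (hy i) m)
    · rw [Filter.cofinite_eq_bot]
      exact Filter.tendsto_bot
  exact ⟨MvPowerSeries.aeval hev, fun i => by
    have := MvPowerSeries.aeval_coe (R := k) hev (MvPolynomial.X i)
    simpa using this⟩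

theorem pi_precomplete {A : Type u} [CommRing A] (I : Ideal A) [IsPrecomplete I A] (n : ℕ) :
    IsPrecomplete I (Fin n → A) := by
  constructor
  intro f hf
  have hcomp : ∀ (c : ℕ) (x : Fin n → A), x ∈ (I ^ c • ⊤ : Submodule A (Fin n → A)) →
      ∀ i, x i ∈ (I ^ c • ⊤ : Submodule A A) := by
    intro c x hx i
    have := Submodule.mem_map_of_mem (f := (LinearMap.proj i : (Fin n → A) →ₗ[A] A)) hx
    rw [Submodule.map_smul''] at this
    exact Submodule.smul_mono le_rfl le_top this
  have hcomp' : ∀ (c : ℕ) (x : Fin n → A), (∀ i, x i ∈ (I ^ c • ⊤ : Submodule A A)) →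
      x ∈ (I ^ c • ⊤ : Submodule A (Fin n → A)) := by
    intro c x hx
    have : x = ∑ i, x i • (Pi.single i 1 : Fin n → A) := by
      ext j; simp [Finset.sum_apply, Pi.single_apply]
    rw [this]
    refine Submodule.sum_mem _ fun i _ => Submodule.smul_mem_smul ?_ trivial
    simpa using hx i
  choose L hL using fun i => IsPrecomplete.prec ‹IsPrecomplete I A› (f := fun m => f m i) (by
    intro a b hab
    rw [SModEq.sub_mem]
    exact hcomp a _ (SModEq.sub_mem.mp (hf hab)) i)
  refine ⟨L, fun m => ?_⟩
  rw [SModEq.sub_mem]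
  exact hcomp' m _ fun i => SModEq.sub_mem.mp (hL i m)

/-- generators modulo powers of the maximal ideal -/
theorem gen_mod_pow {k : Type v} [Field k] {R : Type u} [CommRing R] [IsLocalRing R]
    [IsNoetherianRing R] [Algebra k R] (hk : ∀ r : R, ∃ c : k, r - algebraMap k R c ∈ maximalIdeal R)
    (N : ℕ) : ∃ U : Finset R, ∀ r : R, ∃ c : R → k,
      r - ∑ u ∈ U, algebraMap k R (c u) * u ∈ maximalIdeal R ^ N := by
  classical
  induction N with
  | zero => exact ⟨∅, fun r => ⟨fun _ => 0, by simp⟩⟩
  | succ N ih =>
    obtain ⟨U, hU⟩ := ih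
    obtain ⟨G, hG⟩ := (isNoetherianRing_iff_ideal_fg R).mp inferInstance (maximalIdeal R ^ N)
    refine ⟨U ∪ G, fun r => ?_⟩
    obtain ⟨c, hc⟩ := hU r
    rw [← hG] at hc
    obtain ⟨a, ha⟩ := Submodule.mem_span_finset'.mp hc
    choose α hα using hk
    have hGm : ∀ g ∈ G, g ∈ maximalIdeal R ^ N := fun g hg => hG ▸ Ideal.subset_span hg
    refine ⟨fun u => (if u ∈ U then c u else 0) + (if h : u ∈ G then α (a ⟨u, h⟩) else 0), ?_⟩
    have e1 : ∑ u ∈ U ∪ G, algebraMap k R ((if u ∈ U then c u else 0) +
        (if h : u ∈ G then α (a ⟨u, h⟩) else 0)) * u =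
        ∑ u ∈ U, algebraMap k R (c u) * u +
        ∑ g : {x // x ∈ G}, algebraMap k R (α (a g)) * (g : R) := by
      have e2 : ∀ u : R, algebraMap k R ((if u ∈ U then c u else 0) +
        (if h : u ∈ G then α (a ⟨u, h⟩) else 0)) * u =
        (if u ∈ U then algebraMap k R (c u) * u else 0) +
        (if h : u ∈ G then algebraMap k R (α (a ⟨u, h⟩)) * u else 0) := by
        intro u
        rw [map_add, add_mul]
        congr 1
        · split_ifs <;> simp
        · split_ifs <;> simp
      simp_rw [e2]
      rw [Finset.sum_add_distrib]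
      congr 1
      · rw [Finset.sum_ite_mem, Finset.union_inter_cancel_left]
      · rw [← Finset.sum_subset (Finset.subset_union_right : G ⊆ U ∪ G)
          (fun x _ hx => by simp [hx]), ← Finset.sum_coe_sort G]
        refine Finset.sum_congr rfl fun x _ => ?_
        simp
    rw [e1, ← sub_sub, ← ha, ← Finset.sum_sub_distrib]
    refine Ideal.sum_mem _ fun g _ => ?_
    have : a g • (g : R) - algebraMap k R (α (a g)) * g =
        (a g - algebraMap k R (α (a g))) * g := by simp [sub_mul]
    rw [this, pow_succ']
    exact Ideal.mul_mem_mul (hα _) (hGm g g.2)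

/-- `R` is finite over the power series ring when `(y)` is primary to the maximal ideal -/
theorem ps_finite {k : Type v} [Field k] {R : Type u} [CommRing R] [IsLocalRing R]
    [IsNoetherianRing R] [IsAdicComplete (maximalIdeal R) R] [Algebra k R]
    (hk : ∀ r : R, ∃ c : k, r - algebraMap k R c ∈ maximalIdeal R) {D : ℕ}
    (φ : MvPowerSeries (Fin D) k →ₐ[k] R) (hy : ∀ i, φ (MvPowerSeries.X i) ∈ maximalIdeal R)
    (N : ℕ) (hN : maximalIdeal R ^ N ≤ Ideal.span (Set.range fun i => φ (MvPowerSeries.X i))) :
    (φ : MvPowerSeries (Fin D) k →+* R).Finite := by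
  classical
  letI : Algebra (MvPowerSeries (Fin D) k) R := (φ : MvPowerSeries (Fin D) k →+* R).toAlgebra
  change Module.Finite (MvPowerSeries (Fin D) k) R
  obtain ⟨U, hU⟩ := gen_mod_pow hk N
  set I : Ideal (MvPowerSeries (Fin D) k) := Ideal.span (Set.range MvPowerSeries.X) with hI
  have hIR : I.map (algebraMap (MvPowerSeries (Fin D) k) R) =
      Ideal.span (Set.range fun i => φ (MvPowerSeries.X i)) := by
    rw [hI, Ideal.map_span, ← Set.range_comp]; rfl
  have hle : I.map (algebraMap (MvPowerSeries (Fin D) k) R) ≤ maximalIdeal R := by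
    rw [hIR, Ideal.span_le]; rintro _ ⟨i, rfl⟩; exact hy i
  haveI : IsHausdorff (I.map (algebraMap (MvPowerSeries (Fin D) k) R)) R :=
    ⟨fun x hx => IsHausdorff.haus ‹IsAdicComplete (maximalIdeal R) R›.toIsHausdorff x fun n => by
      have := hx n
      rw [SModEq.zero] at this ⊢
      exact Submodule.smul_mono_left (Ideal.pow_right_mono hle n) this⟩
  haveI : IsHausdorff I R := IsHausdorff.map_algebraMap_iff.mp ‹_›
  let e := U.equivFin
  let f : (Fin U.card → MvPowerSeries (Fin D) k) →ₗ[MvPowerSeries (Fin D) k] R :=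
    Fintype.linearCombination (MvPowerSeries (Fin D) k) (fun i => ((e.symm i : U) : R))
  haveI : IsPrecomplete I (MvPowerSeries (Fin D) k) := by
    rw [hI]; infer_instance
  haveI := pi_precomplete I U.card
  have hsurj : Function.Surjective ((Submodule.mkQ (I • ⊤ : Submodule (MvPowerSeries (Fin D) k) R)) ∘ₗ f) := by
    intro x
    obtain ⟨r, rfl⟩ := Submodule.mkQ_surjective _ x
    obtain ⟨c, hc⟩ := hU r
    refine ⟨fun i => MvPowerSeries.C (c (e.symm i : U)), ?_⟩
    rw [LinearMap.comp_apply, ← sub_eq_zero, ← map_sub, Submodule.mkQ_apply,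
      Submodule.Quotient.mk_eq_zero, Ideal.smul_top_eq_map, Submodule.restrictScalars_mem, hIR]
    have h1 : f (fun i => MvPowerSeries.C (c (e.symm i : U))) =
        ∑ u ∈ U, algebraMap k R (c u) * u := by
      rw [Fintype.linearCombination_apply, ← Finset.sum_coe_sort U]
      rw [← Equiv.sum_comp e.symm]
      refine Finset.sum_congr rfl fun i _ => ?_
      rw [Algebra.smul_def]
      congr 1
      change φ (MvPowerSeries.C (c (e.symm i : U))) = _
      have := φ.commutes (c (e.symm i : U))
      rw [← this]; rfl
    rw [h1, ← neg_mem_iff, neg_sub]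
    exact hN hc
  have := surjective_of_mkQ_comp_surjective hsurj
  exact Module.Finite.of_surjective f this

/-- freeness over a local ring whose maximal ideal is generated by a sequence which is regular on the module -/
theorem free_of_regular (n : ℕ) : ∀ (A : Type u) [CommRing A] [IsLocalRing A] [IsNoetherianRing A]
    (M : Type v) [AddCommGroup M] [Module A M] [Module.Finite A M] (rs : List A),
    rs.length = n → RingTheory.Sequence.IsWeaklyRegular M rs → Ideal.ofList rs = maximalIdeal A →
    Module.Free A M := by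
  induction n with
  | zero =>
    intro A _ _ _ M _ _ _ rs hlen _ hm
    rw [List.length_eq_zero_iff] at hlen
    subst hlen
    rw [Ideal.ofList_nil] at hm
    have hf : IsField A := by
      rw [isField_iff_maximalIdeal_eq, hm]
    letI := hf.toField
    exact inferInstance
  | succ n ih =>
    intro A _ _ _ M _ _ _ rs hlen hreg hm
    match rs, hlen with
    | x :: rs, hlen =>
      rw [RingTheory.Sequence.isWeaklyRegular_cons_iff'] at hreg
      obtain ⟨hx, hreg⟩ := hreg
      haveI : Module.FinitePresentation A M := Module.finitePresentation_of_finite A M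
      have hxm : x ∈ maximalIdeal A := by
        rw [← hm]; exact Ideal.subset_span (by simp)
      rw [← Module.free_quotSMulTop_iff_free A M (x := x) ?_ hx]
      swap
      · rw [IsLocalRing.jacobson_eq_maximalIdeal _ bot_ne_top]; exact hxm
      haveI : Nontrivial (A ⧸ Ideal.span {x}) := by
        refine Ideal.Quotient.nontrivial_iff.mpr ?_
        intro h
        rw [Ideal.span_singleton_eq_top] at h
        exact hxm h
      haveI : IsLocalRing (A ⧸ Ideal.span {x}) :=
        IsLocalRing.of_surjective' (Ideal.Quotient.mk _) Ideal.Quotient.mk_surjective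
      haveI : Module.Finite (A ⧸ Ideal.span {x}) (QuotSMulTop x M) :=
        Module.Finite.of_restrictScalars_finite A _ _
      refine ih (A ⧸ Ideal.span {x}) (QuotSMulTop x M) (rs.map (Ideal.Quotient.mk (Ideal.span {x})))
        (by simpa using hlen) hreg ?_
      rw [← Ideal.map_ofList]
      have h1 : (maximalIdeal (A ⧸ Ideal.span {x})).comap (Ideal.Quotient.mk (Ideal.span {x})) =
          maximalIdeal A := IsLocalRing.eq_maximalIdeal (Ideal.comap_isMaximal_of_surjective _
            Ideal.Quotient.mk_surjective)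
      rw [← Ideal.map_comap_of_surjective _ Ideal.Quotient.mk_surjective
        (maximalIdeal (A ⧸ Ideal.span {x})), h1, ← hm, Ideal.ofList_cons, Ideal.map_sup,
        Ideal.map_quotient_self, bot_sup_eq]

end Vale.Agent.P202Y
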