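import Vale.Agent.P202Y.SCAlg

/-! # P202Y: the rings `R_B`, `S_B` attached to a solution of the relations (helper7) -/

namespace Vale.Agent.P202Y

universe u v w

variable {B : Type u} [CommRing B] {D e r L c K : ℕ} {y : Fin D → B} {T : Idx D e r L c → B}

theorem Rel.axR (h : Rel K y T) : SCAx (Tc T) := ⟨h.runit, h.rcomm, h.rassoc⟩

/-- the ring `R_B` -/
abbrev RB (T : Idx D e r L c → B) (h : SCAx (Tc T)) : Type u := SC (Tc T) h

/-- structure constants of `S_B` over `R_B` -/
def dS (T : Idx D e r L c → B) (h : SCAx (Tc T)) :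
    Fin (r + 1) → Fin (r + 1) → Fin (r + 1) → RB T h := fun i j m => SC.vec.symm (Td T i j m)

theorem RB_mul_vec (h : SCAx (Tc T)) (x y : RB T h) : SC.vec (x * y) = mR (Tc T) (SC.vec x) (SC.vec y) :=
  rfl

theorem Rel.axS (h : Rel K y T) : SCAx (dS T h.axR) where
  unit j m := by
    refine SC.ext' fun n => ?_
    have := h.sunit j m n
    change Td T 0 j m n = _
    rw [this]
    split
    · rfl
    · rfl
  comm i j m := SC.ext' fun n => h.scomm i j m n
  assoc i j k l := by
    refine SC.ext' fun n => ?_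
    rw [map_sum, map_sum, Finset.sum_apply, Finset.sum_apply]
    exact h.sassoc i j k l n

/-- the ring `S_B` -/
abbrev SB (T : Idx D e r L c → B) (h : SCAx (Tc T)) (h' : SCAx (dS T h)) : Type u := SC (dS T h) h'

/-- coordinates of `S_B` -/
def vecS {h : SCAx (Tc T)} {h' : SCAx (dS T h)} (x : SB T h h') : Fin (r + 1) → Fin (e + 1) → B :=
  fun m => SC.vec (SC.vec x m)

/-- element with given coordinates -/
def mkS {h : SCAx (Tc T)} (h' : SCAx (dS T h)) (x : Fin (r + 1) → Fin (e + 1) → B) : SB T h h' :=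
  SC.vec.symm fun m => SC.vec.symm (x m)

theorem vecS_mul {h : SCAx (Tc T)} {h' : SCAx (dS T h)} (x x' : SB T h h') :
    vecS (x * x') = mS (Tc T) (Td T) (vecS x) (vecS x') := by
  funext m
  unfold vecS mS
  rw [SC.vec_mul, map_sum]
  funext n
  rw [Finset.sum_apply]
  simp only [map_sum, Finset.sum_apply, RB_mul_vec]
  rfl

end Vale.Agent.P202Y
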