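import Vale.Agent.P202Y.Defs

/-! # P202Y: structure-constant algebras as commutative rings (helper7) -/

namespace Vale.Agent.P202Y

universe u v w

variable {A : Type u} [CommRing A] {n : ℕ} {c : Fin (n + 1) → Fin (n + 1) → Fin (n + 1) → A}
  {h : SCAx c}

namespace SC

instance : AddCommGroup (SC c h) := inferInstanceAs (AddCommGroup (Fin (n + 1) → A))

instance : Module A (SC c h) := inferInstanceAs (Module A (Fin (n + 1) → A))

/-- the underlying vector -/
def vec : SC c h ≃ₗ[A] (Fin (n + 1) → A) := LinearEquiv.refl A (Fin (n + 1) → A)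

instance : Mul (SC c h) := ⟨fun x y => vec.symm fun m => ∑ i, ∑ j, vec x i * vec y j * c i j m⟩

instance : One (SC c h) := ⟨vec.symm fun m => if m = 0 then 1 else 0⟩

theorem vec_mul (x y : SC c h) (m : Fin (n + 1)) :
    vec (x * y) m = ∑ i, ∑ j, vec x i * vec y j * c i j m := rfl

theorem vec_one (m : Fin (n + 1)) : vec (1 : SC c h) m = if m = 0 then 1 else 0 := rfl

theorem ext' {x y : SC c h} (hxy : ∀ m, vec x m = vec y m) : x = y := vec.injective (funext hxy)

private theorem mul_comm' (x y : SC c h) : x * y = y * x := by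
  refine ext' fun m => ?_
  rw [vec_mul, vec_mul, Finset.sum_comm]
  refine Finset.sum_congr rfl fun i _ => Finset.sum_congr rfl fun j _ => ?_
  rw [h.comm j i m]
  ring

private theorem one_mul' (x : SC c h) : 1 * x = x := by
  refine ext' fun m => ?_
  rw [vec_mul, Finset.sum_eq_single 0]
  · simp only [vec_one, if_true, one_mul, h.unit]
    simp
  · intro i _ hi
    simp only [vec_one, if_neg hi, zero_mul, Finset.sum_const_zero]
  · intro h0
    exact absurd (Finset.mem_univ _) h0

private theorem mul_add' (x y z : SC c h) : x * (y + z) = x * y + x * z := by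
  refine ext' fun m => ?_
  rw [map_add, Pi.add_apply, vec_mul, vec_mul, vec_mul, ← Finset.sum_add_distrib]
  refine Finset.sum_congr rfl fun i _ => ?_
  rw [← Finset.sum_add_distrib]
  refine Finset.sum_congr rfl fun j _ => ?_
  rw [map_add, Pi.add_apply]
  ring

private theorem mul_assoc' (x y z : SC c h) : x * y * z = x * (y * z) := by
  refine ext' fun l => ?_
  have e1 : vec (x * y * z) l =
      ∑ i, ∑ j, ∑ k, vec x i * vec y j * vec z k * ∑ m, c i j m * c m k l := by
    rw [vec_mul]
    simp only [vec_mul, Finset.sum_mul, Finset.mul_sum]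
    rw [Finset.sum_comm]
    rw [Finset.sum_comm]
    calc ∑ m, ∑ k, ∑ i, ∑ j, vec x i * vec y j * c i j m * vec z k * c m k l
        = ∑ m, ∑ k, ∑ i, ∑ j, vec x i * vec y j * vec z k * (c i j m * c m k l) := by
          refine Finset.sum_congr rfl fun m _ => Finset.sum_congr rfl fun k _ =>
            Finset.sum_congr rfl fun i _ => Finset.sum_congr rfl fun j _ => ?_
          ring
      _ = ∑ i, ∑ j, ∑ k, ∑ m, vec x i * vec y j * vec z k * (c i j m * c m k l) := by
          rw [Finset.sum_comm]
          calc ∑ k, ∑ m, ∑ i, ∑ j, vec x i * vec y j * vec z k * (c i j m * c m k l)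
              = ∑ k, ∑ i, ∑ m, ∑ j, vec x i * vec y j * vec z k * (c i j m * c m k l) :=
                Finset.sum_congr rfl fun k _ => Finset.sum_comm
            _ = ∑ i, ∑ k, ∑ m, ∑ j, vec x i * vec y j * vec z k * (c i j m * c m k l) :=
                Finset.sum_comm
            _ = ∑ i, ∑ k, ∑ j, ∑ m, vec x i * vec y j * vec z k * (c i j m * c m k l) :=
                Finset.sum_congr rfl fun i _ => Finset.sum_congr rfl fun k _ => Finset.sum_comm
            _ = _ := Finset.sum_congr rfl fun i _ => Finset.sum_comm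
  have e2 : vec (x * (y * z)) l =
      ∑ i, ∑ j, ∑ k, vec x i * vec y j * vec z k * ∑ m, c j k m * c i m l := by
    rw [vec_mul]
    simp only [vec_mul, Finset.sum_mul, Finset.mul_sum]
    refine Finset.sum_congr rfl fun i _ => ?_
    calc ∑ m, ∑ j, ∑ k, vec x i * (vec y j * vec z k * c j k m) * c i m l
        = ∑ m, ∑ j, ∑ k, vec x i * vec y j * vec z k * (c j k m * c i m l) := by
          refine Finset.sum_congr rfl fun m _ => Finset.sum_congr rfl fun j _ =>
            Finset.sum_congr rfl fun k _ => ?_
          ring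
      _ = ∑ j, ∑ m, ∑ k, vec x i * vec y j * vec z k * (c j k m * c i m l) := Finset.sum_comm
      _ = _ := Finset.sum_congr rfl fun j _ => Finset.sum_comm
  rw [e1, e2]
  refine Finset.sum_congr rfl fun i _ => Finset.sum_congr rfl fun j _ =>
    Finset.sum_congr rfl fun k _ => ?_
  rw [h.assoc]

instance : CommRing (SC c h) where
  __ := (inferInstance : AddCommGroup (SC c h))
  mul := (· * ·)
  one := 1
  mul_assoc := mul_assoc'
  one_mul := one_mul'
  mul_one x := by rw [mul_comm', one_mul']
  left_distrib := mul_add'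
  right_distrib x y z := by rw [mul_comm', mul_add', mul_comm' z x, mul_comm' z y]
  zero_mul x := by
    refine ext' fun m => ?_
    rw [vec_mul]
    simp
  mul_zero x := by
    refine ext' fun m => ?_
    rw [vec_mul]
    simp
  mul_comm := mul_comm'
  zsmul := (· • ·)
  zsmul_zero' := zero_zsmul
  zsmul_succ' n x := by
    rw [Nat.succ_eq_add_one, Int.natCast_add, Int.natCast_one, add_zsmul, one_zsmul]
  zsmul_neg' n x := by
    rw [Int.negSucc_eq, neg_zsmul]
    rfl
  nsmul := (· • ·)
  nsmul_zero := zero_nsmul
  nsmul_succ n x := succ_nsmul x n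

theorem smul_mul (a : A) (x y : SC c h) : (a • x) * y = a • (x * y) := by
  refine ext' fun m => ?_
  rw [map_smul, Pi.smul_apply, vec_mul, vec_mul, smul_eq_mul, Finset.mul_sum]
  refine Finset.sum_congr rfl fun i _ => ?_
  rw [Finset.mul_sum]
  refine Finset.sum_congr rfl fun j _ => ?_
  rw [map_smul, Pi.smul_apply, smul_eq_mul]
  ring

instance : Algebra A (SC c h) :=
  Algebra.ofModule smul_mul (fun a x y => by rw [mul_comm, smul_mul, mul_comm])

instance : Module.Free A (SC c h) := Module.Free.of_equiv (vec (c := c) (h := h)).symm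

instance : Module.Finite A (SC c h) := Module.Finite.equiv (vec (c := c) (h := h)).symm

/-- the basis of the structure-constant algebra -/
noncomputable def bas : Module.Basis (Fin (n + 1)) A (SC c h) := Module.Basis.ofEquivFun vec

theorem vec_bas (i m : Fin (n + 1)) : vec (bas (c := c) (h := h) i) m = if m = i then 1 else 0 := by
  have h1 := (bas (c := c) (h := h)).equivFun_self i m
  rw [bas, Module.Basis.equivFun_ofEquivFun] at h1
  rw [bas, h1]
  simp only [eq_comm]

theorem bas_zero : bas (c := c) (h := h) 0 = 1 := by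
  refine ext' fun m => ?_
  rw [vec_bas, vec_one]

theorem bas_mul (i j : Fin (n + 1)) :
    bas (c := c) (h := h) i * bas j = ∑ m, c i j m • bas m := by
  refine ext' fun m => ?_
  rw [vec_mul, map_sum, Finset.sum_apply]
  simp only [map_smul, Pi.smul_apply, vec_bas, smul_eq_mul, mul_ite, mul_one, mul_zero]
  rw [Finset.sum_eq_single i, Finset.sum_eq_single j]
  · simp
  · intro k _ hk; simp [hk]
  · intro h0; exact absurd (Finset.mem_univ _) h0
  · intro k _ hk
    refine Finset.sum_eq_zero fun l _ => ?_
    simp [hk]
  · intro h0; exact absurd (Finset.mem_univ _) h0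

theorem vec_algebraMap (a : A) (m : Fin (n + 1)) :
    vec (algebraMap A (SC c h) a) m = if m = 0 then a else 0 := by
  rw [Algebra.algebraMap_eq_smul_one, map_smul, Pi.smul_apply, vec_one, smul_eq_mul]
  split <;> simp

theorem eq_sum (x : SC c h) : x = ∑ i, vec x i • bas i := by
  refine ext' fun m => ?_
  rw [map_sum, Finset.sum_apply]
  simp only [map_smul, Pi.smul_apply, vec_bas, smul_eq_mul, mul_ite, mul_one, mul_zero]
  simp

instance [Nontrivial A] : Nontrivial (SC c h) :=
  ⟨⟨0, 1, fun h0 => by
    have := congrArg (fun x => vec x 0) h0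
    simp only [vec_one, map_zero, Pi.zero_apply, if_true] at this
    exact zero_ne_one this⟩⟩

end SC

end Vale.Agent.P202Y
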