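import Vale.Agent.P202Y.Rings
import Vale.Agent.P202T.Defs
import Vale.Agent.P202.Def

/-! # P202Y: equal characteristic zero from characteristic p, Cohen-Macaulay case: stubs (owner helper7)

Each module proves its statement in its own file `Vale/Agent/P202Y/<module>.lean` with the suffix
`_proved`, helper lemmas prefixed by the module name. -/

namespace Vale.Agent.P202Y

open IsLocalRing Vale.Agent.P202 Vale.Agent.P202T RingTheory.Sequence

universe u v w

/-! ## A. The finite system -/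

/-- YA1: the unknowns are finite in number -/
instance Idx_finite (D e r L c : ℕ) : Finite (Idx D e r L c) := by
  sorry

/-- YA2: the relations are polynomial: a finite set of polynomials over `ℤ[y]`. -/
theorem exists_system (D e r L c K : ℕ) :
    ∃ F : Finset (MvPolynomial (Idx D e r L c) (MvPolynomial (Fin D) ℤ)),
      ∀ (B : Type u) [CommRing B] (γ : MvPolynomial (Fin D) ℤ →+* B) (T : Idx D e r L c → B),
        Rel K (fun i => γ (MvPolynomial.X i)) T ↔ ∀ f ∈ F, MvPolynomial.eval₂Hom γ T f = 0 := by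
  sorry

/-- YA3: relations are preserved by ring homomorphisms -/
theorem Rel.map {D e r L c K : ℕ} {B : Type u} [CommRing B] {B' : Type v} [CommRing B']
    {y : Fin D → B} {T : Idx D e r L c → B} (h : Rel K y T) (f : B →+* B') :
    Rel K (fun i => f (y i)) (fun i => f (T i)) := by
  sorry

/-- YA4: specialization of a finitely generated ring to characteristic `p` -/
theorem exists_spec {k : Type u} [Field k] [CharZero k] (Lam : Subalgebra ℤ k) (h : Lam.FG) :
    ∃ (p : ℕ) (_ : Fact p.Prime), Nonempty (Lam →+* AlgebraicClosure (ZMod p)) := by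
  sorry

/-! ## B. The rings `R_B`, `S_B` over a regular local ring `B` -/

section B

variable {B : Type u} [CommRing B] [IsLocalRing B] [IsNoetherianRing B] {D e r L c K : ℕ}
  {y : Fin D → B} {T : Idx D e r L c → B}

/-- YB1: `R_B` is local, with maximal ideal generated by the `r_(i+1)` and the `y_ν`. -/
theorem RB_local (hy : maximalIdeal B = Ideal.span (Set.range y)) (h : Rel K y T) :
    ∃ _ : IsLocalRing (RB T h.axR), IsLocalHom (algebraMap B (RB T h.axR)) ∧
      maximalIdeal (RB T h.axR) = Ideal.span (Set.range fun i : Fin e => SC.bas i.succ) ⊔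
        Ideal.span (Set.range fun ν => algebraMap B (RB T h.axR) (y ν)) ∧
      ∃ φ : ResidueField B →+* ResidueField (RB T h.axR), Function.Bijective φ := by
  sorry

/-- YB2: the reduction equations: `m^(c+1) ≤ (y) m^c`, hence `m^(t+c) ≤ (y)^t`. -/
theorem RB_red (hy : maximalIdeal B = Ideal.span (Set.range y)) (h : Rel K y T)
    [IsLocalRing (RB T h.axR)]
    (hm : maximalIdeal (RB T h.axR) = Ideal.span (Set.range fun i : Fin e => SC.bas i.succ) ⊔
        Ideal.span (Set.range fun ν => algebraMap B (RB T h.axR) (y ν))) (t : ℕ) :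
    maximalIdeal (RB T h.axR) ^ (t + c) ≤
      Ideal.span (Set.range fun ν => algebraMap B (RB T h.axR) (y ν)) ^ t := by
  sorry

/-- YB3: `R_B` is Cohen-Macaulay of dimension `D` (it is finite free over `B`), `length(R_B/y) = e+1`. -/
theorem RB_cm (hy : maximalIdeal B = Ideal.span (Set.range y)) (hreg : IsRegular B (List.ofFn y))
    (h : Rel K y T) [IsLocalRing (RB T h.axR)] [IsLocalHom (algebraMap B (RB T h.axR))]
    (hres : ∃ φ : ResidueField B →+* ResidueField (RB T h.axR), Function.Bijective φ) :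
    ringKrullDim (RB T h.axR) = D ∧
      IsRegular (RB T h.axR) (List.ofFn fun ν => algebraMap B (RB T h.axR) (y ν)) ∧
      Module.length (RB T h.axR) (RB T h.axR ⧸
        Ideal.span (Set.range fun ν => algebraMap B (RB T h.axR) (y ν))) = e + 1 := by
  sorry

/-- YB4: `S_B` is local. -/
theorem SB_local (hy : maximalIdeal B = Ideal.span (Set.range y)) (h : Rel K y T)
    [IsLocalRing (RB T h.axR)]
    (hm : maximalIdeal (RB T h.axR) = Ideal.span (Set.range fun i : Fin e => SC.bas i.succ) ⊔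
        Ideal.span (Set.range fun ν => algebraMap B (RB T h.axR) (y ν))) :
    ∃ _ : IsLocalRing (SB T h.axR h.axS), IsLocalHom (algebraMap (RB T h.axR) (SB T h.axR h.axS)) ∧
      (∀ x : SB T h.axR h.axS, vecS x 0 0 ∈ maximalIdeal B → x ∈ maximalIdeal (SB T h.axR h.axS)) ∧
      ∀ x : B, x ∈ maximalIdeal B → algebraMap (RB T h.axR) (SB T h.axR h.axS)
        (algebraMap B (RB T h.axR) x) ∈ maximalIdeal (SB T h.axR h.axS) := by
  sorry

/-- YB5: `length(S_B / z) ≤ L`. -/
theorem SB_length (hy : maximalIdeal B = Ideal.span (Set.range y)) (h : Rel K y T)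
    [IsLocalRing (SB T h.axR h.axS)]
    (hloc : ∀ x : B, x ∈ maximalIdeal B → algebraMap (RB T h.axR) (SB T h.axR h.axS)
        (algebraMap B (RB T h.axR) x) ∈ maximalIdeal (SB T h.axR h.axS))
    (hz : ∀ x : SB T h.axR h.axS, vecS x 0 0 ∈ maximalIdeal B → x ∈ maximalIdeal (SB T h.axR h.axS)) :
    (∀ ν, mkS h.axS (Tz T ν) ∈ maximalIdeal (SB T h.axR h.axS)) ∧
    Module.length (SB T h.axR h.axS) (SB T h.axR h.axS ⧸
      Ideal.span (Set.range fun ν => mkS h.axS (Tz T ν))) ≤ L := by
  sorry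

end B

/-- YB6: the multiplicity is at most the colength of a parameter ideal. -/
theorem mult_le_length (S : Type u) [CommRing S] [IsLocalRing S] [IsNoetherianRing S] (D : ℕ)
    (hD : ringKrullDim S = D) (z : Fin D → S) (hz : ∀ ν, z ν ∈ maximalIdeal S) (L : ℕ)
    (hL : Module.length S (S ⧸ Ideal.span (Set.range z)) ≤ L) (x : ℝ) (hx : HasMult S x) :
    x ≤ L := by
  sorry

/-- YB7: multiplicity of a Cohen-Macaulay ring, lower bound (see P202C.Plan.mult_of_reduction). -/
theorem mult_eq (R : Type u) [CommRing R] [IsLocalRing R] [IsNoetherianRing R]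
    (D : ℕ) (hD : ringKrullDim R = D) (y : Fin D → R) (hy : ∀ l, y l ∈ maximalIdeal R)
    (hreg : IsRegular R (List.ofFn y))
    (c : ℕ) (hc : ∀ t : ℕ, maximalIdeal R ^ (t + c) ≤ Ideal.span (Set.range y) ^ t) (L : ℕ)
    (hL : Module.length R (R ⧸ Ideal.span (Set.range y)) = L) : HasMult R L := by
  sorry

/-! ## C. Power series rings over a field -/

/-- YC1 -/
theorem mvps_maximal (D : ℕ) (k : Type u) [Field k] :
    maximalIdeal (MvPowerSeries (Fin D) k) =
      Ideal.span (Set.range (MvPowerSeries.X : Fin D → MvPowerSeries (Fin D) k)) := by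
  sorry

/-- YC2 -/
theorem mvps_regular (D : ℕ) (k : Type u) [Field k] :
    IsRegular (MvPowerSeries (Fin D) k)
      (List.ofFn (MvPowerSeries.X : Fin D → MvPowerSeries (Fin D) k)) := by
  sorry

/-- YC3: `k[[y]]` is F-finite for `k` perfect, and so is every finite algebra over it. -/
theorem frob_finite (D : ℕ) (p : ℕ) [Fact p.Prime] (k : Type u) [Field k] [CharP k p]
    [PerfectRing k p] (R : Type u) [CommRing R] [CharP R p] [Algebra (MvPowerSeries (Fin D) k) R]
    [Module.Finite (MvPowerSeries (Fin D) k) R] : (frobenius R p).Finite := by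
  sorry

/-! ## D. From characteristic zero to the relations -/

/-- YD1: compatible coefficient fields of a local homomorphism of complete local rings containing
`ℚ` (Zorn and Hensel). -/
theorem exists_coef (R : Type u) (S : Type v) [CommRing R] [IsLocalRing R] [CommRing S]
    [IsLocalRing S] [IsAdicComplete (maximalIdeal R) R] [IsAdicComplete (maximalIdeal S) S]
    [Algebra ℚ R] (φ : R →+* S) [IsLocalHom φ] :
    ∃ (k : Type u) (_ : Field k) (l : Type v) (_ : Field l) (a : k →+* R) (b : l →+* S)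
      (j : k →+* l), CharZero k ∧ CharZero l ∧ (∀ x, ∃ t, x - a t ∈ maximalIdeal R) ∧
      (∀ x, ∃ t, x - b t ∈ maximalIdeal S) ∧ b.comp j = φ.comp a := by
  sorry

/-- YD2: evaluation of power series in a complete local ring (existence). -/
theorem exists_psHom (D : ℕ) {l : Type u} [Field l] {S : Type v} [CommRing S] [IsLocalRing S]
    [IsAdicComplete (maximalIdeal S) S] (b : l →+* S) (y : Fin D → S)
    (hy : ∀ i, y i ∈ maximalIdeal S) :
    ∃ Ψ : MvPowerSeries (Fin D) l →+* S, (∀ t, Ψ (MvPowerSeries.C t) = b t) ∧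
      ∀ i, Ψ (MvPowerSeries.X i) = y i := by
  sorry

/-- YD2': uniqueness. -/
theorem psHom_unique (D : ℕ) {l : Type u} [Field l] {S : Type v} [CommRing S] [IsLocalRing S]
    [IsHausdorff (maximalIdeal S) S] (Ψ Ψ' : MvPowerSeries (Fin D) l →+* S)
    (hC : ∀ t, Ψ (MvPowerSeries.C t) = Ψ' (MvPowerSeries.C t))
    (hX : ∀ i, Ψ (MvPowerSeries.X i) = Ψ' (MvPowerSeries.X i))
    (hm : ∀ i, Ψ (MvPowerSeries.X i) ∈ maximalIdeal S) : Ψ = Ψ' := by
  sorry

/-- YD3: lifting a basis modulo a regular sequence to a basis over the power series ring. -/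
theorem basis_lift (D : ℕ) {l : Type u} [Field l] {S : Type v} [CommRing S] [IsLocalRing S]
    [IsNoetherianRing S] [IsAdicComplete (maximalIdeal S) S]
    (Ψ : MvPowerSeries (Fin D) l →+* S)
    (hm : ∀ i, Ψ (MvPowerSeries.X i) ∈ maximalIdeal S)
    (hreg : IsRegular S (List.ofFn fun i => Ψ (MvPowerSeries.X i))) {ι : Type} [Fintype ι]
    (s : ι → S)
    (hspan : ∀ x : S, ∃ t : ι → l, x - ∑ i, Ψ (MvPowerSeries.C (t i)) * s i ∈
      Ideal.span (Set.range fun i => Ψ (MvPowerSeries.X i)))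
    (hind : ∀ t : ι → l, ∑ i, Ψ (MvPowerSeries.C (t i)) * s i ∈
      Ideal.span (Set.range fun i => Ψ (MvPowerSeries.X i)) → t = 0) (x : S) :
    ∃! a : ι → MvPowerSeries (Fin D) l, x = ∑ i, Ψ (a i) * s i := by
  sorry

/-- YD4: bases of `R/yR` and of `S/mS` give a basis of `S/yS` (flatness and lengths). -/
theorem basis_prod (R : Type u) (S : Type v) [CommRing R] [IsLocalRing R] [IsNoetherianRing R]
    [CommRing S] [IsLocalRing S] [IsNoetherianRing S] [Algebra R S] [Module.Flat R S]
    [IsLocalHom (algebraMap R S)] (Y : Ideal R) (hY : ∃ N, maximalIdeal R ^ N ≤ Y)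
    (hYm : Y ≤ maximalIdeal R)
    {k : Type u} [Field k] {l : Type v} [Field l] (a : k →+* R) (b : l →+* S) (j : k →+* l)
    (hab : b.comp j = (algebraMap R S).comp a)
    (hk : ∀ x, ∃ t, x - a t ∈ maximalIdeal R) (hl : ∀ x, ∃ t, x - b t ∈ maximalIdeal S)
    (hfib : ∃ N, maximalIdeal S ^ N ≤ (maximalIdeal R).map (algebraMap R S)) :
    ∃ (e r : ℕ) (ρ : Fin (e + 1) → R) (σ : Fin (r + 1) → S),
      ρ 0 = 1 ∧ σ 0 = 1 ∧ (∀ i : Fin e, ρ i.succ ∈ maximalIdeal R) ∧
      (∀ i : Fin r, σ i.succ ∈ maximalIdeal S) ∧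
      (∀ x, ∃ t : Fin (e + 1) → k, x - ∑ i, a (t i) * ρ i ∈ Y) ∧
      (∀ t : Fin (e + 1) → k, ∑ i, a (t i) * ρ i ∈ Y → t = 0) ∧
      (Module.length R (R ⧸ Y) = e + 1) ∧
      (∀ x : S, ∃ t : Fin (r + 1) × Fin (e + 1) → l,
        x - ∑ i, b (t i) * (algebraMap R S (ρ i.2) * σ i.1) ∈ Y.map (algebraMap R S)) ∧
      (∀ t : Fin (r + 1) × Fin (e + 1) → l,
        ∑ i, b (t i) * (algebraMap R S (ρ i.2) * σ i.1) ∈ Y.map (algebraMap R S) → t = 0) := by
  sorry

/-- YD5: composition series of a finite length quotient. -/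
theorem exists_series (S : Type v) [CommRing S] [IsLocalRing S] [IsNoetherianRing S]
    {l : Type v} [Field l] (b : l →+* S) (hl : ∀ x, ∃ t, x - b t ∈ maximalIdeal S)
    (Z : Ideal S) (L : ℕ) (hL : Module.length S (S ⧸ Z) = L) :
    ∃ g : Fin L → S,
      (∀ x ∈ maximalIdeal S, ∀ k, ∃ κ : Fin L → l, (∀ k', ¬ k' < k → κ k' = 0) ∧
        x * g k - ∑ k', b (κ k') * g k' ∈ Z) ∧
      ∀ x, ∃ κ : Fin L → l, x - ∑ k', b (κ k') * g k' ∈ Z := by
  sorry

/-- YD6: regular sequence which is a reduction, strong form (from P202C/Red.lean, `rd_red`). -/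
theorem exists_reduction' (R : Type u) [CommRing R] [IsLocalRing R] [IsNoetherianRing R]
    [Infinite (ResidueField R)] (D : ℕ) (hD : ringKrullDim R = D)
    (hCM : ∃ rs : List R, IsRegular R rs ∧ rs.length = D) :
    ∃ y : Fin D → R, (∀ l, y l ∈ maximalIdeal R) ∧ IsRegular R (List.ofFn y) ∧
      ∃ c : ℕ, maximalIdeal R ^ (c + 1) ≤ Ideal.span (Set.range y) * maximalIdeal R ^ c := by
  sorry

/-- YD7: extraction, the relations from the rings. -/
theorem extract_rel (D : ℕ) (R : Type u) (S : Type v) [CommRing R] [IsLocalRing R]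
    [IsNoetherianRing R] [IsAdicComplete (maximalIdeal R) R] [CommRing S] [IsLocalRing S]
    [IsNoetherianRing S] [IsAdicComplete (maximalIdeal S) S] [Algebra R S]
    [IsLocalHom (algebraMap R S)]
    {k : Type u} [Field k] {l : Type v} [Field l] (a : k →+* R) (b : l →+* S) (j : k →+* l)
    (hab : b.comp j = (algebraMap R S).comp a)
    (hk : ∀ x, ∃ t, x - a t ∈ maximalIdeal R) (hl : ∀ x, ∃ t, x - b t ∈ maximalIdeal S)
    (hfib : ∃ N, maximalIdeal S ^ N ≤ (maximalIdeal R).map (algebraMap R S))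
    (y : Fin D → R) (hy : ∀ i, y i ∈ maximalIdeal R) (hreg : IsRegular R (List.ofFn y))
    (hregS : IsRegular S (List.ofFn fun i => algebraMap R S (y i)))
    (c : ℕ) (hc : maximalIdeal R ^ (c + 1) ≤ Ideal.span (Set.range y) * maximalIdeal R ^ c)
    (e r : ℕ) (ρ : Fin (e + 1) → R) (σ : Fin (r + 1) → S) (hρ0 : ρ 0 = 1) (hσ0 : σ 0 = 1)
    (hρm : ∀ i : Fin e, ρ i.succ ∈ maximalIdeal R) (hσm : ∀ i : Fin r, σ i.succ ∈ maximalIdeal S)
    (hρ1 : ∀ x, ∃ t : Fin (e + 1) → k, x - ∑ i, a (t i) * ρ i ∈ Ideal.span (Set.range y))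
    (hρ2 : ∀ t : Fin (e + 1) → k, ∑ i, a (t i) * ρ i ∈ Ideal.span (Set.range y) → t = 0)
    (hσ1 : ∀ x : S, ∃ t : Fin (r + 1) × Fin (e + 1) → l,
        x - ∑ i, b (t i) * (algebraMap R S (ρ i.2) * σ i.1) ∈
          (Ideal.span (Set.range y)).map (algebraMap R S))
    (hσ2 : ∀ t : Fin (r + 1) × Fin (e + 1) → l,
        ∑ i, b (t i) * (algebraMap R S (ρ i.2) * σ i.1) ∈
          (Ideal.span (Set.range y)).map (algebraMap R S) → t = 0)
    (z : Fin D → S) (hz : ∀ i, z i ∈ maximalIdeal S) (L : ℕ) (g : Fin L → S)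
    (hg1 : ∀ x ∈ maximalIdeal S, ∀ k, ∃ κ : Fin L → l, (∀ k', ¬ k' < k → κ k' = 0) ∧
        x * g k - ∑ k', b (κ k') * g k' ∈ Ideal.span (Set.range z))
    (hg2 : ∀ x, ∃ κ : Fin L → l, x - ∑ k', b (κ k') * g k' ∈ Ideal.span (Set.range z)) :
    ∃ (K : ℕ) (T : Idx D e r L c → MvPowerSeries (Fin D) l),
      Rel K (fun i => MvPowerSeries.X i) T := by
  sorry

/-- YD8: extraction, with the multiplicities. -/
theorem extract (D : ℕ) (R : Type u) (S : Type v) [CommRing R] [IsLocalRing R]
    [IsNoetherianRing R] [IsAdicComplete (maximalIdeal R) R] [CommRing S] [IsLocalRing S]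
    [IsNoetherianRing S] [IsAdicComplete (maximalIdeal S) S] [Algebra R S] [Module.Flat R S]
    [IsLocalHom (algebraMap R S)] [Algebra ℚ R] (hD : ringKrullDim R = D)
    (hDS : ringKrullDim S = D)
    (hfib : ∃ N, maximalIdeal S ^ N ≤ (maximalIdeal R).map (algebraMap R S))
    (hCM : ∃ rs : List R, IsRegular R rs ∧ rs.length = D) :
    ∃ (l : Type v) (_ : Field l) (_ : CharZero l) (e r L c K : ℕ)
      (T : Idx D e r L c → MvPowerSeries (Fin D) l),
      Rel K (fun i => MvPowerSeries.X i) T ∧ HasMult R (e + 1 : ℕ) ∧ HasMult S L := by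
  sorry

/-- YD9: reduction to complete rings with artinian closed fibre. -/
theorem reduce_complete (D : ℕ) (R : Type u) (S : Type v) [CommRing R] [IsLocalRing R]
    [IsNoetherianRing R] [CommRing S] [IsLocalRing S] [IsNoetherianRing S] [Algebra R S]
    [Module.Flat R S] [IsLocalHom (algebraMap R S)] [Algebra ℚ R] (hD : ringKrullDim R = D)
    (hCM : ∃ rs : List R, IsRegular R rs ∧ rs.length = D) :
    ∃ (R' : Type u) (S' : Type v) (_ : CommRing R') (_ : IsLocalRing R')
      (_ : IsNoetherianRing R') (_ : IsAdicComplete (maximalIdeal R') R') (_ : CommRing S')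
      (_ : IsLocalRing S') (_ : IsNoetherianRing S') (_ : IsAdicComplete (maximalIdeal S') S')
      (_ : Algebra R' S') (_ : Module.Flat R' S') (_ : IsLocalHom (algebraMap R' S'))
      (_ : Algebra ℚ R'), ringKrullDim R' = D ∧ ringKrullDim S' = D ∧
      (∃ N, maximalIdeal S' ^ N ≤ (maximalIdeal R').map (algebraMap R' S')) ∧
      (∃ rs : List R', IsRegular R' rs ∧ rs.length = D) ∧
      (∀ x, HasMult R x → HasMult R' x) ∧
      (∀ x x', HasMult S x → HasMult S' x' → x' ≤ x) := by
  sorry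

/-! ## E. Assembly -/

/-- The characteristic `p` theorem, Cohen-Macaulay case, finite free local extensions. -/
def LechP (D : ℕ) : Prop :=
  ∀ (p : ℕ) [Fact p.Prime] (R S : Type) [CommRing R] [IsLocalRing R] [IsNoetherianRing R]
    [CharP R p] [Infinite (ResidueField R)] [CommRing S] [IsLocalRing S] [Algebra R S]
    [Module.Finite R S] [Module.Free R S] [IsLocalHom (algebraMap R S)],
    (frobenius R p).Finite → ringKrullDim R = D →
    (∃ rs : List R, IsRegular R rs ∧ rs.length = D) →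
    ∀ eR eS, HasMult R eR → HasMult S eS → eR ≤ eS

/-- YE1: in characteristic `p` the relations over `k_p[[y]]` imply `e + 1 ≤ L`. -/
theorem ineq_p (D : ℕ) (hP : LechP D) (p : ℕ) [Fact p.Prime] (e r L c K : ℕ)
    (T : Idx D e r L c → MvPowerSeries (Fin D) (AlgebraicClosure (ZMod p)))
    (h : Rel K (fun i => MvPowerSeries.X i) T) : e + 1 ≤ L := by
  sorry

/-- YE2: the transfer (P202T): relations over `l[[y]]`, `l` of characteristic zero, imply the
inequality. -/
theorem ineq_zero (D : ℕ) (hP : LechP D) {l : Type v} [Field l] [CharZero l] (e r L c K : ℕ)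
    (T : Idx D e r L c → MvPowerSeries (Fin D) l) (h : Rel K (fun i => MvPowerSeries.X i) T) :
    e + 1 ≤ L := by
  sorry

/-- YE3: Lech's inequality for Cohen-Macaulay rings containing `ℚ`. -/
theorem lech_zero (D : ℕ) (hP : LechP D) (R : Type u) (S : Type v) [CommRing R] [IsLocalRing R]
    [IsNoetherianRing R] [CommRing S] [IsLocalRing S] [IsNoetherianRing S] [Algebra R S]
    [Module.Flat R S] [IsLocalHom (algebraMap R S)] [Algebra ℚ R] (hD : ringKrullDim R = D)
    (hCM : ∃ rs : List R, IsRegular R rs ∧ rs.length = D) (eR eS : ℝ) (hR : HasMult R eR)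
    (hS : HasMult S eS) : eR ≤ eS := by
  sorry

end Vale.Agent.P202Y
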