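import Vale.Agent.P202Y.Defs

/-! # P202Y, module YA1: the unknowns are finite in number (helper87) -/

namespace Vale.Agent.P202Y

theorem Idx_finite_proved (D e r L c : ℕ) : Finite (Idx D e r L c) := by
  have h1 : (Set.range fun p : Fin (e + 1) × Fin (e + 1) × Fin (e + 1) =>
      (Idx.cR p.1 p.2.1 p.2.2 : Idx D e r L c)).Finite := Set.finite_range _
  have h2 : (Set.range fun p : Fin (r + 1) × Fin (r + 1) × Fin (r + 1) × Fin (e + 1) =>
      (Idx.cS p.1 p.2.1 p.2.2.1 p.2.2.2 : Idx D e r L c)).Finite := Set.finite_range _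
  have h3 : (Set.range fun p : (Fin (c + 1) → Fin e) × Fin D × (Fin c → Fin e ⊕ Fin D) ×
      Fin (e + 1) => (Idx.red p.1 p.2.1 p.2.2.1 p.2.2.2 : Idx D e r L c)).Finite :=
    Set.finite_range _
  have h4 : (Set.range fun p : Fin r × Fin (r + 1) × Fin D =>
      (Idx.nl p.1 p.2.1 p.2.2 : Idx D e r L c)).Finite := Set.finite_range _
  have h5 : (Set.range fun p : Fin D × Fin (r + 1) × Fin (e + 1) =>
      (Idx.z p.1 p.2.1 p.2.2 : Idx D e r L c)).Finite := Set.finite_range _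
  have h6 : (Set.range fun p : Fin D × Fin D => (Idx.zc p.1 p.2 : Idx D e r L c)).Finite :=
    Set.finite_range _
  have h7 : (Set.range fun p : Fin L × Fin (r + 1) × Fin (e + 1) =>
      (Idx.g p.1 p.2.1 p.2.2 : Idx D e r L c)).Finite := Set.finite_range _
  have h8 : (Set.range fun p : Fin D × Fin L × Fin L =>
      (Idx.ka p.1 p.2.1 p.2.2 : Idx D e r L c)).Finite := Set.finite_range _
  have h9 : (Set.range fun p : Fin D × Fin L × Fin D × Fin (r + 1) × Fin (e + 1) =>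
      (Idx.w p.1 p.2.1 p.2.2.1 p.2.2.2.1 p.2.2.2.2 : Idx D e r L c)).Finite := Set.finite_range _
  have h10 : (Set.range fun p : Fin (r + 1) × Fin (e + 1) × Fin L =>
      (Idx.la p.1 p.2.1 p.2.2 : Idx D e r L c)).Finite := Set.finite_range _
  have h11 : (Set.range fun p : Fin (r + 1) × Fin (e + 1) × Fin D × Fin (r + 1) × Fin (e + 1) =>
      (Idx.v p.1 p.2.1 p.2.2.1 p.2.2.2.1 p.2.2.2.2 : Idx D e r L c)).Finite := Set.finite_range _
  rw [← Set.finite_univ_iff]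
  refine (h1.union (h2.union (h3.union (h4.union (h5.union (h6.union (h7.union (h8.union
    (h9.union (h10.union h11)))))))))).subset ?_
  rintro x -
  cases x with
  | cR i j m => exact Or.inl ⟨(i, j, m), rfl⟩
  | cS i j m n => exact Or.inr (Or.inl ⟨(i, j, m, n), rfl⟩)
  | red f ν g n => exact Or.inr (Or.inr (Or.inl ⟨(f, ν, g, n), rfl⟩))
  | nl j m ν => exact Or.inr (Or.inr (Or.inr (Or.inl ⟨(j, m, ν), rfl⟩)))
  | z ν m n => exact Or.inr (Or.inr (Or.inr (Or.inr (Or.inl ⟨(ν, m, n), rfl⟩))))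
  | zc ν μ => exact Or.inr (Or.inr (Or.inr (Or.inr (Or.inr (Or.inl ⟨(ν, μ), rfl⟩)))))
  | g k m n => exact Or.inr (Or.inr (Or.inr (Or.inr (Or.inr (Or.inr (Or.inl ⟨(k, m, n), rfl⟩))))))
  | ka ν k k' =>
    exact Or.inr (Or.inr (Or.inr (Or.inr (Or.inr (Or.inr (Or.inr (Or.inl ⟨(ν, k, k'), rfl⟩)))))))
  | w ν k μ m n =>
    exact Or.inr (Or.inr (Or.inr (Or.inr (Or.inr (Or.inr (Or.inr (Or.inr
      (Or.inl ⟨(ν, k, μ, m, n), rfl⟩))))))))
  | la a b k =>
    exact Or.inr (Or.inr (Or.inr (Or.inr (Or.inr (Or.inr (Or.inr (Or.inr (Or.inr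
      (Or.inl ⟨(a, b, k), rfl⟩)))))))))
  | v a b μ m n =>
    exact Or.inr (Or.inr (Or.inr (Or.inr (Or.inr (Or.inr (Or.inr (Or.inr (Or.inr
      (Or.inr ⟨(a, b, μ, m, n), rfl⟩)))))))))

end Vale.Agent.P202Y
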