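import Vale.Agent.P202Y.Defs

/-! # P202Y, modules YA2 and YA3: the relations are a finite polynomial system, and they are
preserved by ring homomorphisms.  The defects of the relations are natural in the ring. -/

namespace Vale.Agent.P202Y

universe u v w

section Nat

variable {B : Type u} [CommRing B] {B' : Type v} [CommRing B'] (f : B →+* B') {e r : ℕ}

private theorem ya23_oR (m : Fin (e + 1)) : f (oR B e m) = oR B' e m := by
  unfold oR
  split_ifs <;> simp

private theorem ya23_bR (i m : Fin (e + 1)) : f (bR B e i m) = bR B' e i m := by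
  unfold bR
  split_ifs <;> simp

private theorem ya23_bS (b : Fin (r + 1)) (a : Fin (e + 1)) (m : Fin (r + 1)) (n : Fin (e + 1)) :
    f (bS B e r b a m n) = bS B' e r b a m n := by
  unfold bS
  split_ifs <;> simp

private theorem ya23_mR (c : Fin (e + 1) → Fin (e + 1) → Fin (e + 1) → B)
    (x y : Fin (e + 1) → B) (m : Fin (e + 1)) :
    f (mR c x y m) = mR (fun i j m => f (c i j m)) (fun m => f (x m)) (fun m => f (y m)) m := by
  unfold mR
  simp only [map_sum, map_mul]

private theorem ya23_lR (c : Fin (e + 1) → Fin (e + 1) → Fin (e + 1) → B)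
    (l : List (Fin (e + 1) → B)) (m : Fin (e + 1)) :
    f (lR c l m) = lR (fun i j m => f (c i j m)) (l.map fun x m => f (x m)) m := by
  induction l generalizing m with
  | nil => exact ya23_oR f m
  | cons a l ih =>
    have h1 : lR c (a :: l) = mR c a (lR c l) := rfl
    have h2 : lR (fun i j m => f (c i j m)) ((a :: l).map fun x m => f (x m)) =
        mR (fun i j m => f (c i j m)) (fun m => f (a m))
          (lR (fun i j m => f (c i j m)) (l.map fun x m => f (x m))) := rfl
    rw [h1, h2, ya23_mR]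
    congr 1
    funext m
    exact ih m

private theorem ya23_mS (c : Fin (e + 1) → Fin (e + 1) → Fin (e + 1) → B)
    (d : Fin (r + 1) → Fin (r + 1) → Fin (r + 1) → Fin (e + 1) → B)
    (x y : Fin (r + 1) → Fin (e + 1) → B) (m : Fin (r + 1)) (n : Fin (e + 1)) :
    f (mS c d x y m n) = mS (fun i j m => f (c i j m)) (fun i j m n => f (d i j m n))
      (fun m n => f (x m n)) (fun m n => f (y m n)) m n := by
  unfold mS
  rw [Finset.sum_apply, Finset.sum_apply, map_sum]
  refine Finset.sum_congr rfl fun i _ => ?_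
  rw [Finset.sum_apply, Finset.sum_apply, map_sum]
  refine Finset.sum_congr rfl fun j _ => ?_
  rw [ya23_mR]
  congr 1
  funext m'
  rw [ya23_mR]

private theorem ya23_pS (c : Fin (e + 1) → Fin (e + 1) → Fin (e + 1) → B)
    (d : Fin (r + 1) → Fin (r + 1) → Fin (r + 1) → Fin (e + 1) → B)
    (x : Fin (r + 1) → Fin (e + 1) → B) (K : ℕ) (m : Fin (r + 1)) (n : Fin (e + 1)) :
    f (pS c d x K m n) = pS (fun i j m => f (c i j m)) (fun i j m n => f (d i j m n))
      (fun m n => f (x m n)) K m n := by
  induction K generalizing m n with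
  | zero => exact ya23_bS f 0 0 m n
  | succ K ih =>
    have h1 : pS c d x (K + 1) = mS c d (pS c d x K) x := rfl
    have h2 : pS (fun i j m => f (c i j m)) (fun i j m n => f (d i j m n))
        (fun m n => f (x m n)) (K + 1) = mS (fun i j m => f (c i j m))
        (fun i j m n => f (d i j m n)) (pS (fun i j m => f (c i j m))
        (fun i j m n => f (d i j m n)) (fun m n => f (x m n)) K) (fun m n => f (x m n)) := rfl
    rw [h1, h2, ya23_mS]
    congr 1
    funext m n
    exact ih m n

private theorem ya23_gen {D : ℕ} (y : Fin D → B) (s : Fin e ⊕ Fin D) (n : Fin (e + 1)) :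
    f (gen y e s n) = gen (fun i => f (y i)) e s n := by
  unfold gen
  cases s with
  | inl i => exact ya23_bR f _ n
  | inr ν =>
    simp only [Sum.elim_inr, map_mul]
    rw [ya23_oR]

end Nat

section Df

variable {D e r L c : ℕ}

/-- indices of the relations -/
private abbrev DI (D e r L c : ℕ) : Type :=
  (Fin (e + 1) × Fin (e + 1)) ⊕ (Fin (e + 1) × Fin (e + 1) × Fin (e + 1)) ⊕
  (Fin (e + 1) × Fin (e + 1) × Fin (e + 1) × Fin (e + 1)) ⊕
  (Fin (r + 1) × Fin (r + 1) × Fin (e + 1)) ⊕
  (Fin (r + 1) × Fin (r + 1) × Fin (r + 1) × Fin (e + 1)) ⊕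
  (Fin (r + 1) × Fin (r + 1) × Fin (r + 1) × Fin (r + 1) × Fin (e + 1)) ⊕
  ((Fin (c + 1) → Fin e) × Fin (e + 1)) ⊕ (Fin r × Fin (r + 1)) ⊕ Fin D ⊕
  (Fin D × Fin L × Fin (r + 1) × Fin (e + 1)) ⊕
  (Fin (r + 1) × Fin (e + 1) × Fin (r + 1) × Fin (e + 1))

variable {B : Type u} [CommRing B]

/-- the defects of the relations -/
private def dfct (K : ℕ) (y : Fin D → B) (T : Idx D e r L c → B) : DI D e r L c → B
  | .inl (j, m) => Tc T 0 j m - (if j = m then 1 else 0)
  | .inr (.inl (i, j, m)) => Tc T i j m - Tc T j i m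
  | .inr (.inr (.inl (i, j, k, l))) =>
      ∑ m, Tc T i j m * Tc T m k l - ∑ m, Tc T j k m * Tc T i m l
  | .inr (.inr (.inr (.inl (j, m, n)))) => Td T 0 j m n - (if j = m then oR B e n else 0)
  | .inr (.inr (.inr (.inr (.inl (i, j, m, n))))) => Td T i j m n - Td T j i m n
  | .inr (.inr (.inr (.inr (.inr (.inl (i, j, k, l, n)))))) =>
      ∑ m, mR (Tc T) (Td T i j m) (Td T m k l) n - ∑ m, mR (Tc T) (Td T j k m) (Td T i m l) n
  | .inr (.inr (.inr (.inr (.inr (.inr (.inl (h, n))))))) =>
      lR (Tc T) (List.ofFn fun j => bR B e (h j).succ) n -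
        ∑ ν, ∑ g : Fin c → Fin e ⊕ Fin D, y ν *
        mR (Tc T) (fun n => T (.red h ν g n)) (lR (Tc T) (List.ofFn fun j => gen y e (g j))) n
  | .inr (.inr (.inr (.inr (.inr (.inr (.inr (.inl (j, m)))))))) =>
      pS (Tc T) (Td T) (bS B e r j.succ 0) K m 0 - ∑ ν, y ν * T (.nl j m ν)
  | .inr (.inr (.inr (.inr (.inr (.inr (.inr (.inr (.inl ν)))))))) =>
      Tz T ν 0 0 - ∑ μ, y μ * T (.zc ν μ)
  | .inr (.inr (.inr (.inr (.inr (.inr (.inr (.inr (.inr (.inl (ν, k, m, n)))))))))) =>
      y ν * Tg T k m n - ((∑ k' : Fin L, if k' < k then T (.ka ν k k') * Tg T k' m n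
    else 0) + ∑ μ, mS (Tc T) (Td T) (Tz T μ) (fun m n => T (.w ν k μ m n)) m n)
  | .inr (.inr (.inr (.inr (.inr (.inr (.inr (.inr (.inr (.inr (a, b, m, n)))))))))) =>
      bS B e r a b m n - ((∑ k : Fin L, T (.la a b k) * Tg T k m n) +
    ∑ μ, mS (Tc T) (Td T) (Tz T μ) (fun m n => T (.v a b μ m n)) m n)

private theorem ya23_rel (K : ℕ) (y : Fin D → B) (T : Idx D e r L c → B) :
    Rel K y T ↔ ∀ i, dfct K y T i = 0 := by
  constructor
  · intro h i
    match i with
    | .inl (j, m) => exact sub_eq_zero.2 (h.runit j m)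
    | .inr (.inl (i, j, m)) => exact sub_eq_zero.2 (h.rcomm i j m)
    | .inr (.inr (.inl (i, j, k, l))) => exact sub_eq_zero.2 (h.rassoc i j k l)
    | .inr (.inr (.inr (.inl (j, m, n)))) => exact sub_eq_zero.2 (h.sunit j m n)
    | .inr (.inr (.inr (.inr (.inl (i, j, m, n))))) => exact sub_eq_zero.2 (h.scomm i j m n)
    | .inr (.inr (.inr (.inr (.inr (.inl (i, j, k, l, n)))))) =>
      exact sub_eq_zero.2 (h.sassoc i j k l n)
    | .inr (.inr (.inr (.inr (.inr (.inr (.inl (g, n))))))) =>
      exact sub_eq_zero.2 (h.red g n)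
    | .inr (.inr (.inr (.inr (.inr (.inr (.inr (.inl (j, m)))))))) =>
      exact sub_eq_zero.2 (h.nl j m)
    | .inr (.inr (.inr (.inr (.inr (.inr (.inr (.inr (.inl ν)))))))) =>
      exact sub_eq_zero.2 (h.zc ν)
    | .inr (.inr (.inr (.inr (.inr (.inr (.inr (.inr (.inr (.inl (ν, k, m, n)))))))))) =>
      exact sub_eq_zero.2 (h.ka ν k m n)
    | .inr (.inr (.inr (.inr (.inr (.inr (.inr (.inr (.inr (.inr (a, b, m, n)))))))))) =>
      exact sub_eq_zero.2 (h.la a b m n)
  · intro h
    exact
      { runit := fun j m => sub_eq_zero.1 (h (.inl (j, m)))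
        rcomm := fun i j m => sub_eq_zero.1 (h (.inr (.inl (i, j, m))))
        rassoc := fun i j k l => sub_eq_zero.1 (h (.inr (.inr (.inl (i, j, k, l)))))
        sunit := fun j m n => sub_eq_zero.1 (h (.inr (.inr (.inr (.inl (j, m, n))))))
        scomm := fun i j m n => sub_eq_zero.1 (h (.inr (.inr (.inr (.inr (.inl (i, j, m, n)))))))
        sassoc := fun i j k l n =>
          sub_eq_zero.1 (h (.inr (.inr (.inr (.inr (.inr (.inl (i, j, k, l, n))))))))
        red := fun g n =>
          sub_eq_zero.1 (h (.inr (.inr (.inr (.inr (.inr (.inr (.inl (g, n)))))))))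
        nl := fun j m =>
          sub_eq_zero.1 (h (.inr (.inr (.inr (.inr (.inr (.inr (.inr (.inl (j, m))))))))))
        zc := fun ν =>
          sub_eq_zero.1 (h (.inr (.inr (.inr (.inr (.inr (.inr (.inr (.inr (.inl ν))))))))))
        ka := fun ν k m n => sub_eq_zero.1
          (h (.inr (.inr (.inr (.inr (.inr (.inr (.inr (.inr (.inr (.inl (ν, k, m, n))))))))))))
        la := fun a b m n => sub_eq_zero.1
          (h (.inr (.inr (.inr (.inr (.inr (.inr (.inr (.inr (.inr (.inr (a, b, m, n)))))))))))) }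

private theorem ya23_nat {B' : Type v} [CommRing B'] (f : B →+* B') (K : ℕ) (y : Fin D → B)
    (T : Idx D e r L c → B) (i : DI D e r L c) :
    f (dfct K y T i) = dfct K (fun i => f (y i)) (fun i => f (T i)) i := by
  match i with
  | .inl (j, m) =>
    simp only [dfct, map_sub]
    congr 1
    split_ifs <;> simp
  | .inr (.inl (i, j, m)) => simp only [dfct, map_sub]; rfl
  | .inr (.inr (.inl (i, j, k, l))) =>
    simp only [dfct, map_sub, map_sum, map_mul]; rfl
  | .inr (.inr (.inr (.inl (j, m, n)))) =>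
    simp only [dfct, map_sub]
    congr 1
    split_ifs
    · exact ya23_oR f n
    · simp
  | .inr (.inr (.inr (.inr (.inl (i, j, m, n))))) => simp only [dfct, map_sub]; rfl
  | .inr (.inr (.inr (.inr (.inr (.inl (i, j, k, l, n)))))) =>
    simp only [dfct, map_sub, map_sum]
    congr 1
    · exact Finset.sum_congr rfl fun m _ => ya23_mR f _ _ _ n
    · exact Finset.sum_congr rfl fun m _ => ya23_mR f _ _ _ n
  | .inr (.inr (.inr (.inr (.inr (.inr (.inl (g, n))))))) =>
    simp only [dfct, map_sub, map_sum, map_mul]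
    congr 1
    · rw [ya23_lR, List.map_ofFn]
      congr 2
      funext j m
      exact ya23_bR f _ m
    · refine Finset.sum_congr rfl fun ν _ => Finset.sum_congr rfl fun g' _ => ?_
      rw [ya23_mR]
      congr 2
      funext m
      rw [ya23_lR, List.map_ofFn]
      congr 2
      funext j m'
      exact ya23_gen f y _ m'
  | .inr (.inr (.inr (.inr (.inr (.inr (.inr (.inl (j, m)))))))) =>
    simp only [dfct, map_sub, map_sum, map_mul]
    congr 1
    rw [ya23_pS]
    congr 1
    funext m' n'
    exact ya23_bS f _ _ m' n'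
  | .inr (.inr (.inr (.inr (.inr (.inr (.inr (.inr (.inl ν)))))))) =>
    simp only [dfct, map_sub, map_sum, map_mul]; rfl
  | .inr (.inr (.inr (.inr (.inr (.inr (.inr (.inr (.inr (.inl (ν, k, m, n)))))))))) =>
    simp only [dfct, map_sub, map_sum, map_mul, map_add]
    congr 1
    congr 1
    · refine Finset.sum_congr rfl fun k' _ => ?_
      split_ifs
      · simp only [map_mul]; rfl
      · simp
    · exact Finset.sum_congr rfl fun μ _ => ya23_mS f _ _ _ _ m n
  | .inr (.inr (.inr (.inr (.inr (.inr (.inr (.inr (.inr (.inr (a, b, m, n)))))))))) =>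
    simp only [dfct, map_sub, map_sum, map_mul, map_add]
    congr 1
    · exact ya23_bS f _ _ m n
    · congr 1
      exact Finset.sum_congr rfl fun μ _ => ya23_mS f _ _ _ _ m n

end Df

/-- YA2: the relations are polynomial: a finite set of polynomials over `ℤ[y]`. -/
theorem exists_system_proved (D e r L c K : ℕ) :
    ∃ F : Finset (MvPolynomial (Idx D e r L c) (MvPolynomial (Fin D) ℤ)),
      ∀ (B : Type u) [CommRing B] (γ : MvPolynomial (Fin D) ℤ →+* B) (T : Idx D e r L c → B),
        Rel K (fun i => γ (MvPolynomial.X i)) T ↔ ∀ f ∈ F, MvPolynomial.eval₂Hom γ T f = 0 := by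
  classical
  refine ⟨Finset.univ.image (dfct K (fun i => MvPolynomial.C (MvPolynomial.X i))
    (fun i => MvPolynomial.X i)), fun B _ γ T => ?_⟩
  rw [ya23_rel]
  have key : ∀ i, MvPolynomial.eval₂Hom γ T (dfct K
      (fun i => (MvPolynomial.C (MvPolynomial.X i) :
        MvPolynomial (Idx D e r L c) (MvPolynomial (Fin D) ℤ)))
      (fun i => MvPolynomial.X i) i) = dfct K (fun i => γ (MvPolynomial.X i)) T i := by
    intro i
    rw [ya23_nat]
    congr 1
    · funext j
      simp
    · funext j
      simp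
  constructor
  · intro h f hf
    obtain ⟨i, _, rfl⟩ := Finset.mem_image.1 hf
    rw [key]
    exact h i
  · intro h i
    rw [← key]
    exact h _ (Finset.mem_image_of_mem _ (Finset.mem_univ i))

/-- YA3: relations are preserved by ring homomorphisms -/
theorem Rel.map_proved {D e r L c K : ℕ} {B : Type u} [CommRing B] {B' : Type v} [CommRing B']
    {y : Fin D → B} {T : Idx D e r L c → B} (h : Rel K y T) (f : B →+* B') :
    Rel K (fun i => f (y i)) (fun i => f (T i)) := by
  rw [ya23_rel] at h ⊢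
  intro i
  rw [← ya23_nat, h i, map_zero]

end Vale.Agent.P202Y
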