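import Vale.Agent.P202Y.Rings

/-! # P202Y, module YB1: the ring `R_B` is local (helper36) -/

namespace Vale.Agent.P202Y

open IsLocalRing

universe u

section B

variable {B : Type u} [CommRing B] {D e r L c K : ℕ}
  {y : Fin D → B} {T : Idx D e r L c → B}

theorem yb1_vec_prod (h : SCAx (Tc T)) (l : List (RB T h)) :
    SC.vec l.prod = lR (Tc T) (l.map SC.vec) := by
  induction l with
  | nil => rfl
  | cons a l ih =>
    rw [List.prod_cons, RB_mul_vec, ih]
    rfl

theorem yb1_vec_pow (h : SCAx (Tc T)) (i : Fin (e + 1)) (k : ℕ) :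
    SC.vec ((SC.bas (c := Tc T) (h := h) i) ^ k) = lR (Tc T) (List.replicate k (bR B e i)) := by
  have h1 := yb1_vec_prod h (List.replicate k (SC.bas i))
  rw [List.prod_replicate, List.map_replicate] at h1
  rw [h1]
  congr 2
  funext m
  rw [SC.vec_bas]
  rfl

theorem yb1_mem_map (h : SCAx (Tc T)) (I : Ideal B) (x : RB T h) :
    x ∈ I.map (algebraMap B (RB T h)) ↔ ∀ n, SC.vec x n ∈ I := by
  constructor
  · intro hx
    refine Submodule.span_induction (p := fun x _ => ∀ n, SC.vec x n ∈ I) ?_ ?_ ?_ ?_ hx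
    · rintro _ ⟨b, hb, rfl⟩ n
      rw [SC.vec_algebraMap]
      split
      · exact hb
      · exact I.zero_mem
    · intro n
      rw [map_zero]
      exact I.zero_mem
    · intro a b _ _ ha hb n
      rw [map_add]
      exact I.add_mem (ha n) (hb n)
    · intro a b _ hb n
      rw [smul_eq_mul, SC.vec_mul]
      refine I.sum_mem fun i _ => I.sum_mem fun j _ => ?_
      exact I.mul_mem_right _ (I.mul_mem_left _ (hb j))
  · intro hx
    rw [SC.eq_sum x]
    refine Ideal.sum_mem _ fun i _ => ?_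
    rw [Algebra.smul_def]
    exact Ideal.mul_mem_right _ _ (Ideal.mem_map_of_mem _ (hx i))

theorem yb1_span_eq [IsLocalRing B] (hy : maximalIdeal B = Ideal.span (Set.range y)) (h : SCAx (Tc T)) :
    Ideal.span (Set.range fun ν => algebraMap B (RB T h) (y ν)) =
      (maximalIdeal B).map (algebraMap B (RB T h)) := by
  rw [hy, Ideal.map_span, ← Set.range_comp]
  rfl

/-- the `r_(i+1)` are nilpotent modulo `y` -/
theorem yb1_pow_mem [IsLocalRing B] (hy : maximalIdeal B = Ideal.span (Set.range y)) (h : Rel K y T) (i : Fin e) :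
    (SC.bas (c := Tc T) (h := h.axR) i.succ) ^ (c + 1) ∈
      (maximalIdeal B).map (algebraMap B (RB T h.axR)) := by
  rw [yb1_mem_map]
  intro n
  rw [yb1_vec_pow]
  have h1 := h.red (fun _ => i) n
  rw [List.ofFn_const] at h1
  rw [h1]
  refine Ideal.sum_mem _ fun ν _ => Ideal.sum_mem _ fun g _ => Ideal.mul_mem_right _ _ ?_
  rw [hy]
  exact Ideal.subset_span ⟨ν, rfl⟩

/-- `x ≡ x_0` modulo the `r_(i+1)` -/
theorem yb1_sub_mem (h : SCAx (Tc T)) (x : RB T h) :
    x - algebraMap B (RB T h) (SC.vec x 0) ∈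
      Ideal.span (Set.range fun i : Fin e => SC.bas (c := Tc T) (h := h) i.succ) := by
  have h1 : x - algebraMap B (RB T h) (SC.vec x 0) =
      ∑ i : Fin e, SC.vec x i.succ • SC.bas (c := Tc T) (h := h) i.succ := by
    conv_lhs => rw [SC.eq_sum x]
    rw [Fin.sum_univ_succ, SC.bas_zero, Algebra.algebraMap_eq_smul_one]
    have : SC.vec (SC.vec x 0 • (1 : RB T h) +
        ∑ i : Fin e, SC.vec x i.succ • SC.bas (c := Tc T) (h := h) i.succ) 0 = SC.vec x 0 := by
      rw [← SC.bas_zero, ← Fin.sum_univ_succ (fun i => SC.vec x i • SC.bas (c := Tc T) (h := h) i),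
        ← SC.eq_sum x]
    rw [this]
    abel
  rw [h1]
  refine Ideal.sum_mem _ fun i _ => ?_
  rw [Algebra.smul_def]
  exact Ideal.mul_mem_left _ _ (Ideal.subset_span ⟨i, rfl⟩)

end B

section B2

variable {B : Type u} [CommRing B] [IsLocalRing B] [IsNoetherianRing B] {D e r L c K : ℕ}
  {y : Fin D → B} {T : Idx D e r L c → B}

/-- YB1: `R_B` is local, with maximal ideal generated by the `r_(i+1)` and the `y_ν`. -/
theorem RB_local_proved (hy : maximalIdeal B = Ideal.span (Set.range y)) (h : Rel K y T) :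
    ∃ _ : IsLocalRing (RB T h.axR), IsLocalHom (algebraMap B (RB T h.axR)) ∧
      maximalIdeal (RB T h.axR) = Ideal.span (Set.range fun i : Fin e => SC.bas i.succ) ⊔
        Ideal.span (Set.range fun ν => algebraMap B (RB T h.axR) (y ν)) ∧
      ∃ φ : ResidueField B →+* ResidueField (RB T h.axR), Function.Bijective φ := by
  rw [yb1_span_eq hy h.axR]
  set Y := (maximalIdeal B).map (algebraMap B (RB T h.axR)) with hY
  set J := Ideal.span (Set.range fun i : Fin e => SC.bas (c := Tc T) (h := h.axR) i.succ) with hJ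
  -- primes over `Y` contain `J`
  have hprime : ∀ P : Ideal (RB T h.axR), P.IsPrime → Y ≤ P → J ≤ P := by
    intro P hP hYP
    rw [hJ, Ideal.span_le]
    rintro _ ⟨i, rfl⟩
    exact hP.mem_of_pow_mem _ (hYP (yb1_pow_mem hy h i))
  have hYtop : Y ≠ ⊤ := by
    intro htop
    have h1 : (1 : RB T h.axR) ∈ Y := htop ▸ Submodule.mem_top
    have h2 := (yb1_mem_map h.axR (maximalIdeal B) 1).1 h1 0
    rw [SC.vec_one, if_pos rfl] at h2
    exact (Ideal.ne_top_iff_one _).1 (maximalIdeal.isMaximal B).ne_top h2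
  obtain ⟨P, hPmax, hYP⟩ := Ideal.exists_le_maximal Y hYtop
  have hJP := hprime P hPmax.isPrime hYP
  have hPeq : P = J ⊔ Y := by
    refine le_antisymm (fun x hx => ?_) (sup_le hJP hYP)
    have h1 := yb1_sub_mem h.axR x
    have h2 : algebraMap B (RB T h.axR) (SC.vec x 0) ∈ P := by
      have := P.sub_mem hx (hJP h1)
      rwa [sub_sub_cancel] at this
    have h3 : SC.vec x 0 ∈ maximalIdeal B := by
      rw [mem_maximalIdeal, mem_nonunits_iff]
      intro hu
      exact hPmax.ne_top (Ideal.eq_top_of_isUnit_mem _ h2 (hu.map _))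
    have h4 := Ideal.add_mem (J ⊔ Y) (Ideal.mem_sup_left h1)
      (Ideal.mem_sup_right (Ideal.mem_map_of_mem (algebraMap B (RB T h.axR)) h3))
    rwa [sub_add_cancel] at h4
  have huniq : ∀ Q : Ideal (RB T h.axR), Q.IsMaximal → Q = P := by
    intro Q hQ
    have h1 : (Q.comap (algebraMap B (RB T h.axR))).IsMaximal :=
      Ideal.isMaximal_comap_of_isIntegral_of_isMaximal (R := B) Q
    have h2 : Q.comap (algebraMap B (RB T h.axR)) = maximalIdeal B := eq_maximalIdeal h1
    have h3 : Y ≤ Q := by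
      rw [hY, Ideal.map_le_iff_le_comap, h2]
    have h4 : P ≤ Q := by
      rw [hPeq]
      exact sup_le (hprime Q hQ.isPrime h3) h3
    exact (hPmax.eq_of_le hQ.ne_top h4).symm
  have hloc : IsLocalRing (RB T h.axR) := IsLocalRing.of_unique_max_ideal ⟨P, hPmax, huniq⟩
  have hmax : maximalIdeal (RB T h.axR) = J ⊔ Y := by
    rw [← hPeq]
    exact (eq_maximalIdeal hPmax).symm
  have hlh : IsLocalHom (algebraMap B (RB T h.axR)) := by
    refine ⟨fun b hb => ?_⟩
    by_contra hnu
    have h1 : b ∈ maximalIdeal B := hnu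
    have h2 : algebraMap B (RB T h.axR) b ∈ maximalIdeal (RB T h.axR) := by
      rw [hmax]
      exact Ideal.mem_sup_right (Ideal.mem_map_of_mem _ h1)
    exact h2 hb
  refine ⟨hloc, hlh, hmax, ResidueField.map (algebraMap B (RB T h.axR)),
    (ResidueField.map (algebraMap B (RB T h.axR))).injective, fun z => ?_⟩
  obtain ⟨x, rfl⟩ := residue_surjective z
  refine ⟨residue B (SC.vec x 0), ?_⟩
  rw [ResidueField.map_residue]
  have h1 : x - algebraMap B (RB T h.axR) (SC.vec x 0) ∈ maximalIdeal (RB T h.axR) := by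
    rw [hmax]
    exact Ideal.mem_sup_left (yb1_sub_mem h.axR x)
  have h2 := (residue_eq_zero_iff _).2 h1
  rw [map_sub, sub_eq_zero] at h2
  exact h2.symm

end B2

end Vale.Agent.P202Y
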