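import Vale.Agent.P202Y.Rings

/-! # P202Y, module YB4: `S_B` is local (helper74) -/

namespace Vale.Agent.P202Y

open IsLocalRing

universe u v w

variable {B : Type u} [CommRing B] {D e r L c K : ℕ} {y : Fin D → B} {T : Idx D e r L c → B}

theorem YB4_vecS_one (h : SCAx (Tc T)) (h' : SCAx (dS T h)) :
    vecS (1 : SB T h h') = bS B e r 0 0 := by
  funext m n
  unfold vecS bS
  rw [SC.vec_one]
  by_cases hm : m = 0
  · rw [if_pos hm, SC.vec_one]
    simp [hm]
  · rw [if_neg hm]
    simp [hm]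

theorem YB4_vecS_bas (h : SCAx (Tc T)) (h' : SCAx (dS T h)) (j : Fin (r + 1)) :
    vecS (SC.bas j : SB T h h') = bS B e r j 0 := by
  funext m n
  unfold vecS bS
  rw [SC.vec_bas]
  by_cases hm : m = j
  · rw [if_pos hm, SC.vec_one]
    simp [hm]
  · rw [if_neg hm]
    simp [hm]

theorem YB4_vecS_pow (h : SCAx (Tc T)) (h' : SCAx (dS T h)) (x : SB T h h') (k : ℕ) :
    vecS (x ^ k) = pS (Tc T) (Td T) (vecS x) k := by
  induction k with
  | zero => rw [pow_zero, YB4_vecS_one]; rfl
  | succ k ih => rw [pow_succ, vecS_mul, ih]; rfl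

theorem YB4_vecS_algebraMap (h : SCAx (Tc T)) (h' : SCAx (dS T h)) (x : RB T h) :
    vecS (algebraMap (RB T h) (SB T h h') x) 0 0 = SC.vec x 0 := by
  unfold vecS
  rw [SC.vec_algebraMap, if_pos rfl]

section

variable [IsLocalRing B]

/-- Elements of `R_B` with zeroth coordinate in the maximal ideal. -/
theorem YB4_R_mem (h : Rel K y T) [IsLocalRing (RB T h.axR)]
    (hm : maximalIdeal (RB T h.axR) = Ideal.span (Set.range fun i : Fin e => SC.bas i.succ) ⊔
        Ideal.span (Set.range fun ν => algebraMap B (RB T h.axR) (y ν)))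
    (hy : maximalIdeal B = Ideal.span (Set.range y)) (x : RB T h.axR) :
    x ∈ maximalIdeal (RB T h.axR) ↔ SC.vec x 0 ∈ maximalIdeal B := by
  have hbas : ∀ i : Fin e, (SC.bas i.succ : RB T h.axR) ∈ maximalIdeal (RB T h.axR) := by
    intro i
    rw [hm]
    exact Ideal.mem_sup_left (Ideal.subset_span ⟨i, rfl⟩)
  have halg : ∀ b ∈ maximalIdeal B, algebraMap B (RB T h.axR) b ∈ maximalIdeal (RB T h.axR) := by
    intro b hb
    rw [hy] at hb
    have h1 : algebraMap B (RB T h.axR) b ∈
        (Ideal.span (Set.range y)).map (algebraMap B (RB T h.axR)) := Ideal.mem_map_of_mem _ hb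
    rw [Ideal.map_span, ← Set.range_comp] at h1
    rw [hm]
    exact Ideal.mem_sup_right h1
  have hdec : x = algebraMap B (RB T h.axR) (SC.vec x 0) +
      ∑ i : Fin e, SC.vec x i.succ • (SC.bas i.succ : RB T h.axR) := by
    conv_lhs => rw [SC.eq_sum x]
    rw [Fin.sum_univ_succ, SC.bas_zero, Algebra.algebraMap_eq_smul_one]
  have hsum : ∑ i : Fin e, SC.vec x i.succ • (SC.bas i.succ : RB T h.axR) ∈
      maximalIdeal (RB T h.axR) := by
    refine Ideal.sum_mem _ fun i _ => ?_
    rw [Algebra.smul_def]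
    exact Ideal.mul_mem_left _ _ (hbas i)
  constructor
  · intro hx
    by_contra hcon
    have hu : IsUnit (SC.vec x 0) := by
      by_contra hnu
      exact hcon ((mem_maximalIdeal _).mpr hnu)
    have h1 : algebraMap B (RB T h.axR) (SC.vec x 0) ∈ maximalIdeal (RB T h.axR) := by
      have : algebraMap B (RB T h.axR) (SC.vec x 0) =
          x - ∑ i : Fin e, SC.vec x i.succ • (SC.bas i.succ : RB T h.axR) := by
        conv_rhs => rw [hdec]
        have h2 : SC.vec (algebraMap B (RB T h.axR) (SC.vec x 0) +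
            ∑ i : Fin e, SC.vec x i.succ • (SC.bas i.succ : RB T h.axR)) = SC.vec x := by
          rw [← hdec]
        rw [h2]; ring
      rw [this]
      exact Ideal.sub_mem _ hx hsum
    exact (mem_maximalIdeal _).mp h1 (hu.map _)
  · intro hx
    rw [hdec]
    exact Ideal.add_mem _ (halg _ hx) hsum

/-- YB4: `S_B` is local. -/
theorem SB_local_proved [IsNoetherianRing B] (hy : maximalIdeal B = Ideal.span (Set.range y))
    (h : Rel K y T) [IsLocalRing (RB T h.axR)]
    (hm : maximalIdeal (RB T h.axR) = Ideal.span (Set.range fun i : Fin e => SC.bas i.succ) ⊔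
        Ideal.span (Set.range fun ν => algebraMap B (RB T h.axR) (y ν))) :
    ∃ _ : IsLocalRing (SB T h.axR h.axS), IsLocalHom (algebraMap (RB T h.axR) (SB T h.axR h.axS)) ∧
      (∀ x : SB T h.axR h.axS, vecS x 0 0 ∈ maximalIdeal B → x ∈ maximalIdeal (SB T h.axR h.axS)) ∧
      ∀ x : B, x ∈ maximalIdeal B → algebraMap (RB T h.axR) (SB T h.axR h.axS)
        (algebraMap B (RB T h.axR) x) ∈ maximalIdeal (SB T h.axR h.axS) := by
  have hR := YB4_R_mem h hm hy
  haveI : Algebra.IsIntegral (RB T h.axR) (SB T h.axR h.axS) := Algebra.IsIntegral.of_finite _ _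
  -- every maximal ideal of `S_B` contains `m_R S_B` and the `e_j`
  have hmax : ∀ M : Ideal (SB T h.axR h.axS), M.IsMaximal → ∀ x : SB T h.axR h.axS,
      x ∈ M ↔ vecS x 0 0 ∈ maximalIdeal B := by
    intro M hM x
    have hcomap : M.comap (algebraMap (RB T h.axR) (SB T h.axR h.axS)) =
        maximalIdeal (RB T h.axR) := by
      haveI := Ideal.isMaximal_comap_of_isIntegral_of_isMaximal (R := RB T h.axR) M
      exact IsLocalRing.eq_maximalIdeal this
    have hin : ∀ a : RB T h.axR, a ∈ maximalIdeal (RB T h.axR) →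
        algebraMap (RB T h.axR) (SB T h.axR h.axS) a ∈ M := by
      intro a ha
      rw [← hcomap] at ha
      exact ha
    have hbas : ∀ j : Fin r, (SC.bas j.succ : SB T h.axR h.axS) ∈ M := by
      intro j
      apply hM.isPrime.mem_of_pow_mem K
      rw [SC.eq_sum ((SC.bas j.succ : SB T h.axR h.axS) ^ K)]
      refine Ideal.sum_mem _ fun m _ => ?_
      rw [Algebra.smul_def]
      refine Ideal.mul_mem_right _ _ (hin _ ?_)
      rw [hR]
      have h1 : SC.vec (SC.vec ((SC.bas j.succ : SB T h.axR h.axS) ^ K) m) 0 =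
          pS (Tc T) (Td T) (bS B e r j.succ 0) K m 0 := by
        have h2 := YB4_vecS_pow h.axR h.axS (SC.bas j.succ) K
        rw [YB4_vecS_bas] at h2
        exact congrFun (congrFun h2 m) 0
      rw [h1, h.nl j m, hy]
      exact Ideal.sum_mem _ fun ν _ => Ideal.mul_mem_right _ _ (Ideal.subset_span ⟨ν, rfl⟩)
    have hdec : x = algebraMap (RB T h.axR) (SB T h.axR h.axS) (SC.vec x 0) +
        ∑ j : Fin r, SC.vec x j.succ • (SC.bas j.succ : SB T h.axR h.axS) := by
      conv_lhs => rw [SC.eq_sum x]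
      rw [Fin.sum_univ_succ, SC.bas_zero, Algebra.algebraMap_eq_smul_one]
    have hsum : ∑ j : Fin r, SC.vec x j.succ • (SC.bas j.succ : SB T h.axR h.axS) ∈ M := by
      refine Ideal.sum_mem _ fun i _ => ?_
      rw [Algebra.smul_def]
      exact Ideal.mul_mem_left _ _ (hbas i)
    have hiff : x ∈ M ↔ algebraMap (RB T h.axR) (SB T h.axR h.axS) (SC.vec x 0) ∈ M := by
      constructor
      · intro hx
        have : algebraMap (RB T h.axR) (SB T h.axR h.axS) (SC.vec x 0) =
            x - ∑ j : Fin r, SC.vec x j.succ • (SC.bas j.succ : SB T h.axR h.axS) :=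
          eq_sub_of_add_eq hdec.symm
        rw [this]
        exact Ideal.sub_mem _ hx hsum
      · intro hx
        rw [hdec]
        exact Ideal.add_mem _ hx hsum
    rw [hiff]
    have h3 : algebraMap (RB T h.axR) (SB T h.axR h.axS) (SC.vec x 0) ∈ M ↔
        SC.vec x 0 ∈ maximalIdeal (RB T h.axR) := by
      rw [← hcomap]; rfl
    rw [h3, hR]
    rfl
  haveI hnt : Nontrivial (SB T h.axR h.axS) := inferInstance
  obtain ⟨M₀, hM₀⟩ := Ideal.exists_maximal (SB T h.axR h.axS)
  have hloc : IsLocalRing (SB T h.axR h.axS) := by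
    refine IsLocalRing.of_unique_max_ideal ⟨M₀, hM₀, fun M hM => ?_⟩
    ext x
    rw [hmax M hM, hmax M₀ hM₀]
  have hmem : ∀ x : SB T h.axR h.axS, x ∈ maximalIdeal (SB T h.axR h.axS) ↔
      vecS x 0 0 ∈ maximalIdeal B := fun x => hmax _ (maximalIdeal.isMaximal _) x
  refine ⟨hloc, ⟨fun a ha => ?_⟩, fun x hx => (hmem x).mpr hx, fun x hx => ?_⟩
  · by_contra hna
    have h1 : a ∈ maximalIdeal (RB T h.axR) := (mem_maximalIdeal _).mpr hna
    rw [hR] at h1
    have h2 : algebraMap (RB T h.axR) (SB T h.axR h.axS) a ∈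
        maximalIdeal (SB T h.axR h.axS) := by
      rw [hmem, YB4_vecS_algebraMap]; exact h1
    exact (mem_maximalIdeal _).mp h2 ha
  · rw [hmem, YB4_vecS_algebraMap, SC.vec_algebraMap, if_pos rfl]
    exact hx

end

end Vale.Agent.P202Y
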