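import Vale.Agent.P202.Asymp
import Vale.Agent.P202.Len

namespace Vale.Agent.P202Y

open IsLocalRing Vale.Agent.P202

universe u

theorem YB6_key {S : Type u} [CommRing S] (l : List S) : ∀ (J : Ideal S) (n : ℕ),
    cl (Ideal.ofList l ^ (n + 1) ⊔ J) ≤
      ((n + l.length).choose l.length : ℕ∞) * cl (Ideal.ofList l ⊔ J) := by
  induction l with
  | nil =>
    intro J n
    simp
  | cons y l ih =>
    intro J n
    induction n with
    | zero => simp
    | succ n ihn =>
      have h1 := cl_qt (Ideal.ofList (y :: l) ^ (n + 1 + 1) ⊔ J) y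
      have hy : y ∈ Ideal.ofList (y :: l) := Ideal.subset_span (by simp)
      have h2 : cl (qt (Ideal.ofList (y :: l) ^ (n + 1 + 1) ⊔ J) y) ≤
          cl (Ideal.ofList (y :: l) ^ (n + 1) ⊔ J) := by
        refine cl_anti (sup_le (fun a ha => ?_) (fun a ha => ?_))
        · rw [mem_qt, pow_succ']
          exact Ideal.mem_sup_left (Ideal.mul_mem_mul hy ha)
        · rw [mem_qt]
          exact Ideal.mem_sup_right (J.mul_mem_left y ha)
      have h3 : cl (Ideal.ofList (y :: l) ^ (n + 1 + 1) ⊔ J ⊔ Ideal.span {y}) ≤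
          cl (Ideal.ofList l ^ (n + 1 + 1) ⊔ (J ⊔ Ideal.span {y})) := by
        refine cl_anti ?_
        rw [← sup_assoc]
        refine sup_le_sup (sup_le_sup (Ideal.pow_right_mono ?_ _) le_rfl) le_rfl
        rw [Ideal.ofList_cons]
        exact le_sup_right
      have h4 := ih (J ⊔ Ideal.span {y}) (n + 1)
      have h5 : Ideal.ofList l ⊔ (J ⊔ Ideal.span {y}) = Ideal.ofList (y :: l) ⊔ J := by
        rw [Ideal.ofList_cons]
        ac_rfl
      rw [h5] at h4
      rw [h1]
      refine (add_le_add (h2.trans ihn) (h3.trans h4)).trans ?_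
      rw [← add_mul]
      refine mul_le_mul' (le_of_eq ?_) le_rfl
      rw [← Nat.cast_add]
      congr 1
      simp only [List.length_cons]
      rw [show n + 1 + (l.length + 1) = (n + l.length + 1) + 1 by ring,
        Nat.choose_succ_succ (n + l.length + 1) l.length]
      rw [show n + (l.length + 1) = n + l.length + 1 by ring,
        show n + 1 + l.length = n + l.length + 1 by ring]
      ring

theorem mult_le_length_proved (S : Type u) [CommRing S] [IsLocalRing S] [IsNoetherianRing S] (D : ℕ)
    (hD : ringKrullDim S = D) (z : Fin D → S) (hz : ∀ ν, z ν ∈ maximalIdeal S) (L : ℕ)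
    (hL : Module.length S (S ⧸ Ideal.span (Set.range z)) ≤ L) (x : ℝ) (hx : HasMult S x) :
    x ≤ L := by
  obtain ⟨d, hd, hlim⟩ := hx
  have hdD : d = D := by
    have : ((d : ℕ) : WithBot ℕ∞) = D := hd.symm.trans hD
    exact_mod_cast this
  subst hdD
  have hIle : Ideal.span (Set.range z) ≤ maximalIdeal S := by
    rw [Ideal.span_le]
    rintro _ ⟨ν, rfl⟩
    exact hz ν
  have hof : Ideal.ofList (List.ofFn z) = Ideal.span (Set.range z) := by
    unfold Ideal.ofList
    congr 1
    ext a
    simp [List.mem_ofFn]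
  have key : ∀ n : ℕ, Module.length S (S ⧸ maximalIdeal S ^ (n + 1)) ≤
      (((n + d).choose d * L : ℕ) : ℕ∞) := by
    intro n
    have h1 := YB6_key (List.ofFn z) ⊥ n
    rw [hof, sup_bot_eq, sup_bot_eq, List.length_ofFn] at h1
    have h2 : Module.length S (S ⧸ maximalIdeal S ^ (n + 1)) ≤
        cl (Ideal.span (Set.range z) ^ (n + 1)) := cl_anti (Ideal.pow_right_mono hIle _)
    refine h2.trans (h1.trans ?_)
    rw [Nat.cast_mul]
    exact mul_le_mul' le_rfl hL
  have key2 : ∀ n : ℕ, (Module.length S (S ⧸ maximalIdeal S ^ (n + 1))).toNat ≤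
      (n + d).choose d * L := fun n => ENat.toNat_le_of_le_natCast (key n)
  rcases Nat.eq_zero_or_pos d with h0 | hpos
  · subst h0
    refine le_of_tendsto hlim ?_
    filter_upwards [Filter.eventually_gt_atTop 0] with N hN
    obtain ⟨n, rfl⟩ := Nat.exists_eq_succ_of_ne_zero hN.ne'
    have := key2 n
    simp only [Nat.factorial_zero, Nat.cast_one, one_mul, pow_zero, div_one]
    simp only [Nat.choose_zero_right, one_mul] at this
    exact_mod_cast this
  · obtain ⟨t, rfl⟩ := Nat.exists_eq_succ_of_ne_zero hpos.ne'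
    refine limit_le (fun N => (Module.length S (S ⧸ maximalIdeal S ^ N)).toNat) x L 0 t hlim ?_
    intro N
    rcases Nat.eq_zero_or_pos N with h0 | hN
    · subst h0
      have h0 : cl (maximalIdeal S ^ 0) = 0 := by
        rw [pow_zero, Ideal.one_eq_top]
        exact cl_top
      change (cl (maximalIdeal S ^ 0)).toNat ≤ _
      rw [h0, ENat.toNat_zero]
      exact Nat.zero_le _
    · obtain ⟨n, rfl⟩ := Nat.exists_eq_succ_of_ne_zero hN.ne'
      refine (key2 n).trans ?_
      rw [zero_mul, add_zero, mul_comm]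
      rw [show n + t.succ = n.succ + t by rw [Nat.succ_eq_add_one, Nat.succ_eq_add_one]; ring]

end Vale.Agent.P202Y
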