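import Vale.Agent.P202C.Mult

/-!
P202 in characteristic zero, module YB7: the multiplicity of a Cohen-Macaulay ring.
-/

set_option autoImplicit false

namespace Vale.Agent.P202Y

open IsLocalRing Vale.Agent.P202 Vale.Agent.P202C RingTheory.Sequence

universe u

/-- YB7: multiplicity of a Cohen-Macaulay ring. -/
theorem mult_eq_proved (R : Type u) [CommRing R] [IsLocalRing R] [IsNoetherianRing R]
    (D : ℕ) (hD : ringKrullDim R = D) (y : Fin D → R) (hy : ∀ l, y l ∈ maximalIdeal R)
    (hreg : IsRegular R (List.ofFn y))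
    (c : ℕ) (hc : ∀ t : ℕ, maximalIdeal R ^ (t + c) ≤ Ideal.span (Set.range y) ^ t) (L : ℕ)
    (hL : Module.length R (R ⧸ Ideal.span (Set.range y)) = L) : HasMult R L := by
  have h := (mult_of_reduction_proved R D hD y hy hreg c hc).2
  rw [hL, ENat.toNat_natCast] at h
  exact h

end Vale.Agent.P202Y
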