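import Mathlib

/-! # P202Y, module YD4: bases of `R/yR` and of `S/mS` give a basis of `S/yS` (helper41) -/

namespace Vale.Agent.P202Y

open IsLocalRing

universe u v w

/-- adapted basis of `R/Y` -/
private theorem YD4_series (R : Type u) [CommRing R] [IsLocalRing R] [IsNoetherianRing R]
    {k : Type w} [Field k] (a : k →+* R) (hk : ∀ x, ∃ t, x - a t ∈ maximalIdeal R) (Y : Ideal R) :
    (∃ N, maximalIdeal R ^ N ≤ Y) → Y ≤ maximalIdeal R →
      ∃ (e : ℕ) (ρ : Fin (e + 1) → R), ρ 0 = 1 ∧ (∀ i : Fin e, ρ i.succ ∈ maximalIdeal R) ∧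
        (∀ x, ∃ t : Fin (e + 1) → k, x - ∑ i, a (t i) * ρ i ∈ Y) ∧
        (∀ i, ρ i ∉ Y ⊔ Ideal.span (ρ '' {j | i < j})) ∧
        (Module.length R (R ⧸ Y) = e + 1) := by
  refine IsNoetherian.induction (P := fun Y : Ideal R => (∃ N, maximalIdeal R ^ N ≤ Y) →
      Y ≤ maximalIdeal R →
      ∃ (e : ℕ) (ρ : Fin (e + 1) → R), ρ 0 = 1 ∧ (∀ i : Fin e, ρ i.succ ∈ maximalIdeal R) ∧
        (∀ x, ∃ t : Fin (e + 1) → k, x - ∑ i, a (t i) * ρ i ∈ Y) ∧
        (∀ i, ρ i ∉ Y ⊔ Ideal.span (ρ '' {j | i < j})) ∧
        (Module.length R (R ⧸ Y) = e + 1)) ?_ Y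
  intro Y ih hN hYm
  by_cases hE : Y = maximalIdeal R
  · subst hE
    refine ⟨0, fun _ => 1, rfl, fun i => i.elim0, ?_, ?_, ?_⟩
    · intro x
      obtain ⟨t, ht⟩ := hk x
      exact ⟨fun _ => t, by simpa using ht⟩
    · intro i
      have h0 : {j : Fin (0 + 1) | i < j} = ∅ := by
        ext j
        simp only [Set.mem_ofPred_eq, Set.mem_empty_iff_false, iff_false, not_lt]
        omega
      rw [h0, Set.image_empty, Ideal.span_empty, sup_bot_eq]
      exact (Ideal.ne_top_iff_one _).mp (maximalIdeal.isMaximal R).ne_top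
    · have : IsSimpleModule R (R ⧸ maximalIdeal R) :=
        isSimpleModule_iff_isCoatom.mpr (maximalIdeal.isMaximal R).out
      rw [Module.length_eq_one]
      simp
  · have hlt : Y < maximalIdeal R := lt_of_le_of_ne hYm hE
    classical
    -- a socle element
    obtain ⟨g, hgm, hgY, hmg⟩ : ∃ g ∈ maximalIdeal R, g ∉ Y ∧ ∀ x ∈ maximalIdeal R, x * g ∈ Y := by
      have hs := Nat.find_spec hN
      have hmin := fun n => Nat.find_min hN (m := n)
      rcases h0 : Nat.find hN with _ | s
      · rw [h0, pow_zero, Ideal.one_eq_top] at hs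
        exact absurd (top_le_iff.mp (hs.trans hYm)) (maximalIdeal.isMaximal R).ne_top
      · rcases s with _ | s
        · rw [h0, zero_add, pow_one] at hs
          exact absurd (le_antisymm hYm hs) hE
        · rw [h0] at hs
          have h1 := hmin (s + 1) (by rw [h0]; exact Nat.lt_succ_self _)
          obtain ⟨g, hg1, hg2⟩ := SetLike.not_le_iff_exists.mp h1
          refine ⟨g, ?_, hg2, ?_⟩
          · exact Ideal.pow_le_self (Nat.succ_ne_zero s) hg1
          · intro x hx
            apply hs
            rw [pow_succ', pow_succ'] at *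
            exact Ideal.mul_mem_mul hx (by rw [← pow_succ'] at *; exact hg1)
    set Y' : Ideal R := Y ⊔ Ideal.span {g} with hY'
    have hgY' : g ∈ Y' := Ideal.mem_sup_right (Ideal.mem_span_singleton_self g)
    have hYY' : Y ≤ Y' := le_sup_left
    have hlt' : Y' > Y := by
      refine lt_of_le_of_ne hYY' ?_
      intro h
      exact hgY (h ▸ hgY')
    have hY'm : Y' ≤ maximalIdeal R :=
      sup_le hYm ((Ideal.span_singleton_le_iff_mem _).mpr hgm)
    obtain ⟨e, ρ, h1, h2, h3, h4, h5⟩ := ih Y' hlt' (hN.imp fun n hn => hn.trans hYY') hY'm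
    refine ⟨e + 1, Fin.snoc (α := fun _ => R) ρ g, ?_, ?_, ?_, ?_, ?_⟩
    · have : (0 : Fin (e + 1 + 1)) = Fin.castSucc 0 := rfl
      rw [this, Fin.snoc_castSucc]; exact h1
    · intro i
      refine Fin.lastCases ?_ (fun i => ?_) i
      · rw [Fin.succ_last, Fin.snoc_last]; exact hgm
      · rw [Fin.succ_castSucc, Fin.snoc_castSucc]; exact h2 i
    · intro x
      obtain ⟨t, ht⟩ := h3 x
      obtain ⟨y, hy, z, hz, hyz⟩ := Submodule.mem_sup.mp ht
      obtain ⟨c, rfl⟩ := Ideal.mem_span_singleton'.mp hz
      obtain ⟨t', ht'⟩ := hk c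
      refine ⟨Fin.snoc (α := fun _ => k) t t', ?_⟩
      rw [Fin.sum_univ_castSucc]
      simp only [Fin.snoc_castSucc, Fin.snoc_last]
      have e1 : x - (∑ i : Fin (e + 1), a (t i) * ρ i + a t' * g) = y + (c - a t') * g := by
        linear_combination -hyz
      rw [e1]
      exact Y.add_mem hy (hmg _ ht')
    · intro i
      refine Fin.lastCases ?_ (fun i => ?_) i
      · rw [Fin.snoc_last]
        have h0 : {j : Fin (e + 1 + 1) | Fin.last (e + 1) < j} = ∅ := by
          ext j
          simp [Fin.le_last]
        rw [h0, Set.image_empty, Ideal.span_empty, sup_bot_eq]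
        exact hgY
      · rw [Fin.snoc_castSucc]
        intro hmem
        apply h4 i
        refine (sup_le ?_ ?_ : Y ⊔ Ideal.span _ ≤ Y' ⊔ Ideal.span (ρ '' {j | i < j})) hmem
        · exact hYY'.trans le_sup_left
        · rw [Ideal.span_le]
          rintro _ ⟨j, hj, rfl⟩
          revert hj
          refine Fin.lastCases ?_ (fun j => ?_) j
          · intro _
            rw [Fin.snoc_last]
            exact Ideal.mem_sup_left hgY'
          · intro hj
            rw [Fin.snoc_castSucc]
            exact Ideal.mem_sup_right (Ideal.subset_span ⟨j, by simpa using hj, rfl⟩)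
    · have : IsSimpleModule R (R ⧸ maximalIdeal R) :=
        isSimpleModule_iff_isCoatom.mpr (maximalIdeal.isMaximal R).out
      have hl1 : Module.length R (R ⧸ maximalIdeal R) = 1 := Module.length_eq_one R _
      let f : (R ⧸ maximalIdeal R) →ₗ[R] (R ⧸ Y) :=
        Submodule.liftQ (maximalIdeal R) (LinearMap.toSpanSingleton R (R ⧸ Y)
          (Submodule.Quotient.mk g)) (by
            intro x hx
            rw [LinearMap.mem_ker, LinearMap.toSpanSingleton_apply,
              ← Submodule.Quotient.mk_smul, Submodule.Quotient.mk_eq_zero]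
            exact hmg x hx)
      let q : (R ⧸ Y) →ₗ[R] (R ⧸ Y') := Submodule.factor hYY'
      have hf : ∀ x : R, f (Submodule.Quotient.mk x) = Submodule.Quotient.mk (x * g) := by
        intro x; rfl
      have hq : ∀ x : R, q (Submodule.Quotient.mk x) = Submodule.Quotient.mk x := by
        intro x; rfl
      have hinj : Function.Injective f := by
        rw [injective_iff_map_eq_zero]
        intro x
        refine Submodule.Quotient.induction_on _ x (fun x => ?_)
        rw [hf, Submodule.Quotient.mk_eq_zero, Submodule.Quotient.mk_eq_zero]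
        intro hx
        by_contra hn
        have hu : IsUnit x := by
          by_contra hnu
          exact hn ((mem_maximalIdeal x).mpr hnu)
        exact hgY ((Ideal.unit_mul_mem_iff_mem Y hu).mp hx)
      have hsurj : Function.Surjective q := Submodule.factor_surjective hYY'
      have hex : Function.Exact f q := by
        intro z
        refine Submodule.Quotient.induction_on _ z (fun z => ?_)
        rw [hq, Submodule.Quotient.mk_eq_zero]
        constructor
        · intro hz
          obtain ⟨y, hy, w, hw, hyw⟩ := Submodule.mem_sup.mp hz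
          obtain ⟨c, rfl⟩ := Ideal.mem_span_singleton'.mp hw
          refine ⟨Submodule.Quotient.mk c, ?_⟩
          rw [hf, Submodule.Quotient.eq, ← hyw]
          have : c * g - (y + c * g) = -y := by ring
          rw [this]
          exact Y.neg_mem hy
        · rintro ⟨x, hx⟩
          revert hx
          refine Submodule.Quotient.induction_on _ x (fun x => ?_)
          intro hx
          rw [hf, Submodule.Quotient.eq] at hx
          have : z = x * g - (x * g - z) := by ring
          rw [this]
          exact Y'.sub_mem (Ideal.mul_mem_left _ _ hgY') (hYY' hx)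
      rw [Module.length_eq_add_of_exact f q hinj hsurj hex, hl1, h5]
      push_cast
      ring

/-- independence of an adapted family -/
private theorem YD4_indep {R : Type u} [CommRing R] {k : Type w} [Field k] (a : k →+* R)
    (Y : Ideal R) {e : ℕ} (ρ : Fin (e + 1) → R) (h : ∀ i, ρ i ∉ Y ⊔ Ideal.span (ρ '' {j | i < j}))
    (t : Fin (e + 1) → k) (ht : ∑ i, a (t i) * ρ i ∈ Y) : t = 0 := by
  have key : ∀ n : ℕ, ∀ i : Fin (e + 1), i.1 = n → t i = 0 := by
    intro n
    induction n using Nat.strong_induction_on with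
    | _ n ih =>
      intro i hi
      by_contra hne
      apply h i
      have hu : IsUnit (a (t i)) := (IsUnit.mk0 _ hne).map a
      rw [← Ideal.unit_mul_mem_iff_mem _ hu]
      have e1 : a (t i) * ρ i = ∑ j, a (t j) * ρ j
          - ∑ j ∈ Finset.univ.erase i, a (t j) * ρ j := by
        rw [← Finset.add_sum_erase _ _ (Finset.mem_univ i)]; ring
      rw [e1]
      refine Ideal.sub_mem _ (Ideal.mem_sup_left ht) (Ideal.sum_mem _ (fun j hj => ?_))
      rcases lt_trichotomy j i with hji | hji | hji
      · rw [ih j.1 (by rw [← hi]; exact hji) j rfl, map_zero, zero_mul]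
        exact Ideal.zero_mem _
      · exact absurd hji (Finset.ne_of_mem_erase hj)
      · exact Ideal.mem_sup_right (Ideal.mul_mem_left _ _ (Ideal.subset_span ⟨j, hji, rfl⟩))
  funext i
  exact key i.1 i rfl

/-- flat colon lemma -/
private theorem YD4_colon {R : Type u} {S : Type v} [CommRing R] [IsLocalRing R] [CommRing S]
    [Algebra R S] [Module.Flat R S] (F : Ideal R) (x : R) (hx : x ∉ F) (s : S)
    (hs : algebraMap R S x * s ∈ F.map (algebraMap R S)) :
    s ∈ (maximalIdeal R).map (algebraMap R S) := by
  rw [Ideal.map, Ideal.span, Submodule.mem_span_set'] at hs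
  obtain ⟨n, f, g, hfg⟩ := hs
  have hg : ∀ i, ∃ y ∈ F, algebraMap R S y = (g i : S) := fun i => (g i).2
  choose y hyF hy using hg
  have hrel : ∑ i : Fin (n + 1), (Fin.cons x (fun i => - y i) : Fin (n + 1) → R) i •
      (Fin.cons s f : Fin (n + 1) → S) i = 0 := by
    rw [Fin.sum_univ_succ]
    simp only [Fin.cons_zero, Fin.cons_succ, Algebra.smul_def]
    rw [← hfg, ← Finset.sum_add_distrib]
    refine Finset.sum_eq_zero (fun i _ => ?_)
    rw [map_neg, hy i, smul_eq_mul]
    ring
  obtain ⟨m, A, z, hA, hz⟩ := Module.Flat.isTrivialRelation_of_sum_smul_eq_zero (R := R) (M := S)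
    (f := (Fin.cons x (fun i => - y i) : Fin (n + 1) → R))
    (x := (Fin.cons s f : Fin (n + 1) → S)) hrel
  have h0 := hA 0
  rw [Fin.cons_zero] at h0
  rw [h0]
  refine Ideal.sum_mem _ (fun j _ => ?_)
  rw [Algebra.smul_def]
  refine Ideal.mul_mem_right _ _ (Ideal.mem_map_of_mem _ ?_)
  by_contra hn
  have hu : IsUnit (A 0 j) := by
    by_contra hnu
    exact hn ((mem_maximalIdeal _).mpr hnu)
  apply hx
  rw [← Ideal.unit_mul_mem_iff_mem F hu]
  have hj := hz j
  rw [Fin.sum_univ_succ] at hj
  simp only [Fin.cons_zero, Fin.cons_succ] at hj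
  have e1 : A 0 j * x = ∑ i : Fin n, y i * A i.succ j := by
    have e2 : ∑ i : Fin n, -y i * A i.succ j = - ∑ i : Fin n, y i * A i.succ j := by
      rw [← Finset.sum_neg_distrib]
      exact Finset.sum_congr rfl (fun i _ => by ring)
    rw [e2] at hj
    linear_combination hj
  rw [e1]
  exact Ideal.sum_mem _ (fun i _ => Ideal.mul_mem_right _ _ (hyF i))

/-- YD4: bases of `R/yR` and of `S/mS` give a basis of `S/yS` (flatness and lengths). -/
theorem basis_prod_proved (R : Type u) (S : Type v) [CommRing R] [IsLocalRing R]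
    [IsNoetherianRing R]
    [CommRing S] [IsLocalRing S] [IsNoetherianRing S] [Algebra R S] [Module.Flat R S]
    [IsLocalHom (algebraMap R S)] (Y : Ideal R) (hY : ∃ N, maximalIdeal R ^ N ≤ Y)
    (hYm : Y ≤ maximalIdeal R)
    {k : Type u} [Field k] {l : Type v} [Field l] (a : k →+* R) (b : l →+* S) (j : k →+* l)
    (hab : b.comp j = (algebraMap R S).comp a)
    (hk : ∀ x, ∃ t, x - a t ∈ maximalIdeal R) (hl : ∀ x, ∃ t, x - b t ∈ maximalIdeal S)
    (hfib : ∃ N, maximalIdeal S ^ N ≤ (maximalIdeal R).map (algebraMap R S)) :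
    ∃ (e r : ℕ) (ρ : Fin (e + 1) → R) (σ : Fin (r + 1) → S),
      ρ 0 = 1 ∧ σ 0 = 1 ∧ (∀ i : Fin e, ρ i.succ ∈ maximalIdeal R) ∧
      (∀ i : Fin r, σ i.succ ∈ maximalIdeal S) ∧
      (∀ x, ∃ t : Fin (e + 1) → k, x - ∑ i, a (t i) * ρ i ∈ Y) ∧
      (∀ t : Fin (e + 1) → k, ∑ i, a (t i) * ρ i ∈ Y → t = 0) ∧
      (Module.length R (R ⧸ Y) = e + 1) ∧
      (∀ x : S, ∃ t : Fin (r + 1) × Fin (e + 1) → l,
        x - ∑ i, b (t i) * (algebraMap R S (ρ i.2) * σ i.1) ∈ Y.map (algebraMap R S)) ∧
      (∀ t : Fin (r + 1) × Fin (e + 1) → l,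
        ∑ i, b (t i) * (algebraMap R S (ρ i.2) * σ i.1) ∈ Y.map (algebraMap R S) → t = 0) := by
  have hmS : (maximalIdeal R).map (algebraMap R S) ≤ maximalIdeal S :=
    ((IsLocalRing.local_hom_TFAE (algebraMap R S)).out 0 2).mp ‹IsLocalHom (algebraMap R S)›
  obtain ⟨e, ρ, r1, r2, r3, r4, r5⟩ := YD4_series R a hk Y hY hYm
  obtain ⟨r, σ, s1, s2, s3, s4, _⟩ :=
    YD4_series S b hl ((maximalIdeal R).map (algebraMap R S)) hfib hmS
  refine ⟨e, r, ρ, σ, r1, s1, r2, s2, r3, YD4_indep a Y ρ r4, r5, ?_, ?_⟩
  · -- spanning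
    set P : S → Prop := fun x => ∃ t : Fin (r + 1) × Fin (e + 1) → l,
        x - ∑ i, b (t i) * (algebraMap R S (ρ i.2) * σ i.1) ∈ Y.map (algebraMap R S) with hP
    have hP0 : ∀ x ∈ Y.map (algebraMap R S), P x := by
      intro x hx
      exact ⟨fun _ => 0, by simpa using hx⟩
    have hPadd : ∀ x y, P x → P y → P (x + y) := by
      rintro x y ⟨t, ht⟩ ⟨t', ht'⟩
      refine ⟨fun i => t i + t' i, ?_⟩
      have e1 : x + y - ∑ i, b (t i + t' i) * (algebraMap R S (ρ i.2) * σ i.1)
          = (x - ∑ i, b (t i) * (algebraMap R S (ρ i.2) * σ i.1))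
            + (y - ∑ i, b (t' i) * (algebraMap R S (ρ i.2) * σ i.1)) := by
        have : ∑ i, b (t i + t' i) * (algebraMap R S (ρ i.2) * σ i.1)
            = ∑ i, b (t i) * (algebraMap R S (ρ i.2) * σ i.1)
              + ∑ i, b (t' i) * (algebraMap R S (ρ i.2) * σ i.1) := by
          rw [← Finset.sum_add_distrib]
          exact Finset.sum_congr rfl (fun i _ => by rw [map_add]; ring)
        rw [this]; ring
      rw [e1]
      exact Ideal.add_mem _ ht ht'
    obtain ⟨N, hN⟩ := hY
    have hstep : ∀ n ≤ N, ∀ x ∈ (maximalIdeal R ^ (N - n)).map (algebraMap R S), P x := by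
      intro n
      induction n with
      | zero =>
        intro _ x hx
        exact hP0 x (Ideal.map_mono hN hx)
      | succ n ih =>
        intro hn x hx
        have hn' : N - n = (N - (n + 1)) + 1 := by omega
        have ihn := ih (by omega)
        rw [hn'] at ihn
        have hall : ∀ s : S, P (s * x) := by
          rw [Ideal.map, Ideal.span] at hx
          refine Submodule.span_induction (p := fun x _ => ∀ s : S, P (s * x)) ?_ ?_ ?_ ?_ hx
          · rintro _ ⟨m, hm, rfl⟩ s
            obtain ⟨lam, hlam⟩ := s3 s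
            obtain ⟨t, ht⟩ := r3 m
            set s' : S := s - ∑ i, b (lam i) * σ i with hs'
            have hs'm : s' * algebraMap R S m ∈
                (maximalIdeal R ^ (N - (n + 1) + 1)).map (algebraMap R S) := by
              rw [pow_succ', Ideal.map_mul]
              exact Ideal.mul_mem_mul hlam (Ideal.mem_map_of_mem _ hm)
            set y : R := m - ∑ i, a (t i) * ρ i with hy
            have hmy : algebraMap R S m = algebraMap R S y
                + ∑ i, b (j (t i)) * algebraMap R S (ρ i) := by
              have : m = y + ∑ i, a (t i) * ρ i := by rw [hy]; ring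
              conv_lhs => rw [this]
              rw [map_add, map_sum]
              congr 1
              refine Finset.sum_congr rfl (fun i _ => ?_)
              rw [map_mul]
              congr 1
              exact (RingHom.congr_fun hab (t i)).symm
            have hdec : s * algebraMap R S m = s' * algebraMap R S m
                + ((∑ i, b (lam i) * σ i) * algebraMap R S y
                + (∑ i, b (lam i) * σ i) * ∑ i, b (j (t i)) * algebraMap R S (ρ i)) := by
              rw [← mul_add, ← hmy, hs']; ring
            rw [hdec]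
            refine hPadd _ _ (ihn _ hs'm) (hPadd _ _ (hP0 _ ?_) ?_)
            · exact Ideal.mul_mem_left _ _ (Ideal.mem_map_of_mem _ ht)
            · refine ⟨fun i => lam i.1 * j (t i.2), ?_⟩
              have : ∑ i : Fin (r + 1) × Fin (e + 1), b (lam i.1 * j (t i.2)) *
                  (algebraMap R S (ρ i.2) * σ i.1)
                  = (∑ i, b (lam i) * σ i) * ∑ i, b (j (t i)) * algebraMap R S (ρ i) := by
                rw [Fintype.sum_prod_type, Finset.sum_mul_sum]
                refine Finset.sum_congr rfl (fun i _ => Finset.sum_congr rfl (fun i' _ => ?_))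
                rw [map_mul]; ring
              rw [this, sub_self]
              exact Ideal.zero_mem _
          · intro s
            rw [mul_zero]
            exact hP0 0 (Ideal.zero_mem _)
          · intro x y _ _ hx hy s
            rw [mul_add]
            exact hPadd _ _ (hx s) (hy s)
          · intro c x _ hx s
            rw [smul_eq_mul, ← mul_assoc]
            exact hx (s * c)
        have := hall 1
        rwa [one_mul] at this
    intro x
    refine hstep N le_rfl x ?_
    rw [Nat.sub_self, pow_zero, Ideal.one_eq_top, Ideal.map_top]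
    exact Submodule.mem_top
  · -- independence
    intro t ht
    have key : ∀ n : ℕ, ∀ i : Fin (e + 1), i.1 = n → ∀ i', t (i', i) = 0 := by
      intro n
      induction n using Nat.strong_induction_on with
      | _ n ih =>
        intro i hi
        set s : Fin (e + 1) → S := fun i => ∑ i', b (t (i', i)) * σ i' with hs
        have hsum : ∑ i, b (t i) * (algebraMap R S (ρ i.2) * σ i.1)
            = ∑ i, algebraMap R S (ρ i) * s i := by
          rw [Fintype.sum_prod_type_right]
          refine Finset.sum_congr rfl (fun i _ => ?_)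
          rw [hs, Finset.mul_sum]
          exact Finset.sum_congr rfl (fun i' _ => by ring)
        rw [hsum] at ht
        have hmem : algebraMap R S (ρ i) * s i ∈
            (Y ⊔ Ideal.span (ρ '' {j | i < j})).map (algebraMap R S) := by
          have e1 : algebraMap R S (ρ i) * s i = ∑ j, algebraMap R S (ρ j) * s j
              - ∑ j ∈ Finset.univ.erase i, algebraMap R S (ρ j) * s j := by
            rw [← Finset.add_sum_erase _ _ (Finset.mem_univ i)]; ring
          rw [e1]
          refine Ideal.sub_mem _ (Ideal.map_mono le_sup_left ht)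
            (Ideal.sum_mem _ (fun j hj => ?_))
          rcases lt_trichotomy j i with hji | hji | hji
          · have hz : s j = 0 := by
              rw [hs]
              refine Finset.sum_eq_zero (fun i' _ => ?_)
              rw [ih j.1 (by rw [← hi]; exact hji) j rfl i', map_zero, zero_mul]
            rw [hz, mul_zero]
            exact Ideal.zero_mem _
          · exact absurd hji (Finset.ne_of_mem_erase hj)
          · exact Ideal.mul_mem_right _ _ (Ideal.mem_map_of_mem _
              (Ideal.mem_sup_right (Ideal.subset_span ⟨j, hji, rfl⟩)))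
        have hsm := YD4_colon _ _ (r4 i) _ hmem
        have := YD4_indep b _ σ s4 (fun i' => t (i', i)) hsm
        intro i'
        exact congrFun this i'
    funext i
    exact key i.2.1 i.2 rfl i.1

end Vale.Agent.P202Y
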