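import Vale.Agent.P202Y.Rings
import Vale.Agent.P202T.Defs
import Vale.Agent.P202.Def
import Vale.Agent.P202Y.YD1
import Vale.Agent.P202Y.YD4
import Vale.Agent.P202Y.YD5
import Vale.Agent.P202Y.YD6
import Vale.Agent.P202Y.YD7
import Vale.Agent.P202Y.YB7

/-! # P202Y YD8: extraction with the multiplicities (helper37) -/

namespace Vale.Agent.P202Y

open IsLocalRing Vale.Agent.P202 Vale.Agent.P202T RingTheory.Sequence

universe u v

theorem YD8_pow {R : Type u} [CommRing R] (m Y : Ideal R) (c : ℕ) (h : m ^ (c + 1) ≤ Y * m ^ c)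
    (t : ℕ) : m ^ (t + c) ≤ Y ^ t * m ^ c := by
  induction t with
  | zero => simp
  | succ t ih =>
    calc m ^ (t + 1 + c) = m ^ (t + c) * m := by ring
      _ ≤ Y ^ t * m ^ c * m := Ideal.mul_mono_left ih
      _ = Y ^ t * m ^ (c + 1) := by ring
      _ ≤ Y ^ t * (Y * m ^ c) := Ideal.mul_mono_right h
      _ = Y ^ (t + 1) * m ^ c := by ring

theorem YD8_pow' {R : Type u} [CommRing R] (m Y : Ideal R) (c : ℕ) (h : m ^ (c + 1) ≤ Y * m ^ c)
    (t : ℕ) : m ^ (t + c) ≤ Y ^ t :=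
  (YD8_pow m Y c h t).trans Ideal.mul_le_left

theorem YD8_infinite {R : Type u} [CommRing R] [IsLocalRing R] {k : Type u} [Field k] [CharZero k]
    (a : k →+* R) : Infinite (ResidueField R) :=
  Infinite.of_injective ((residue R).comp a) (RingHom.injective _)

theorem extract_proved (D : ℕ) (R : Type u) (S : Type v) [CommRing R] [IsLocalRing R]
    [IsNoetherianRing R] [IsAdicComplete (maximalIdeal R) R] [CommRing S] [IsLocalRing S]
    [IsNoetherianRing S] [IsAdicComplete (maximalIdeal S) S] [Algebra R S] [Module.Flat R S]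
    [IsLocalHom (algebraMap R S)] [Algebra ℚ R] (hD : ringKrullDim R = D)
    (hDS : ringKrullDim S = D)
    (hfib : ∃ N, maximalIdeal S ^ N ≤ (maximalIdeal R).map (algebraMap R S))
    (hCM : ∃ rs : List R, IsRegular R rs ∧ rs.length = D) :
    ∃ (l : Type v) (_ : Field l) (_ : CharZero l) (e r L c K : ℕ)
      (T : Idx D e r L c → MvPowerSeries (Fin D) l),
      Rel K (fun i => MvPowerSeries.X i) T ∧ HasMult R (e + 1 : ℕ) ∧ HasMult S L := by
  obtain ⟨k, _, l, _, a, b, j, hk0, hl0, hk, hl, hab⟩ := exists_coef_proved R S (algebraMap R S)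
  have : Infinite (ResidueField R) := YD8_infinite a
  have : Infinite (ResidueField S) := YD8_infinite b
  obtain ⟨y, hy, hreg, c, hc⟩ := exists_reduction'_proved R D hD hCM
  have hff : Module.FaithfullyFlat R S := Module.FaithfullyFlat.of_flat_of_isLocalHom
  have hregS : IsRegular S (List.ofFn fun i => algebraMap R S (y i)) := by
    have h1 := IsRegular.of_faithfullyFlat (S := S) hreg
    rw [List.map_ofFn] at h1
    exact h1
  obtain ⟨z, hz, hregz, c', hc'⟩ := exists_reduction'_proved S D hDS ⟨_, hregS, by simp⟩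
  have hY : maximalIdeal R ^ (c + 1) ≤ Ideal.span (Set.range y) := hc.trans Ideal.mul_le_left
  have hYm : Ideal.span (Set.range y) ≤ maximalIdeal R := by
    rw [Ideal.span_le]
    rintro _ ⟨i, rfl⟩
    exact hy i
  obtain ⟨e, r, ρ, σ, hρ0, hσ0, hρm, hσm, hρ1, hρ2, hlen, hσ1, hσ2⟩ :=
    basis_prod_proved R S (Ideal.span (Set.range y)) ⟨_, hY⟩ hYm a b j hab hk hl hfib
  have hlenS : Module.length S (S ⧸ Ideal.span (Set.range z)) ≠ ⊤ := by
    have h1 := cl_sup_pow_ne_top (⊥ : Ideal S) (c' + 1)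
    rw [bot_sup_eq] at h1
    exact ne_top_of_le_ne_top h1 (cl_anti (hc'.trans Ideal.mul_le_left))
  obtain ⟨L, hL⟩ := ENat.ne_top_iff_exists.mp hlenS
  obtain ⟨g, hg1, hg2⟩ := exists_series_proved S b hl (Ideal.span (Set.range z)) L hL.symm
  obtain ⟨K, T, hT⟩ := extract_rel_proved D R S a b j hab hk hl hfib y hy hreg hregS c hc e r ρ σ
    hρ0 hσ0 hρm hσm hρ1 hρ2 hσ1 hσ2 z hz L g hg1 hg2
  refine ⟨l, _, hl0, e, r, L, c, K, T, hT, ?_, ?_⟩
  · exact mult_eq_proved R D hD y hy hreg c (YD8_pow' _ _ c hc) (e + 1) (by rw [hlen]; push_cast; rfl)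
  · exact mult_eq_proved S D hDS z hz hregz c' (YD8_pow' _ _ c' hc') L hL.symm

end Vale.Agent.P202Y
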