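import Vale.Agent.P202Y.Rings
import Vale.Agent.P202T.Defs
import Vale.Agent.P202.Def
import Vale.Agent.P202Y.LP
import Vale.Agent.P202Y.YB1
import Vale.Agent.P202Y.YB2
import Vale.Agent.P202Y.YB3
import Vale.Agent.P202Y.YB4
import Vale.Agent.P202Y.YB5
import Vale.Agent.P202Y.YB6
import Vale.Agent.P202Y.YC1
import Vale.Agent.P202Y.YC2
import Vale.Agent.P202Y.YC3
import Vale.Agent.P202.Full
import Vale.Agent.P202Y.YB7

/-! # P202Y YE1: in characteristic `p` the relations imply `e + 1 ≤ L` (helper37) -/

namespace Vale.Agent.P202Y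

open IsLocalRing Vale.Agent.P202 Vale.Agent.P202T RingTheory.Sequence

/-- the characteristic `p` inequality over a local noetherian ring `B` whose maximal ideal is
generated by a regular sequence -/
theorem YE1_aux (D : ℕ) (hP : LechP D) (p : ℕ) [Fact p.Prime] {B : Type} [CommRing B]
    [IsLocalRing B] [IsNoetherianRing B] [CharP B p] [Infinite (ResidueField B)]
    {e r L c K : ℕ} {y : Fin D → B} {T : Idx D e r L c → B} (h : Rel K y T)
    (hy : maximalIdeal B = Ideal.span (Set.range y)) (hreg : IsRegular B (List.ofFn y))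
    (hF : ∀ (R : Type) [CommRing R] [CharP R p] [Algebra B R] [Module.Finite B R],
      (frobenius R p).Finite) : e + 1 ≤ L := by
  obtain ⟨hloc, hlh, hm, hres⟩ := RB_local_proved hy h
  obtain ⟨hlocS, hlhS, hS0, hS1⟩ := SB_local_proved hy h hm
  have : IsNoetherianRing (RB T h.axR) := IsNoetherianRing.of_finite B _
  have : IsNoetherianRing (SB T h.axR h.axS) := IsNoetherianRing.of_finite (RB T h.axR) _
  obtain ⟨hdim, hregR, hlen⟩ := RB_cm_proved hy hreg h hres
  have hinj : Function.Injective (algebraMap B (RB T h.axR)) :=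
    FaithfulSMul.algebraMap_injective _ _
  have : CharP (RB T h.axR) p := charP_of_injective_algebraMap hinj p
  have : Infinite (ResidueField (RB T h.axR)) := by
    obtain ⟨φ, hφ⟩ := hres
    exact Infinite.of_injective φ hφ.1
  have hmem : ∀ ν, algebraMap B (RB T h.axR) (y ν) ∈ maximalIdeal (RB T h.axR) := by
    intro ν
    have h1 : y ν ∈ maximalIdeal B := by
      rw [hy]
      exact Ideal.subset_span ⟨ν, rfl⟩
    rw [mem_maximalIdeal, mem_nonunits_iff, isUnit_map_iff]
    exact h1
  have hmult := mult_eq_proved (RB T h.axR) D hdim (fun ν => algebraMap B _ (y ν)) hmem hregR c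
    (RB_red_proved hy h hm) (e + 1) (by rw [hlen]; push_cast; rfl)
  have hart : IsArtinianRing (SB T h.axR h.axS ⧸
      (maximalIdeal (RB T h.axR)).map (algebraMap (RB T h.axR) (SB T h.axR h.axS))) := by
    have : Module.Finite (RB T h.axR ⧸ maximalIdeal (RB T h.axR)) (SB T h.axR h.axS ⧸
      (maximalIdeal (RB T h.axR)).map (algebraMap (RB T h.axR) (SB T h.axR h.axS))) :=
        Module.Finite.of_restrictScalars_finite (RB T h.axR) _ _
    have : IsArtinianRing (RB T h.axR ⧸ maximalIdeal (RB T h.axR)) := by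
      let := Ideal.Quotient.field (maximalIdeal (RB T h.axR))
      infer_instance
    exact IsArtinianRing.of_finite (RB T h.axR ⧸ maximalIdeal (RB T h.axR)) _
  have hdimS : ringKrullDim (SB T h.axR h.axS) = D := by
    rw [dim_eq (R := RB T h.axR) (S := SB T h.axR h.axS) hart, hdim]
  obtain ⟨x, hx, -⟩ := hasMult_UX (A := SB T h.axR h.axS) D hdimS
  obtain ⟨hzm, hlz⟩ := SB_length_proved hy h hS1 hS0
  have hle := mult_le_length_proved (SB T h.axR h.axS) D hdimS (fun ν => mkS h.axS (Tz T ν)) hzm L hlz x hx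
  have hch := hP p (RB T h.axR) (SB T h.axR h.axS) (hF (RB T h.axR)) hdim
    ⟨_, hregR, by rw [List.length_ofFn]⟩ _ _ hmult hx
  have : ((e + 1 : ℕ) : ℝ) ≤ L := hch.trans hle
  exact_mod_cast this

theorem ineq_p_proved (D : ℕ) (hP : LechP D) (p : ℕ) [Fact p.Prime] (e r L c K : ℕ)
    (T : Idx D e r L c → MvPowerSeries (Fin D) (AlgebraicClosure (ZMod p)))
    (h : Rel K (fun i => MvPowerSeries.X i) T) : e + 1 ≤ L := by
  have : CharP (MvPowerSeries (Fin D) (AlgebraicClosure (ZMod p))) p :=
    charP_of_injective_algebraMap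
      (FaithfulSMul.algebraMap_injective (AlgebraicClosure (ZMod p)) _) p
  have : Infinite (ResidueField (MvPowerSeries (Fin D) (AlgebraicClosure (ZMod p)))) := by
    exact Infinite.of_injective ((residue _).comp (algebraMap (AlgebraicClosure (ZMod p))
      (MvPowerSeries (Fin D) (AlgebraicClosure (ZMod p))))) (RingHom.injective _)
  exact YE1_aux D hP p h (mvps_maximal_proved D _) (mvps_regular_proved D _) fun R _ _ _ _ =>
    frob_finite_proved D p (AlgebraicClosure (ZMod p)) R

end Vale.Agent.P202Y
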