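import Vale.Agent.P202Y.Rings
import Vale.Agent.P202T.Defs
import Vale.Agent.P202.Def
import Vale.Agent.P202Y.LP
import Vale.Agent.P202T.Stubs
import Vale.Agent.P202Y.YA1
import Vale.Agent.P202Y.YA23
import Vale.Agent.P202Y.YA4
import Vale.Agent.P202Y.YE1

/-! # P202Y, module YE2: transfer of the relations from characteristic zero (helper18)

The coefficients of the solution lie in a countable field, which is moved to `Type`; the transfer theorem
gives a solution over a finitely generated ring, which is specialized to characteristic `p`. -/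

namespace Vale.Agent.P202Y

open IsLocalRing Vale.Agent.P202 Vale.Agent.P202T RingTheory.Sequence

attribute [local instance] Idx_finite_proved

universe u v w

/-- ring homomorphisms out of `ℤ[y]` are determined by the variables -/
theorem ye2_ext {D : ℕ} {B : Type u} [CommRing B] (f g : MvPolynomial (Fin D) ℤ →+* B)
    (h : ∀ i, f (MvPolynomial.X i) = g (MvPolynomial.X i)) : f = g :=
  MvPolynomial.ringHom_ext' (RingHom.ext_int _ _) h

/-- the map `ℤ[y] → k[[y]]` -/
noncomputable def ye2G (D : ℕ) (k : Type u) [CommRing k] :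
    MvPolynomial (Fin D) ℤ →+* MvPowerSeries (Fin D) k :=
  MvPolynomial.eval₂Hom (Int.castRingHom _) MvPowerSeries.X

theorem ye2G_X (D : ℕ) (k : Type u) [CommRing k] (i : Fin D) :
    ye2G D k (MvPolynomial.X i) = MvPowerSeries.X i := by
  unfold ye2G
  rw [MvPolynomial.coe_eval₂Hom, MvPolynomial.eval₂_X]

theorem ye2_map_inj (D : ℕ) {R : Type u} {S : Type v} [CommRing R] [CommRing S] (φ : R →+* S)
    (hφ : Function.Injective φ) : Function.Injective (MvPowerSeries.map (σ := Fin D) φ) := by
  intro f g h
  ext n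
  apply hφ
  have h1 := congrArg (MvPowerSeries.coeff n) h
  rwa [MvPowerSeries.coeff_map, MvPowerSeries.coeff_map] at h1

/-- relations are reflected by injective maps of coefficients (same universe) -/
theorem ye2_reflect {D e r L c K : ℕ} {k k' : Type u} [CommRing k] [CommRing k'] (φ : k →+* k')
    (hφ : Function.Injective φ) (T : Idx D e r L c → MvPowerSeries (Fin D) k)
    (h : Rel K (fun i => (MvPowerSeries.X i : MvPowerSeries (Fin D) k'))
      (fun i => MvPowerSeries.map φ (T i))) :
    Rel K (fun i => (MvPowerSeries.X i : MvPowerSeries (Fin D) k)) T := by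
  obtain ⟨F, hF⟩ := exists_system_proved.{u} D e r L c K
  have h1 := hF _ (ye2G D k') (fun i => MvPowerSeries.map φ (T i))
  have h2 := hF _ (ye2G D k) T
  simp only [ye2G_X] at h1 h2
  rw [h2]
  intro f hf
  have h3 := (h1.1 h) f hf
  apply ye2_map_inj D φ hφ
  rw [map_zero, ← h3, MvPolynomial.coe_eval₂Hom, MvPolynomial.coe_eval₂Hom,
    MvPolynomial.eval₂_comp_left]
  have h4 : (MvPowerSeries.map (σ := Fin D) φ).comp (ye2G D k) = ye2G D k' := by
    refine ye2_ext _ _ (fun i => ?_)
    rw [RingHom.comp_apply, ye2G_X, ye2G_X, MvPowerSeries.map_X]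
  rw [h4]
  rfl

/-- relations are preserved by maps of coefficients -/
theorem ye2_push {D e r L c K : ℕ} {k : Type u} {k' : Type v} [CommRing k] [CommRing k']
    (φ : k →+* k') {T : Idx D e r L c → MvPowerSeries (Fin D) k}
    (h : Rel K (fun i => (MvPowerSeries.X i : MvPowerSeries (Fin D) k)) T) :
    Rel K (fun i => (MvPowerSeries.X i : MvPowerSeries (Fin D) k'))
      (fun i => MvPowerSeries.map φ (T i)) := by
  have h1 := h.map_proved (MvPowerSeries.map (σ := Fin D) φ)
  simp only [MvPowerSeries.map_X] at h1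
  exact h1

/-- the solution comes from a field in `Type` -/
theorem ye2_small {D e r L c K : ℕ} {l : Type v} [Field l] [CharZero l]
    (T : Idx D e r L c → MvPowerSeries (Fin D) l)
    (h : Rel K (fun i => (MvPowerSeries.X i : MvPowerSeries (Fin D) l)) T) :
    ∃ (k : Type) (_ : Field k) (_ : CharZero k) (T' : Idx D e r L c → MvPowerSeries (Fin D) k),
      Rel K (fun i => (MvPowerSeries.X i : MvPowerSeries (Fin D) k)) T' := by
  set S0 : Set l := Set.range
    (fun q : Idx D e r L c × (Fin D →₀ ℕ) => MvPowerSeries.coeff q.2 (T q.1)) with hS0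
  have hc : Countable S0 := by
    rw [hS0]
    exact Set.countable_range _
  set l' : Subfield l := Subfield.closure S0 with hl'
  have hcl : Countable l' := by
    rw [← Cardinal.mk_le_aleph0_iff]
    refine (Subfield.cardinalMk_closure_le_max S0).trans (max_le ?_ le_rfl)
    exact Cardinal.mk_le_aleph0_iff.2 hc
  have hsm : Small.{0} l' := Countable.toSmall l'
  have hmem : ∀ i n, MvPowerSeries.coeff n (T i) ∈ l' := fun i n =>
    Subfield.subset_closure ⟨(i, n), rfl⟩
  let T1 : Idx D e r L c → MvPowerSeries (Fin D) l' := fun i n => ⟨MvPowerSeries.coeff n (T i), hmem i n⟩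
  have hT1 : ∀ i, MvPowerSeries.map l'.subtype (T1 i) = T i := by
    intro i
    ext n
    rw [MvPowerSeries.coeff_map]
    rfl
  have h1 : Rel K (fun i => (MvPowerSeries.X i : MvPowerSeries (Fin D) l')) T1 := by
    refine ye2_reflect l'.subtype l'.subtype_injective T1 ?_
    have h2 : (fun i => MvPowerSeries.map l'.subtype (T1 i)) = T := funext hT1
    rw [h2]
    exact h
  let ρ : l' ≃+* Shrink.{0} l' := (Shrink.ringEquiv l').symm
  have hcz : CharZero (Shrink.{0} l') := charZero_of_injective_ringHom (f := (ρ : l' →+* Shrink.{0} l'))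
    ρ.injective
  exact ⟨Shrink.{0} l', inferInstance, hcz, _, ye2_push (ρ : l' →+* Shrink.{0} l') h1⟩

theorem ineq_zero_proved (D : ℕ) (hP : LechP D) {l : Type v} [Field l] [CharZero l]
    (e r L c K : ℕ) (T : Idx D e r L c → MvPowerSeries (Fin D) l)
    (h : Rel K (fun i => MvPowerSeries.X i) T) : e + 1 ≤ L := by
  obtain ⟨k, _, _, T1, h1⟩ := ye2_small T h
  obtain ⟨F, hF⟩ := exists_system_proved.{0} D e r L c K
  have hbs : ∀ (B : Type) [CommRing B] (i : Fin D),
      bs D ℤ B (MvPolynomial.X i) = MvPowerSeries.X i := by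
    intro B _ i
    unfold bs
    simp
  have h2 := hF _ (bs D ℤ k) T1
  simp only [hbs] at h2
  obtain ⟨Lam, hLam, T2, hT2, -⟩ := transfer D k ℤ (Idx D e r L c) F T1 (h2.1 h1) 0
  have h3 := hF _ (bs D ℤ Lam) T2
  simp only [hbs] at h3
  have h4 := h3.2 hT2
  obtain ⟨p, hp, ⟨ψ⟩⟩ := exists_spec_proved Lam hLam
  exact ineq_p_proved D hP p e r L c K _ (ye2_push ψ h4)

end Vale.Agent.P202Y
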