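import Vale.Agent.P202Y.Rings
import Vale.Agent.P202T.Defs
import Vale.Agent.P202.Def
import Vale.Agent.P202Y.LP
import Vale.Agent.P202Y.YD8
import Vale.Agent.P202Y.YD9
import Vale.Agent.P202Y.YE2

/-! # P202Y, YE3: Lech's inequality for Cohen-Macaulay rings containing the rationals (assembly).
When YD8, YD9, YE2 are proved: replace the import and the three names. -/

namespace Vale.Agent.P202Y

open IsLocalRing Vale.Agent.P202 Vale.Agent.P202T RingTheory.Sequence

universe u v w

theorem YE3_unique {A : Type*} [CommRing A] [IsLocalRing A] {e e' : ℝ}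
    (h : HasMult A e) (h' : HasMult A e') : e = e' := by
  obtain ⟨d, hd, ht⟩ := h
  obtain ⟨d', hd', ht'⟩ := h'
  have h1 : d = d' := by
    rw [hd] at hd'
    exact_mod_cast hd'
  subst h1
  exact tendsto_nhds_unique ht ht'

theorem lech_zero_proved (D : ℕ) (hP : LechP D) (R : Type u) (S : Type v) [CommRing R] [IsLocalRing R]
    [IsNoetherianRing R] [CommRing S] [IsLocalRing S] [IsNoetherianRing S] [Algebra R S]
    [Module.Flat R S] [IsLocalHom (algebraMap R S)] [Algebra ℚ R] (hD : ringKrullDim R = D)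
    (hCM : ∃ rs : List R, IsRegular R rs ∧ rs.length = D) (eR eS : ℝ) (hR : HasMult R eR)
    (hS : HasMult S eS) : eR ≤ eS := by
  obtain ⟨R', S', _, _, _, _, _, _, _, _, _, _, _, _, hD', hDS', hfib, hCM', h1, h2⟩ :=
    reduce_complete_proved D R S hD hCM
  obtain ⟨l, _, _, e, r, L, c, K, T, hrel, m1, m2⟩ := extract_proved D R' S' hD' hDS' hfib hCM'
  have h3 := ineq_zero_proved D hP e r L c K T hrel
  have h4 : eR = ((e + 1 : ℕ) : ℝ) := YE3_unique (h1 eR hR) m1
  have h5 := h2 eS L hS m2
  have h6 : ((e + 1 : ℕ) : ℝ) ≤ (L : ℝ) := by exact_mod_cast h3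
  linarith

end Vale.Agent.P202Y
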